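import Vale.Agent.Lib.P137.Geom

/-! P137 module Kernel (the block KERNEL of the blueprint). -/

open MeasureTheory Metric Set Filter Topology
open scoped ENNReal

noncomputable section

namespace ValeP137

variable {d : ℕ} {r0 : ℝ}

/-- `beta` is at most `4`. -/
theorem beta_le_four (x : ℝ) : beta x ≤ 4 := by
  unfold beta
  have h1 : (1 : ℝ) / 4 ≤ √(max x (1 / 16)) := by
    apply Real.le_sqrt_of_sq_le
    have : (1 / 16 : ℝ) ≤ max x (1 / 16) := le_max_right _ _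
    nlinarith
  have h2 : (0 : ℝ) < 1 / 4 := by norm_num
  calc (√(max x (1 / 16)))⁻¹ ≤ (1 / 4 : ℝ)⁻¹ := inv_anti₀ h2 h1
    _ = 4 := by norm_num

theorem beta_nonneg (x : ℝ) : 0 ≤ beta x := by
  unfold beta; positivity

/-- The uniform estimate `beta (τ / X)² · max τ X ≤ 16 X`. -/
theorem beta_sq_mul_le {τ X : ℝ} (hX : 0 < X) : beta (τ / X) ^ 2 * max τ X ≤ 16 * X := by
  unfold beta
  have hm : (0 : ℝ) < max (τ / X) (1 / 16) := lt_max_of_lt_right (by norm_num)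
  rw [inv_pow, Real.sq_sqrt hm.le, ← div_eq_inv_mul, div_le_iff₀ hm]
  rcases le_total τ X with h | h
  · rw [max_eq_right h]
    have : (1 / 16 : ℝ) ≤ max (τ / X) (1 / 16) := le_max_right _ _
    nlinarith
  · rw [max_eq_left h]
    have : τ / X ≤ max (τ / X) (1 / 16) := le_max_left _ _
    have h3 : τ = τ / X * X := by field_simp
    have hX16 : 0 < 16 * X := by positivity
    nlinarith

/-- The points near `U` are at distance `≤ 14 √(L Y)` from `y`, squared form. -/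
theorem norm_sub_sq_le (b : BallData d) {ρ Y : ℝ} (hρ0 : 0 < ρ) (hρL : ρ ≤ 16 * b.L)
    (hρY : 262144 * ρ ≤ Y) {w : E d} (hτY : b.tau w ≤ Y)
    (hw : w ∈ thickening ((4 / 3) * ρ) b.U) : ‖b.y - w‖ ^ 2 ≤ 196 * (b.L * Y) := by
  obtain ⟨w', hw'U, hww'⟩ := Metric.mem_thickening_iff.1 hw
  simp only [BallData.U, mem_iUnion] at hw'U
  obtain ⟨t, ht, hw'⟩ := hw'U
  have ht0 : 0 < t := by linarith [ht.1]
  have hdl := b.dl_pos
  have hr := b.hr
  have hL : 0 < b.L := lt_trans hr b.r_lt_L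
  have hY : 0 < Y := by nlinarith
  have h1 : t * b.dl < b.tau w' := b.tau_gt_of_mem ht0 hw'
  have h1' : b.dl < b.tau w' := by nlinarith [ht.1]
  have hτ' : 0 < b.tau w' := lt_trans hdl h1'
  have h2 : ‖w' - b.p‖ ^ 2 < 2 * t * b.L * b.tau w' := b.norm_sq_lt_of_mem ht0 hw'
  have hy1 : b.y ∈ b.Bt 1 := b.y_mem (by norm_num)
  have h3 : ‖b.y - b.p‖ ^ 2 < 2 * 1 * b.L * b.tau b.y := b.norm_sq_lt_of_mem one_pos hy1
  rw [b.tau_y] at h3
  have hC : ‖w - w'‖ < (4 / 3) * ρ := by rw [← dist_eq_norm]; exact hww'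
  have h4 : b.tau w' ≤ b.tau w + ‖w' - w‖ := by
    have := b.tau_lip w w'
    linarith [le_abs_self (b.tau w' - b.tau w)]
  have hC' : ‖w' - w‖ < (4 / 3) * ρ := by rw [norm_sub_rev]; exact hC
  have h5 : b.tau w' ≤ 2 * Y := by linarith
  set S := b.L * Y with hS
  have hS0 : 0 < S := mul_pos hL hY
  have hA : ‖b.y - b.p‖ ^ 2 ≤ 20 * S := by
    have : b.L * b.dl ≤ b.L * (2 * Y) := by
      apply mul_le_mul_of_nonneg_left _ hL.le; linarith
    nlinarith
  have hB : ‖w' - b.p‖ ^ 2 ≤ 16 * S := by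
    have h6 : 2 * t * b.L * b.tau w' ≤ 2 * 4 * b.L * b.tau w' := by
      have := ht.2
      apply mul_le_mul_of_nonneg_right _ hτ'.le
      apply mul_le_mul_of_nonneg_right _ hL.le
      linarith
    have : b.L * b.tau w' ≤ b.L * (2 * Y) := mul_le_mul_of_nonneg_left h5 hL.le
    nlinarith
  have hCsq : ‖w - w'‖ ^ 2 ≤ S := by
    have h7 : ‖w - w'‖ ^ 2 ≤ ((4 / 3) * ρ) ^ 2 := by
      apply pow_le_pow_left₀ (norm_nonneg _) hC.le
    have h8 : ρ * ρ ≤ (16 * b.L) * (Y / 262144) := by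
      apply mul_le_mul hρL (by linarith) hρ0.le (by positivity)
    have h9 : (16 * b.L) * (Y / 262144) = S / 16384 := by rw [hS]; ring
    nlinarith
  have htri : ‖b.y - w‖ ≤ ‖b.y - b.p‖ + ‖w' - b.p‖ + ‖w - w'‖ := by
    have e : b.y - w = (b.y - b.p) - (w' - b.p) - (w - w') := by abel
    rw [e]
    refine (norm_sub_le _ _).trans ?_
    gcongr
    exact norm_sub_le _ _
  have hn : 0 ≤ ‖b.y - w‖ := norm_nonneg _
  set A := ‖b.y - b.p‖
  set B := ‖w' - b.p‖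
  set C := ‖w - w'‖
  have hA0 : 0 ≤ A := norm_nonneg _
  have hB0 : 0 ≤ B := norm_nonneg _
  have hC0 : 0 ≤ C := norm_nonneg _
  have h10 : ‖b.y - w‖ ^ 2 ≤ (A + B + C) ^ 2 := pow_le_pow_left₀ hn htri 2
  nlinarith [sq_nonneg (A - B), sq_nonneg (B - C), sq_nonneg (A - C)]

/-- Points near `U`, at scale at most `16 r_j`, are within `64 r_j` of `y`. -/
theorem norm_sub_le_64 (hr0 : 0 < r0) (b : BallData d) {j : ℕ} (hj : b.r < rj r0 (j + 1))
    {ρ : ℝ} (hρ : ρ ≤ 16 * rj r0 j) {w : E d} (hw : w ∈ thickening ((4 / 3) * ρ) b.U) :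
    ‖w - b.y‖ < 64 * rj r0 j := by
  obtain ⟨w', hw'U, hww'⟩ := Metric.mem_thickening_iff.1 hw
  have h1 : w' ∈ ball b.y (8 * b.r) := b.U_sub hw'U
  rw [mem_ball, dist_eq_norm] at h1
  rw [dist_eq_norm] at hww'
  rw [rj_succ] at hj
  have hrj := rj_pos hr0 j
  have e : w - b.y = (w - w') + (w' - b.y) := by abel
  rw [e]
  refine (norm_add_le _ _).trans_lt ?_
  linarith

theorem rho_le_rj (r0 : ℝ) (hr0 : 0 < r0) {l j : ℕ} (hl : l < j + d + 9) :
    rho d r0 (l + 1) ≤ 16 * rj r0 j := by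
  rw [← rho_top d r0 j]
  exact rho_mono d hr0 (by omega)

theorem Xs_ge_rho (hr0 : 0 < r0) (i : ℕ) : 262144 * rho d r0 i ≤ Xs r0 i := by
  unfold rho
  have hX := Xs_pos hr0 i
  have h : (262144 : ℝ) ≤ 4 ^ (d + 9) := by
    calc (262144 : ℝ) = 4 ^ 9 := by norm_num
      _ ≤ 4 ^ (d + 9) := pow_le_pow_right₀ (by norm_num) (by omega)
  have hp : (0 : ℝ) < 4 ^ (d + 9) := by positivity
  rw [mul_div_assoc', div_le_iff₀ hp]
  nlinarith

theorem bK_sq (r0 : ℝ) (l j : ℕ) : bK r0 l j ^ 2 = 1225 * (rj r0 j * Xs r0 (l + 1)) := by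
  unfold bK rj Xs
  have : ((2 : ℝ) ^ (j + l + 1)) ^ 2 = 4 ^ j * 4 ^ (l + 1) := by
    rw [← pow_mul, show (4 : ℝ) = 2 ^ 2 by norm_num, ← pow_mul, ← pow_mul, ← pow_add]
    congr 1; ring
  calc (140 * r0 * 2 ^ (j + l + 1)) ^ 2 = 19600 * r0 ^ 2 * ((2 : ℝ) ^ (j + l + 1)) ^ 2 := by ring
    _ = _ := by rw [this]; ring

theorem bK_pos (hr0 : 0 < r0) (l j : ℕ) : 0 < bK r0 l j := by
  unfold bK; positivity

theorem apot_succ (r0 : ℝ) (b : BallData d) (l : ℕ) (w : E d) :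
    apot r0 b (l + 1) w = indicator (thickening ((4 / 3) * rho d r0 (l + 1)) b.U)
      (fun w => ENNReal.ofReal (200 * beta (b.tau w / Xs r0 (l + 1)))) w := rfl

/-- The potential is bounded by the kernel. -/
theorem apot_le_ker (hd : 1 ≤ d) (hr0 : 0 < r0) (b : BallData d) {j l : ℕ}
    (hj0 : rj r0 j ≤ b.r) (hj : b.r < rj r0 (j + 1)) (hl : l < j + d + 9) (w : E d) :
    apot r0 b (l + 1) w ≤ ENNReal.ofReal 800 * kerE r0 l j (b.y - w) := by
  rw [apot_succ]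
  by_cases hw : w ∈ thickening ((4 / 3) * rho d r0 (l + 1)) b.U
  swap
  · rw [indicator_of_notMem hw]; exact zero_le
  rw [indicator_of_mem hw]
  have hρj : rho d r0 (l + 1) ≤ 16 * rj r0 j := rho_le_rj r0 hr0 hl
  have h64 := norm_sub_le_64 hr0 b hj hρj hw
  have hz : b.y - w ∈ closedBall (0 : E d) (64 * rj r0 j) := by
    rw [mem_closedBall, dist_zero_right, norm_sub_rev]; exact h64.le
  unfold kerE
  rw [indicator_of_mem hz, ← ENNReal.ofReal_mul (by norm_num)]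
  apply ENNReal.ofReal_le_ofReal
  unfold kmin
  have hbK := bK_pos hr0 l j
  have hm : 0 < max (bK r0 l j) ‖b.y - w‖ := lt_max_of_lt_left hbK
  rw [← mul_div_assoc, le_div_iff₀ hm]
  set X := Xs r0 (l + 1) with hX
  have hX0 : 0 < X := Xs_pos hr0 _
  set β := beta (b.tau w / X) with hβ
  have hβ0 : 0 ≤ β := beta_nonneg _
  have hβ4 : β ≤ 4 := beta_le_four _
  suffices h : β * max (bK r0 l j) ‖b.y - w‖ ≤ 4 * bK r0 l j by nlinarith
  have hL6 : b.L < 6 * rj r0 j := by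
    have h1 := b.L_le
    rw [rj_succ] at hj
    linarith
  have hrj := rj_pos hr0 j
  rcases le_total (bK r0 l j) ‖b.y - w‖ with hc | hc
  · rw [max_eq_right hc]
    set Y := max (b.tau w) X with hY
    have hXY : X ≤ Y := le_max_right _ _
    have hτY : b.tau w ≤ Y := le_max_left _ _
    have hρ0 := rho_pos d hr0 (l + 1)
    have hL0 : 0 < b.L := lt_trans b.hr b.r_lt_L
    have hρL : rho d r0 (l + 1) ≤ 16 * b.L := by
      have := b.r_lt_L
      linarith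
    have hρY : 262144 * rho d r0 (l + 1) ≤ Y := (Xs_ge_rho hr0 (l + 1)).trans hXY
    have hn := norm_sub_sq_le b hρ0 hρL hρY hτY hw
    have hβsq : β ^ 2 * Y ≤ 16 * X := beta_sq_mul_le hX0
    have hKsq := bK_sq r0 l j
    rw [← hX] at hKsq
    have hsq : (β * ‖b.y - w‖) ^ 2 ≤ (4 * bK r0 l j) ^ 2 := by
      have h1 : (β * ‖b.y - w‖) ^ 2 = β ^ 2 * ‖b.y - w‖ ^ 2 := by ring
      have h2 : β ^ 2 * ‖b.y - w‖ ^ 2 ≤ β ^ 2 * (196 * (b.L * Y)) :=
        mul_le_mul_of_nonneg_left hn (by positivity)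
      have h3 : β ^ 2 * (196 * (b.L * Y)) = 196 * b.L * (β ^ 2 * Y) := by ring
      have h4 : 196 * b.L * (β ^ 2 * Y) ≤ 196 * b.L * (16 * X) :=
        mul_le_mul_of_nonneg_left hβsq (by positivity)
      have h5 : b.L * X ≤ 6 * rj r0 j * X := mul_le_mul_of_nonneg_right hL6.le hX0.le
      have h6 : (4 * bK r0 l j) ^ 2 = 16 * (1225 * (rj r0 j * X)) := by
        rw [mul_pow, hKsq]; norm_num
      have h7 : 0 < rj r0 j * X := mul_pos hrj hX0
      rw [h1, h6]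
      nlinarith
    exact (pow_le_pow_iff_left₀ (by positivity) (by positivity) two_ne_zero).1 hsq
  · rw [max_eq_left hc]
    nlinarith

/-- The defect weight on `U` is bounded by the kernel. -/
theorem U_le_ker (hr0 : 0 < r0) (b : BallData d) {j l : ℕ}
    (hj0 : rj r0 j ≤ b.r) (hj : b.r < rj r0 (j + 1)) (hl : l < j) {w : E d} (hw : w ∈ b.U) :
    ENNReal.ofReal (rho d r0 (l + 1)) ≤ ENNReal.ofReal (rj r0 j) * kerE r0 l j (b.y - w) := by
  have h1 : w ∈ ball b.y (8 * b.r) := b.U_sub hw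
  rw [mem_ball, dist_eq_norm] at h1
  rw [rj_succ] at hj
  have hrj := rj_pos hr0 j
  have hn : ‖b.y - w‖ ≤ 32 * rj r0 j := by
    rw [norm_sub_rev]; linarith
  have hz : b.y - w ∈ closedBall (0 : E d) (64 * rj r0 j) := by
    rw [mem_closedBall, dist_zero_right]; linarith
  unfold kerE
  rw [indicator_of_mem hz, ← ENNReal.ofReal_mul hrj.le]
  apply ENNReal.ofReal_le_ofReal
  unfold kmin
  have hbK := bK_pos hr0 l j
  have hm : 0 < max (bK r0 l j) ‖b.y - w‖ := lt_max_of_lt_left hbK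
  rw [← mul_div_assoc, le_div_iff₀ hm]
  have hρ0 := rho_pos d hr0 (l + 1)
  have hρX := Xs_ge_rho (d := d) hr0 (l + 1)
  -- `rho_{l+1}` is small with respect to both `r_j` and `bK`
  have h4 : (4 : ℝ) ^ (l + 1) ≤ 4 ^ j := pow_le_pow_right₀ (by norm_num) hl
  have h5 : (4 : ℝ) ^ (l + 1) ≤ 2 ^ (j + l + 1) := by
    rw [show (4 : ℝ) = 2 ^ 2 by norm_num, ← pow_mul]
    exact pow_le_pow_right₀ (by norm_num) (by omega)
  have hX1 : Xs r0 (l + 1) = 16 * r0 * 4 ^ (l + 1) := rfl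
  have hr1 : r0 * 4 ^ (l + 1) ≤ rj r0 j := by
    unfold rj; exact mul_le_mul_of_nonneg_left h4 hr0.le
  have hr2 : r0 * 4 ^ (l + 1) ≤ r0 * 2 ^ (j + l + 1) := mul_le_mul_of_nonneg_left h5 hr0.le
  have hρ1 : 16384 * rho d r0 (l + 1) ≤ r0 * 4 ^ (l + 1) := by
    rw [hX1] at hρX; nlinarith
  have hbK' : bK r0 l j = 140 * (r0 * 2 ^ (j + l + 1)) := by unfold bK; ring
  rcases le_total (bK r0 l j) ‖b.y - w‖ with hc | hc
  · rw [max_eq_right hc]
    have h6 : rho d r0 (l + 1) * ‖b.y - w‖ ≤ rho d r0 (l + 1) * (32 * rj r0 j) :=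
      mul_le_mul_of_nonneg_left hn hρ0.le
    have h7 : rho d r0 (l + 1) * 32 ≤ bK r0 l j := by rw [hbK']; nlinarith
    nlinarith
  · rw [max_eq_left hc]
    have h7 : rho d r0 (l + 1) ≤ rj r0 j := by nlinarith
    exact mul_le_mul_of_nonneg_right h7 hbK.le

/-- The potential vanishes far away, top level. -/
theorem apot_top_le (hd : 1 ≤ d) (hr0 : 0 < r0) (b : BallData d) {j : ℕ}
    (hj : b.r < rj r0 (j + 1)) (w : E d) :
    apot r0 b (j + d + 9) w ≤
      indicator (ball b.y (64 * rj r0 j)) (fun _ => ENNReal.ofReal 800) w := by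
  have e : j + d + 9 = (j + d + 8) + 1 := rfl
  rw [e, apot_succ, ← e]
  by_cases hw : w ∈ thickening ((4 / 3) * rho d r0 (j + d + 9)) b.U
  swap
  · rw [indicator_of_notMem hw]; exact zero_le
  rw [indicator_of_mem hw]
  have h64 := norm_sub_le_64 hr0 b hj (rho_top d r0 j).le hw
  have hm : w ∈ ball b.y (64 * rj r0 j) := by
    rw [mem_ball, dist_eq_norm]; exact h64
  rw [indicator_of_mem hm]
  apply ENNReal.ofReal_le_ofReal
  have := beta_le_four (b.tau w / Xs r0 (j + d + 9))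
  linarith

end ValeP137
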