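import Vale.Agent.Lib.P137.Scales

/-! P137 module Levels (the partition of unity `thl`). -/

open MeasureTheory Metric Set Filter Topology
open scoped ENNReal

noncomputable section

namespace ValeP137

variable {r0 : ℝ}

theorem Yc_continuous : Continuous Yc := by
  unfold Yc
  exact continuous_const.max (continuous_const.min (continuous_const.sub continuous_id))

theorem Yc_nonneg (x : ℝ) : 0 ≤ Yc x := le_max_left _ _

theorem Yc_le_one (x : ℝ) : Yc x ≤ 1 := by
  unfold Yc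
  exact max_le zero_le_one (min_le_left _ _)

theorem Yc_eq_one {x : ℝ} (hx : x ≤ 2) : Yc x = 1 := by
  unfold Yc
  rw [min_eq_left (by linarith), max_eq_right zero_le_one]

theorem Yc_eq_zero {x : ℝ} (hx : 3 ≤ x) : Yc x = 0 := by
  unfold Yc
  apply max_eq_left
  exact (min_le_right _ _).trans (by linarith)

theorem Yc_antitone {x y : ℝ} (h : x ≤ y) : Yc y ≤ Yc x := by
  unfold Yc
  exact max_le_max le_rfl (min_le_min le_rfl (by linarith))

theorem Yc_ge_of_le {x : ℝ} (h : x ≤ 3) : 3 - x ≤ Yc x ∨ Yc x = 1 := by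
  by_cases h2 : x ≤ 2
  · exact Or.inr (Yc_eq_one h2)
  · left
    unfold Yc
    rw [min_eq_right (by linarith)]
    exact le_max_right _ _

theorem thl_cont (hr0 : 0 < r0) (i : ℕ) : Continuous (thl r0 i) := by
  have h (k : ℕ) : Continuous (fun x : ℝ => Yc (x / Xs r0 k)) :=
    Yc_continuous.comp (continuous_id.div_const _)
  cases i with
  | zero => exact h 0
  | succ n => exact (h (n + 1)).sub (h n)

theorem thl_nonneg (hr0 : 0 < r0) (i : ℕ) (x : ℝ) : 0 ≤ thl r0 i x := by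
  cases i with
  | zero => exact Yc_nonneg _
  | succ n =>
    show 0 ≤ Yc (x / Xs r0 (n + 1)) - Yc (x / Xs r0 n)
    have hX := Xs_pos hr0 n
    rw [Xs_succ]
    rcases le_total 0 x with hx | hx
    · have : x / (4 * Xs r0 n) ≤ x / Xs r0 n :=
        div_le_div_of_nonneg_left hx hX (by linarith)
      linarith [Yc_antitone this]
    · have h1 : x / (4 * Xs r0 n) ≤ 2 := by
        have : x / (4 * Xs r0 n) ≤ 0 := div_nonpos_of_nonpos_of_nonneg hx (by positivity)
        linarith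
      have h2 : x / Xs r0 n ≤ 2 := by
        have : x / Xs r0 n ≤ 0 := div_nonpos_of_nonpos_of_nonneg hx (by positivity)
        linarith
      rw [Yc_eq_one h1, Yc_eq_one h2]; simp

theorem thl_le_one (hr0 : 0 < r0) (i : ℕ) (x : ℝ) : thl r0 i x ≤ 1 := by
  cases i with
  | zero => exact Yc_le_one _
  | succ n =>
    show Yc (x / Xs r0 (n + 1)) - Yc (x / Xs r0 n) ≤ 1
    linarith [Yc_le_one (x / Xs r0 (n + 1)), Yc_nonneg (x / Xs r0 n)]

theorem thl_sum (hr0 : 0 < r0) (N : ℕ) (x : ℝ) :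
    ∑ i ∈ Finset.range (N + 1), thl r0 i x = Yc (x / Xs r0 N) := by
  induction N with
  | zero => simp [thl]
  | succ n ih =>
    rw [Finset.sum_range_succ, ih]
    show Yc (x / Xs r0 n) + (Yc (x / Xs r0 (n + 1)) - Yc (x / Xs r0 n)) = _
    ring

/-- `th_i x ≠ 0` implies `x < 3 X_i`. -/
theorem thl_eq_zero_of_ge (hr0 : 0 < r0) (i : ℕ) {x : ℝ} (hx : 3 * Xs r0 i ≤ x) : thl r0 i x = 0 := by
  cases i with
  | zero =>
    show Yc (x / Xs r0 0) = 0
    apply Yc_eq_zero
    rwa [le_div_iff₀ (Xs_pos hr0 0)]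
  | succ n =>
    show Yc (x / Xs r0 (n + 1)) - Yc (x / Xs r0 n) = 0
    have hX := Xs_pos hr0 n
    have h1 : 3 ≤ x / Xs r0 (n + 1) := by rwa [le_div_iff₀ (Xs_pos hr0 (n + 1))]
    have h2 : 3 ≤ x / Xs r0 n := by
      rw [le_div_iff₀ hX]
      rw [Xs_succ] at hx
      linarith
    rw [Yc_eq_zero h1, Yc_eq_zero h2]; simp

/-- `th_{i+1} x ≠ 0` implies `x > X_{i+1} / 2`. -/
theorem thl_succ_eq_zero (hr0 : 0 < r0) (i : ℕ) {x : ℝ} (hx : x ≤ Xs r0 (i + 1) / 2) :
    thl r0 (i + 1) x = 0 := by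
  show Yc (x / Xs r0 (i + 1)) - Yc (x / Xs r0 i) = 0
  have hX := Xs_pos hr0 i
  have h1 : x / Xs r0 (i + 1) ≤ 2 := by
    rw [div_le_iff₀ (Xs_pos hr0 (i + 1))]
    linarith [Xs_pos hr0 (i + 1)]
  have h2 : x / Xs r0 i ≤ 2 := by
    rw [div_le_iff₀ hX]
    rw [Xs_succ] at hx
    linarith
  rw [Yc_eq_one h1, Yc_eq_one h2]; simp

/-- `th_i ≥ 1/4` on `[(18/32) X_i, (82/32) X_i]`. -/
theorem thl_ge_quarter (hr0 : 0 < r0) (i : ℕ) {x : ℝ} (h1 : (18 / 32) * Xs r0 i ≤ x)
    (h2 : x ≤ (82 / 32) * Xs r0 i) : 1 / 4 ≤ thl r0 i x := by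
  cases i with
  | zero =>
    show 1 / 4 ≤ Yc (x / Xs r0 0)
    have hX := Xs_pos hr0 0
    have ha : x / Xs r0 0 ≤ 82 / 32 := by rwa [div_le_iff₀ hX]
    rcases Yc_ge_of_le (by linarith : x / Xs r0 0 ≤ 3) with h | h
    · linarith
    · rw [h]; norm_num
  | succ n =>
    show 1 / 4 ≤ Yc (x / Xs r0 (n + 1)) - Yc (x / Xs r0 n)
    have hX := Xs_pos hr0 n
    have hX' := Xs_pos hr0 (n + 1)
    set a := x / Xs r0 (n + 1) with ha
    have hb : x / Xs r0 n = 4 * a := by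
      rw [ha, Xs_succ]; field_simp
    have ha1 : 18 / 32 ≤ a := by rw [ha, le_div_iff₀ hX']; exact h1
    have ha2 : a ≤ 82 / 32 := by rw [ha, div_le_iff₀ hX']; exact h2
    rw [hb]
    by_cases h3 : a ≤ 2
    · rw [Yc_eq_one h3]
      have : Yc (4 * a) ≤ 3 / 4 := by
        unfold Yc
        apply max_le (by norm_num)
        exact (min_le_right _ _).trans (by linarith)
      linarith
    · have h4 : Yc (4 * a) = 0 := Yc_eq_zero (by linarith [not_le.mp h3])
      rw [h4, sub_zero]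
      rcases Yc_ge_of_le (by linarith : a ≤ 3) with h | h
      · linarith
      · rw [h]; norm_num

end ValeP137
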