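import Vale.Agent.Lib.P137.Geom
import Vale.Agent.Lib.P137.Levels

/-! P137 module ThetaBounds (facts G3, G6, G7 of the blueprint). -/

open MeasureTheory Metric Set Filter Topology
open scoped ENNReal

noncomputable section

namespace ValeP137

variable {d : ℕ} {r0 : ℝ}

/-- A set of reals all of whose pairs are at distance at most `D` has volume at most `D`. -/
private theorem vol_le_of_pairs {S : Set ℝ} {D : ℝ} (hD : 0 ≤ D)
    (h : ∀ t₁ ∈ S, ∀ t₂ ∈ S, t₁ < t₂ → t₂ - t₁ ≤ D) : volume S ≤ ENNReal.ofReal D := by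
  refine (Real.volume_le_diam S).trans ?_
  refine Metric.ediam_le ?_
  intro x hx y hy
  rw [edist_dist, Real.dist_eq]
  apply ENNReal.ofReal_le_ofReal
  rcases lt_trichotomy x y with hxy | hxy | hxy
  · rw [abs_sub_comm, abs_of_pos (by linarith)]
    exact h x hx y hy hxy
  · subst hxy
    simpa using hD
  · rw [abs_of_pos (by linarith)]
    exact h y hy x hx hxy

/-- (G3) -/
theorem meas_q_le (b : BallData d) (w : E d) (hτ : 0 < b.tau w) {Q : ℝ} (hQ : 0 < Q) :
    volume {t ∈ Icc (1 : ℝ) 4 | 0 < b.q t w ∧ b.q t w ≤ 8 * b.r * Q} ≤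
      ENNReal.ofReal (32 * √(Q / b.tau w)) := by
  set τ := b.tau w with hτdef
  set S : Set ℝ := {t ∈ Icc (1 : ℝ) 4 | 0 < b.q t w ∧ b.q t w ≤ 8 * b.r * Q} with hS
  set L := b.L with hL
  set E' := b.Eps with hE'
  set C := ‖w - b.p‖ ^ 2 with hC
  have hr : 0 < b.r := b.hr
  have hrL : b.r < L := b.r_lt_L
  have hLpos : 0 < L := hr.trans hrL
  have hEpos : 0 < E' := b.Eps_pos
  set x := Q / τ with hx
  have hxpos : 0 < x := div_pos hQ hτ
  have hsq : 0 ≤ √x := Real.sqrt_nonneg x
  have hqf : ∀ t, b.q t w = 2 * t * L * τ - C - t ^ 2 * E' := fun t => b.q_formula t w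
  -- difference identity
  have hdiff : ∀ t₁ t₂, b.q t₂ w - b.q t₁ w = (t₂ - t₁) * (2 * L * τ - E' * (t₁ + t₂)) := by
    intro t₁ t₂
    rw [hqf, hqf]
    ring
  have hQτ : Q = x * τ := by
    rw [hx]
    field_simp
  by_cases hcase : L * τ / 8 ≤ E'
  · -- first case: each side of the vertex has small diameter
    set t0 := 2 * L * τ / (2 * E') with ht0
    have ht0eq : 2 * L * τ = 2 * E' * t0 := by
      rw [ht0]
      field_simp
    have hkey : ∀ t₁ t₂, t₁ ∈ S → t₂ ∈ S → t₁ < t₂ →
        E' * (t₂ - t₁) ^ 2 ≤ 8 * b.r * Q → t₂ - t₁ ≤ 8 * √x := by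
      intro t₁ t₂ _ _ hlt hle
      have h1 : (L * τ / 8) * (t₂ - t₁) ^ 2 ≤ 8 * L * Q := by
        have h2 : (L * τ / 8) * (t₂ - t₁) ^ 2 ≤ E' * (t₂ - t₁) ^ 2 :=
          mul_le_mul_of_nonneg_right hcase (by positivity)
        have h3 : 8 * b.r * Q ≤ 8 * L * Q := by nlinarith
        linarith
      have h2 : (t₂ - t₁) ^ 2 ≤ 64 * x := by
        have h3 : L * (τ * (t₂ - t₁) ^ 2) ≤ L * (64 * (x * τ)) := by
          rw [← hQτ]
          nlinarith
        have h4 : τ * (t₂ - t₁) ^ 2 ≤ 64 * (x * τ) := le_of_mul_le_mul_left h3 hLpos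
        have h5 : τ * (t₂ - t₁) ^ 2 ≤ τ * (64 * x) := by nlinarith
        exact le_of_mul_le_mul_left h5 hτ
      have h3 : (t₂ - t₁) ^ 2 ≤ (8 * √x) ^ 2 := by
        rw [mul_pow, Real.sq_sqrt hxpos.le]
        linarith
      exact (abs_le_of_sq_le_sq' h3 (by positivity)).2
    have hleft : volume (S ∩ Iic t0) ≤ ENNReal.ofReal (8 * √x) := by
      apply vol_le_of_pairs (by positivity)
      rintro t₁ ⟨h1S, h1⟩ t₂ ⟨h2S, h2⟩ hlt
      apply hkey t₁ t₂ h1S h2S hlt
      have hd := hdiff t₁ t₂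
      have h3 : b.q t₂ w - b.q t₁ w ≤ 8 * b.r * Q := by
        have := h2S.2.2
        have := h1S.2.1
        linarith
      have h4 : E' * (t₂ - t₁) ^ 2 ≤ (t₂ - t₁) * (2 * L * τ - E' * (t₁ + t₂)) := by
        rw [ht0eq]
        have h5 : t₂ ≤ t0 := h2
        have h6 : 0 ≤ t₂ - t₁ := by linarith
        have h7 : 0 ≤ (t₂ - t₁) * (E' * (2 * (t0 - t₂))) :=
          mul_nonneg h6 (mul_nonneg hEpos.le (by linarith))
        nlinarith
      linarith
    have hright : volume (S ∩ Ioi t0) ≤ ENNReal.ofReal (8 * √x) := by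
      apply vol_le_of_pairs (by positivity)
      rintro t₁ ⟨h1S, h1⟩ t₂ ⟨h2S, h2⟩ hlt
      apply hkey t₁ t₂ h1S h2S hlt
      have hd := hdiff t₁ t₂
      have h3 : b.q t₁ w - b.q t₂ w ≤ 8 * b.r * Q := by
        have := h1S.2.2
        have := h2S.2.1
        linarith
      have h4 : E' * (t₂ - t₁) ^ 2 ≤ (t₂ - t₁) * (E' * (t₁ + t₂) - 2 * L * τ) := by
        rw [ht0eq]
        have h5 : t0 < t₁ := h1
        have h6 : 0 ≤ t₂ - t₁ := by linarith
        have h7 : 0 ≤ (t₂ - t₁) * (E' * (2 * (t₁ - t0))) :=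
          mul_nonneg h6 (mul_nonneg hEpos.le (by linarith))
        nlinarith
      have h8 : (t₂ - t₁) * (E' * (t₁ + t₂) - 2 * L * τ) = b.q t₁ w - b.q t₂ w := by
        rw [← neg_sub (b.q t₂ w), hd]
        ring
      linarith
    have hsplit : S ⊆ (S ∩ Iic t0) ∪ (S ∩ Ioi t0) := by
      intro t ht
      rcases le_or_gt t t0 with h | h
      · exact Or.inl ⟨ht, h⟩
      · exact Or.inr ⟨ht, h⟩
    calc volume S ≤ volume ((S ∩ Iic t0) ∪ (S ∩ Ioi t0)) := measure_mono hsplit
      _ ≤ volume (S ∩ Iic t0) + volume (S ∩ Ioi t0) := measure_union_le _ _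
      _ ≤ ENNReal.ofReal (8 * √x) + ENNReal.ofReal (8 * √x) := add_le_add hleft hright
      _ = ENNReal.ofReal (8 * √x + 8 * √x) := by
          rw [ENNReal.ofReal_add (by positivity) (by positivity)]
      _ ≤ ENNReal.ofReal (32 * √x) := ENNReal.ofReal_le_ofReal (by linarith)
  · -- second case: `q` increases fast on `[1, 4]`
    push Not at hcase
    apply vol_le_of_pairs (by positivity)
    rintro t₁ h1S t₂ h2S hlt
    have hd := hdiff t₁ t₂
    have h3 : b.q t₂ w - b.q t₁ w ≤ 8 * b.r * Q := by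
      have := h2S.2.2
      have := h1S.2.1
      linarith
    have h14 := h1S.1
    have h24 := h2S.1
    have hpos : 0 < t₂ - t₁ := by linarith
    have h4 : L * τ ≤ 2 * L * τ - E' * (t₁ + t₂) := by
      have h5 : t₁ + t₂ ≤ 8 := by linarith [h14.2, h24.2]
      nlinarith
    have h5 : (t₂ - t₁) * (L * τ) ≤ 8 * L * Q := by
      have h6 : (t₂ - t₁) * (L * τ) ≤ (t₂ - t₁) * (2 * L * τ - E' * (t₁ + t₂)) :=
        mul_le_mul_of_nonneg_left h4 hpos.le
      have h7 : 8 * b.r * Q ≤ 8 * L * Q := by nlinarith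
      linarith
    have h6 : t₂ - t₁ ≤ 8 * x := by
      have h7 : L * ((t₂ - t₁) * τ) ≤ L * (8 * (x * τ)) := by
        rw [← hQτ]
        nlinarith
      have h8 : (t₂ - t₁) * τ ≤ 8 * (x * τ) := le_of_mul_le_mul_left h7 hLpos
      have h9 : τ * (t₂ - t₁) ≤ τ * (8 * x) := by nlinarith
      exact le_of_mul_le_mul_left h9 hτ
    have h7 : t₂ - t₁ ≤ 3 := by linarith [h14.1, h24.2]
    rcases le_or_gt x 1 with hx1 | hx1
    · have h8 : x ≤ √x := by
        have h9 : √x ≤ 1 := by
          rw [show (1 : ℝ) = √1 by simp]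
          exact Real.sqrt_le_sqrt hx1
        have h10 : x = √x * √x := (Real.mul_self_sqrt hxpos.le).symm
        nlinarith
      linarith
    · have h8 : 1 ≤ √x := by
        rw [show (1 : ℝ) = √1 by simp]
        exact Real.sqrt_le_sqrt hx1.le
      linarith

/-- Joint measurability of the weight. -/
theorem thE_measurable (hr0 : 0 < r0) (b : BallData d) (i : ℕ) :
    Measurable (Function.uncurry (thE r0 b i)) := by
  have hct : Continuous fun t : ℝ => b.ct t := by
    unfold BallData.ct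
    fun_prop
  have hset : MeasurableSet {p : ℝ × E d | p.2 ∈ b.Bt p.1} := by
    have : {p : ℝ × E d | p.2 ∈ b.Bt p.1} = {p : ℝ × E d | dist p.2 (b.ct p.1) < p.1 * b.r} := by
      ext p
      simp [BallData.Bt, mem_ball]
    rw [this]
    apply IsOpen.measurableSet
    apply isOpen_lt
    · exact continuous_snd.dist (hct.comp continuous_fst)
    · exact continuous_fst.mul continuous_const
  have hq : Measurable fun p : ℝ × E d => b.q p.1 p.2 := by
    apply Continuous.measurable
    unfold BallData.q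
    have : Continuous fun p : ℝ × E d => ‖p.2 - b.ct p.1‖ :=
      (continuous_snd.sub (hct.comp continuous_fst)).norm
    exact ((continuous_fst.mul continuous_const).pow 2).sub (this.pow 2)
  have hxi : Measurable fun p : ℝ × E d => b.xi p.1 p.2 := by
    unfold BallData.xi
    apply hq.div
    apply Continuous.measurable
    fun_prop
  have hth : Measurable fun p : ℝ × E d => ENNReal.ofReal (thl r0 i (b.xi p.1 p.2)) :=
    ENNReal.measurable_ofReal.comp ((thl_cont hr0 i).measurable.comp hxi)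
  have : Function.uncurry (thE r0 b i) =
      indicator {p : ℝ × E d | p.2 ∈ b.Bt p.1}
        (fun p => ENNReal.ofReal (thl r0 i (b.xi p.1 p.2))) := by
    ext p
    by_cases h : p.2 ∈ b.Bt p.1 <;> simp [thE, Function.uncurry, indicator, h]
  rw [this]
  exact hth.indicator hset

theorem Theta_measurable (hr0 : 0 < r0) (b : BallData d) (i : ℕ) :
    Measurable (Theta r0 b i) := by
  have h := (thE_measurable hr0 b i).lintegral_prod_left' (μ := volume.restrict (Icc (1 : ℝ) 4))
  exact h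

/-- (G6) -/
theorem Theta_ge (hr0 : 0 < r0) (b : BallData d) (i : ℕ) {s : ℝ} (hs : s ∈ Icc (1 : ℝ) 4) {w : E d}
    (hw : w ∈ b.Bt s) (h1 : (19 / 32) * Xs r0 i ≤ b.xi s w) (h2 : b.xi s w ≤ (81 / 32) * Xs r0 i) :
    ENNReal.ofReal (Xs r0 i / 1792) ≤ ENNReal.ofReal (b.tau w) * Theta r0 b i w := by
  have hX := Xs_pos hr0 i
  have hs0 : 0 < s := by linarith [hs.1]
  have hτge : s * b.xi s w ≤ b.tau w := b.tau_ge_xi hs0 w
  have hxi0 : 0 < b.xi s w := by
    have : 0 < (19 / 32) * Xs r0 i := by positivity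
    linarith
  have hτ : (19 / 32) * Xs r0 i ≤ b.tau w := by
    have : b.xi s w ≤ s * b.xi s w := by nlinarith [hs.1]
    linarith
  have hτpos : 0 < b.tau w := by
    have : 0 < (19 / 32) * Xs r0 i := by positivity
    linarith
  set τ := b.tau w with hτdef
  set δ := Xs r0 i / (448 * τ) with hδ
  have hδpos : 0 < δ := by positivity
  have hδle : δ ≤ 1 := by
    rw [hδ, div_le_one (by positivity)]
    nlinarith
  have h14 : 14 * τ * δ = Xs r0 i / 32 := by
    rw [hδ]
    field_simp
    norm_num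
  have hthE : ∀ t ∈ Icc (1 : ℝ) 4, |t - s| ≤ δ → ENNReal.ofReal (1 / 4) ≤ thE r0 b i t w := by
    intro t ht htδ
    have hlip := b.xi_lip_t hs ht hw
    have hlip2 : |b.xi t w - b.xi s w| ≤ Xs r0 i / 32 := by
      calc |b.xi t w - b.xi s w| ≤ 14 * τ * |t - s| := hlip
        _ ≤ 14 * τ * δ := mul_le_mul_of_nonneg_left htδ (by positivity)
        _ = Xs r0 i / 32 := h14
    have habs := abs_le.mp hlip2
    have hge : (18 / 32) * Xs r0 i ≤ b.xi t w := by linarith [habs.1]
    have hle : b.xi t w ≤ (82 / 32) * Xs r0 i := by linarith [habs.2]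
    have ht0 : 0 < t := by linarith [ht.1]
    have hmem : w ∈ b.Bt t := by
      rw [← b.xi_pos_iff ht0]
      have : 0 < (18 / 32) * Xs r0 i := by positivity
      linarith
    simp only [thE, indicator, hmem, if_true]
    exact ENNReal.ofReal_le_ofReal (thl_ge_quarter hr0 i hge hle)
  -- a one sided interval of length `δ` inside `[1,4]`
  obtain ⟨a, ha⟩ : ∃ a, Icc a (a + δ) ⊆ Icc (1 : ℝ) 4 ∧ ∀ t ∈ Icc a (a + δ), |t - s| ≤ δ := by
    by_cases hcase : s + δ ≤ 4
    · refine ⟨s, ?_, ?_⟩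
      · intro t ht
        exact ⟨by linarith [hs.1, ht.1], by linarith [ht.2]⟩
      · intro t ht
        rw [abs_le]
        constructor <;> linarith [ht.1, ht.2]
    · push Not at hcase
      refine ⟨s - δ, ?_, ?_⟩
      · intro t ht
        have h3 : s - δ + δ = s := by ring
        rw [h3] at ht
        exact ⟨by linarith [ht.1], by linarith [hs.2, ht.2]⟩
      · intro t ht
        have h3 : s - δ + δ = s := by ring
        rw [h3] at ht
        rw [abs_le]
        constructor <;> linarith [ht.1, ht.2]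
  have hΘ : ENNReal.ofReal (δ / 4) ≤ Theta r0 b i w := by
    calc ENNReal.ofReal (δ / 4) = ∫⁻ _ in Icc a (a + δ), ENNReal.ofReal (1 / 4) := by
          rw [setLIntegral_const, Real.volume_Icc,
            ← ENNReal.ofReal_mul (by norm_num)]
          congr 1
          ring
      _ ≤ ∫⁻ t in Icc a (a + δ), thE r0 b i t w := by
          apply setLIntegral_mono' measurableSet_Icc
          intro t ht
          exact hthE t (ha.1 ht) (ha.2 t ht)
      _ ≤ ∫⁻ t in Icc (1 : ℝ) 4, thE r0 b i t w :=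
          lintegral_mono_set ha.1
      _ = Theta r0 b i w := rfl
  calc ENNReal.ofReal (Xs r0 i / 1792) = ENNReal.ofReal τ * ENNReal.ofReal (δ / 4) := by
        rw [← ENNReal.ofReal_mul hτpos.le]
        congr 1
        rw [hδ]
        field_simp
        norm_num
    _ ≤ ENNReal.ofReal τ * Theta r0 b i w := by gcongr

/-- Each value of the weight is at most one. -/
private theorem thE_le_one (hr0 : 0 < r0) (b : BallData d) (i : ℕ) (t : ℝ) (w : E d) :
    thE r0 b i t w ≤ 1 := by
  simp only [thE, indicator]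
  split_ifs with h
  · rw [show (1 : ℝ≥0∞) = ENNReal.ofReal 1 by simp]
    exact ENNReal.ofReal_le_ofReal (thl_le_one hr0 i _)
  · exact zero_le

/-- (G7) -/
theorem Theta_le_sqrt (hr0 : 0 < r0) (b : BallData d) (i : ℕ) {w : E d} (hτ : 0 < b.tau w) :
    Theta r0 b i w ≤ ENNReal.ofReal (111 * √(Xs r0 i / b.tau w)) := by
  have hX := Xs_pos hr0 i
  set S : Set ℝ := {t ∈ Icc (1 : ℝ) 4 | 0 < b.q t w ∧ b.q t w ≤ 8 * b.r * (12 * Xs r0 i)} with hS
  have hle : ∀ t ∈ Icc (1 : ℝ) 4, thE r0 b i t w ≤ S.indicator 1 t := by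
    intro t ht
    have ht0 : 0 < t := by linarith [ht.1]
    by_cases hmem : w ∈ b.Bt t
    · by_cases hxi : 3 * Xs r0 i ≤ b.xi t w
      · simp only [thE, indicator, hmem, if_true, thl_eq_zero_of_ge hr0 i hxi,
          ENNReal.ofReal_zero]
        exact zero_le
      · push Not at hxi
        have hq : 0 < b.q t w := (b.mem_Bt_iff ht0).mp hmem
        have hr := b.hr
        have hqxi : b.q t w = 2 * t ^ 2 * b.r * b.xi t w := by
          unfold BallData.xi
          field_simp
        have htS : t ∈ S := by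
          refine ⟨ht, hq, ?_⟩
          rw [hqxi]
          have h16 : t ^ 2 ≤ 16 := by nlinarith [ht.1, ht.2]
          have hxi0 : 0 < b.xi t w := (b.xi_pos_iff ht0).mpr hmem
          calc 2 * t ^ 2 * b.r * b.xi t w ≤ 2 * 16 * b.r * b.xi t w := by
                have : 0 ≤ b.r * b.xi t w := by positivity
                nlinarith
            _ ≤ 2 * 16 * b.r * (3 * Xs r0 i) := by
                apply mul_le_mul_of_nonneg_left hxi.le (by positivity)
            _ = 8 * b.r * (12 * Xs r0 i) := by ring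
        rw [indicator_of_mem htS]
        exact thE_le_one hr0 b i t w
    · simp only [thE, indicator, hmem, if_false]
      exact zero_le
  have hSmeas : MeasurableSet (S) := by
    have hq : Continuous fun t : ℝ => b.q t w := by
      unfold BallData.q BallData.ct
      fun_prop
    have : S = Icc (1 : ℝ) 4 ∩ ({t | 0 < b.q t w} ∩ {t | b.q t w ≤ 8 * b.r * (12 * Xs r0 i)}) := by
      ext t
      simp [hS]
    rw [this]
    exact measurableSet_Icc.inter ((isOpen_lt continuous_const hq).measurableSet.inter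
      (isClosed_le hq continuous_const).measurableSet)
  calc Theta r0 b i w ≤ ∫⁻ t in Icc (1 : ℝ) 4, S.indicator 1 t :=
        setLIntegral_mono' measurableSet_Icc hle
    _ ≤ ∫⁻ t, S.indicator 1 t := setLIntegral_le_lintegral _ _
    _ = volume S := by
        rw [lintegral_indicator hSmeas]
        simp
    _ ≤ ENNReal.ofReal (32 * √(12 * Xs r0 i / b.tau w)) :=
        meas_q_le b w hτ (by positivity)
    _ ≤ ENNReal.ofReal (111 * √(Xs r0 i / b.tau w)) := by
        apply ENNReal.ofReal_le_ofReal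
        have e : 12 * Xs r0 i / b.tau w = 12 * (Xs r0 i / b.tau w) := by ring
        rw [e, Real.sqrt_mul (by norm_num)]
        have h12 : √12 ≤ 111 / 32 := by
          rw [Real.sqrt_le_left (by norm_num)]
          norm_num
        have h0 : 0 ≤ √(Xs r0 i / b.tau w) := Real.sqrt_nonneg _
        nlinarith

/-- (G7) -/
theorem Theta_le_three (hr0 : 0 < r0) (b : BallData d) (i : ℕ) (w : E d) :
    Theta r0 b i w ≤ 3 := by
  calc Theta r0 b i w ≤ ∫⁻ _ in Icc (1 : ℝ) 4, 1 :=
        lintegral_mono fun t => thE_le_one hr0 b i t w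
    _ = 3 := by
        rw [setLIntegral_const, Real.volume_Icc]
        norm_num

/-- (G7) -/
theorem Theta_succ_zero (hr0 : 0 < r0) (b : BallData d) (i : ℕ) {w : E d}
    (hτ : b.tau w < Xs r0 (i + 1) / 2) : Theta r0 b (i + 1) w = 0 := by
  have hzero : ∀ t ∈ Icc (1 : ℝ) 4, thE r0 b (i + 1) t w = 0 := by
    intro t ht
    have ht0 : 0 < t := by linarith [ht.1]
    simp only [thE, indicator]
    split_ifs with hmem
    · have hxi0 : 0 < b.xi t w := (b.xi_pos_iff ht0).mpr hmem
      have h1 := b.tau_ge_xi ht0 w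
      have h2 : b.xi t w ≤ t * b.xi t w := by nlinarith [ht.1]
      rw [thl_succ_eq_zero hr0 i (by linarith)]
      simp
    · rfl
  unfold Theta
  rw [setLIntegral_congr_fun measurableSet_Icc (g := fun _ => 0) hzero]
  simp

/-- (G7) -/
theorem Theta_zero_of_not_mem (b : BallData d) (i : ℕ) {w : E d} (hw : w ∉ b.U) :
    Theta r0 b i w = 0 := by
  have hzero : ∀ t ∈ Icc (1 : ℝ) 4, thE r0 b i t w = 0 := by
    intro t ht
    have hmem : w ∉ b.Bt t := fun h => hw (b.Bt_sub_U ht h)
    simp only [thE, indicator, hmem, if_false]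
  unfold Theta
  rw [setLIntegral_congr_fun measurableSet_Icc (g := fun _ => 0) hzero]
  simp

/-- The scale `X` increases. -/
private theorem Xs_mono {r0 : ℝ} (hr0 : 0 < r0) {i k : ℕ} (h : i ≤ k) : Xs r0 i ≤ Xs r0 k := by
  induction h with
  | refl => exact le_rfl
  | @step n _ ih =>
    rw [Xs_succ]
    nlinarith [Xs_pos hr0 n]

/-- `thl i (xi_t w) = 0` if `i > j` and `r' < r_{j+1}`; so `Theta_i = 0`. -/
theorem thl_xi_high (hr0 : 0 < r0) (b : BallData d) {j i : ℕ} (hj : b.r < rj r0 (j + 1))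
    (hi : j < i) {t : ℝ} (ht : 0 < t) (w : E d) : thl r0 i (b.xi t w) = 0 := by
  obtain ⟨k, rfl⟩ : ∃ k, i = k + 1 := ⟨i - 1, by omega⟩
  apply thl_succ_eq_zero hr0
  have h1 := b.xi_le ht w
  have h2 : rj r0 (j + 1) = 4 * rj r0 j := rj_succ r0 j
  have h3 : Xs r0 j = 16 * rj r0 j := Xs_eq_rj r0 j
  have h4 : Xs r0 j ≤ Xs r0 (k + 1) := Xs_mono hr0 (by omega)
  have h5 := rj_pos hr0 j
  linarith

/-- `∑_{i ≤ j} thl i (xi_t w) = 1` if `r' < r_{j+1}`. -/
theorem thl_xi_sum (hr0 : 0 < r0) (b : BallData d) {j : ℕ} (hj : b.r < rj r0 (j + 1))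
    {t : ℝ} (ht : 0 < t) (w : E d) :
    ∑ i ∈ Finset.range (j + 1), thl r0 i (b.xi t w) = 1 := by
  rw [thl_sum hr0]
  apply Yc_eq_one
  have h1 := b.xi_le ht w
  have h2 : rj r0 (j + 1) = 4 * rj r0 j := rj_succ r0 j
  have h3 : Xs r0 j = 16 * rj r0 j := Xs_eq_rj r0 j
  have h5 := rj_pos hr0 j
  rw [div_le_iff₀ (Xs_pos hr0 j)]
  linarith

end ValeP137
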