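import Vale.Agent.Lib.P137.Transfer
import Vale.Agent.Lib.P137.ThetaBounds
import Vale.Agent.Lib.P137.Kernel

/-! P137 module Cost (the block COST POTENTIAL and TOP of the blueprint). -/

open MeasureTheory Metric Set Filter Topology
open scoped ENNReal

noncomputable section

namespace ValeP137

variable {d : ℕ} {f : E d → ℝ} {r0 : ℝ}

theorem beta_nonneg_C (x : ℝ) : 0 ≤ beta x := by
  unfold beta; positivity

theorem beta_anti {x y : ℝ} (h : x ≤ y) : beta y ≤ beta x := by
  unfold beta
  have h1 : max x (1 / 16) ≤ max y (1 / 16) := max_le_max_right _ h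
  have h2 : (0 : ℝ) < max x (1 / 16) := lt_max_of_lt_right (by norm_num)
  have h3 : √(max x (1 / 16)) ≤ √(max y (1 / 16)) := Real.sqrt_le_sqrt h1
  exact inv_anti₀ (Real.sqrt_pos.mpr h2) h3

/-- Case `x ≥ 1/2` of the recursion for the potential. -/
theorem beta_step_large {x x' : ℝ} (hx : 1 / 2 ≤ x) (hx' : x' ≤ x / 4 + 1 / 4 ^ 10) :
    200 * beta x + 111 * √(x⁻¹) ≤ 200 * beta x' := by
  have hx0 : 0 < x := by linarith
  have h1 : beta x = (√x)⁻¹ := by
    unfold beta
    rw [max_eq_left (by linarith)]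
  have h2 : √(x⁻¹) = (√x)⁻¹ := Real.sqrt_inv x
  have h3 : max x' (1 / 16) ≤ (3 / 8) * x := by
    apply max_le
    · norm_num at hx' ⊢; linarith
    · linarith
  have h4 : beta ((3 / 8) * x) ≤ beta x' := by
    have : beta (max x' (1 / 16)) ≤ beta x' := by
      unfold beta
      rw [max_eq_left (le_max_right _ _)]
    refine le_trans (beta_anti h3) this
  have h5 : beta ((3 / 8) * x) = (√(3 / 8))⁻¹ * (√x)⁻¹ := by
    unfold beta
    rw [max_eq_left (by linarith), Real.sqrt_mul (by norm_num), mul_inv]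
  have h6 : (311 / 200 : ℝ) ≤ (√(3 / 8))⁻¹ := by
    have h7 : √(3 / 8 : ℝ) ≤ 200 / 311 := by
      rw [show (200 / 311 : ℝ) = √((200 / 311) ^ 2) by
        rw [Real.sqrt_sq (by norm_num)]]
      exact Real.sqrt_le_sqrt (by norm_num)
    have h8 : (0 : ℝ) < √(3 / 8 : ℝ) := Real.sqrt_pos.mpr (by norm_num)
    rw [show (311 / 200 : ℝ) = (200 / 311)⁻¹ by norm_num]
    exact inv_anti₀ h8 h7
  have h9 : 0 ≤ (√x)⁻¹ := by positivity
  rw [h1, h2]
  have h10 : (311 / 200 : ℝ) * (√x)⁻¹ ≤ beta x' := by
    calc (311 / 200 : ℝ) * (√x)⁻¹ ≤ (√(3 / 8))⁻¹ * (√x)⁻¹ :=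
          mul_le_mul_of_nonneg_right h6 h9
      _ = beta ((3 / 8) * x) := h5.symm
      _ ≤ beta x' := h4
  linarith

/-- Case `x < 1/2` of the recursion for the potential. -/
theorem beta_step_small {x x' : ℝ} (hx : x < 1 / 2) (hx' : x' ≤ x / 4 + 1 / 4 ^ 10) :
    beta x ≤ beta x' := by
  have h1 : max x' (1 / 16) ≤ max x (1 / 16) := by
    apply max_le _ (le_max_right _ _)
    by_cases h : 1 / 16 ≤ x
    · exact le_trans (by norm_num at hx' h ⊢; linarith) (le_max_left _ _)
    · push Not at h
      exact le_trans (by norm_num at hx' h ⊢; linarith) (le_max_right _ _)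
  have h2 : (0 : ℝ) < max x' (1 / 16) := lt_max_of_lt_right (by norm_num)
  unfold beta
  exact inv_anti₀ (Real.sqrt_pos.mpr h2) (Real.sqrt_le_sqrt h1)

theorem beta_step_three {x x' : ℝ} (hx : x < 1 / 2) (hx' : x' ≤ x / 4 + 1 / 4 ^ 10) :
    3 ≤ 200 * beta x' := by
  have h1 : max x' (1 / 16) ≤ 1 := by
    apply max_le
    · norm_num at hx' ⊢; linarith
    · norm_num
  have h2 : (0 : ℝ) < max x' (1 / 16) := lt_max_of_lt_right (by norm_num)
  have h3 : √(max x' (1 / 16)) ≤ 1 := by
    exact Real.sqrt_le_one.mpr h1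
  have h4 : 1 ≤ beta x' := by
    unfold beta
    exact (one_le_inv₀ (Real.sqrt_pos.mpr h2)).mpr h3
  linarith

theorem x_step (hd : 1 ≤ d) (hr0 : 0 < r0) (b : BallData d) (l : ℕ) {w w' : E d}
    (hww' : ‖w - w'‖ < rho d r0 (l + 1)) :
    b.tau w' / Xs r0 (l + 1) ≤ b.tau w / Xs r0 l / 4 + 1 / 4 ^ 10 := by
  have hX : 0 < Xs r0 l := Xs_pos hr0 l
  have h1 := b.tau_lip w w'
  have h2 : ‖w' - w‖ = ‖w - w'‖ := norm_sub_rev _ _
  have h3 : b.tau w' ≤ b.tau w + rho d r0 (l + 1) := by
    have := (abs_le.mp h1).2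
    linarith
  have h4 : rho d r0 (l + 1) ≤ Xs r0 (l + 1) / 4 ^ 10 := by
    unfold rho
    apply div_le_div_of_nonneg_left (Xs_pos hr0 _).le (by positivity)
    exact pow_le_pow_right₀ (by norm_num) (by omega)
  have hX' : 0 < Xs r0 (l + 1) := Xs_pos hr0 _
  rw [div_le_iff₀ hX']
  have h5 : b.tau w / Xs r0 l / 4 * Xs r0 (l + 1) = b.tau w := by
    rw [Xs_succ]; field_simp
  have h6 : (b.tau w / Xs r0 l / 4 + 1 / 4 ^ 10) * Xs r0 (l + 1) =
      b.tau w + Xs r0 (l + 1) / 4 ^ 10 := by
    rw [add_mul, h5]; ring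
  rw [h6]
  linarith

theorem U_sub_thickening (b : BallData d) {δ : ℝ} (hδ : 0 < δ) : b.U ⊆ thickening δ b.U :=
  self_subset_thickening hδ _

/-- Recursion for the potential (needs `d ≥ 1`, only through `4^(d+9) ≥ 4^10`). -/
theorem apot_rec (hd : 1 ≤ d) (hr0 : 0 < r0) (b : BallData d) (l : ℕ) {w w' : E d}
    (hww' : ‖w - w'‖ < rho d r0 (l + 1)) :
    apot r0 b l w + Theta r0 b l w ≤ apot r0 b (l + 1) w' := by
  have hρ := rho_pos d hr0 (l + 1)
  have hstep := x_step hd hr0 b l hww'
  have hX : 0 < Xs r0 l := Xs_pos hr0 l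
  have hd' : dist w' w = ‖w - w'‖ := by rw [dist_comm, dist_eq_norm]
  -- the value bound for `Theta`
  have hval : ∀ A : ℝ, A = (if l = 0 then 0 else 200 * beta (b.tau w / Xs r0 l)) →
      ENNReal.ofReal A + Theta r0 b l w ≤
        ENNReal.ofReal (200 * beta (b.tau w' / Xs r0 (l + 1))) := by
    intro A hA
    rcases le_or_gt (1 / 2) (b.tau w / Xs r0 l) with hx | hx
    · have htau : 0 < b.tau w := by
        have : 0 < b.tau w / Xs r0 l := by linarith
        exact (div_pos_iff_of_pos_right hX).mp this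
      have h1 := Theta_le_sqrt hr0 b l htau
      have h2 := beta_step_large hx hstep
      have h3 : Xs r0 l / b.tau w = (b.tau w / Xs r0 l)⁻¹ := (inv_div _ _).symm
      rw [h3] at h1
      have hA0 : 0 ≤ A := by
        rw [hA]; split_ifs
        · exact le_rfl
        · have := beta_nonneg_C (b.tau w / Xs r0 l); positivity
      have hA1 : A ≤ 200 * beta (b.tau w / Xs r0 l) := by
        rw [hA]; split_ifs
        · have := beta_nonneg_C (b.tau w / Xs r0 l); positivity
        · exact le_rfl
      calc ENNReal.ofReal A + Theta r0 b l w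
          ≤ ENNReal.ofReal A + ENNReal.ofReal (111 * √((b.tau w / Xs r0 l)⁻¹)) := by gcongr
        _ = ENNReal.ofReal (A + 111 * √((b.tau w / Xs r0 l)⁻¹)) :=
            (ENNReal.ofReal_add hA0 (by positivity)).symm
        _ ≤ _ := ENNReal.ofReal_le_ofReal (by linarith)
    · by_cases hl : l = 0
      · subst hl
        have hA0 : A = 0 := by simpa using hA
        rw [hA0, ENNReal.ofReal_zero, zero_add]
        refine le_trans (Theta_le_three hr0 b 0 w) ?_
        have h3 := beta_step_three hx hstep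
        have : (3 : ℝ≥0∞) = ENNReal.ofReal 3 := by simp
        rw [this]
        exact ENNReal.ofReal_le_ofReal h3
      · obtain ⟨k, rfl⟩ := Nat.exists_eq_succ_of_ne_zero hl
        have h0 : Theta r0 b (k + 1) w = 0 := by
          apply Theta_succ_zero hr0 b k
          have := (div_lt_iff₀ hX).mp hx
          linarith
        have h1 : A = 200 * beta (b.tau w / Xs r0 (k + 1)) := by simpa using hA
        change ENNReal.ofReal A + Theta r0 b (k + 1) w ≤ _
        rw [h0, add_zero, h1]
        apply ENNReal.ofReal_le_ofReal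
        have := beta_step_small hx hstep
        linarith
  cases l with
  | zero =>
    have h0 : apot r0 b 0 w = 0 := rfl
    rw [h0, zero_add]
    by_cases hw : w ∈ b.U
    · have hw' : w' ∈ thickening ((4 / 3) * rho d r0 (0 + 1)) b.U := by
        rw [mem_thickening_iff]
        refine ⟨w, hw, ?_⟩
        rw [hd']
        linarith
      have h1 : apot r0 b (0 + 1) w' =
          ENNReal.ofReal (200 * beta (b.tau w' / Xs r0 (0 + 1))) := by
        simp only [apot]
        rw [indicator_of_mem hw']
      rw [h1]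
      have := hval 0 (by simp)
      simpa using this
    · rw [Theta_zero_of_not_mem b 0 hw]
      exact zero_le
  | succ k =>
    by_cases hw : w ∈ thickening ((4 / 3) * rho d r0 (k + 1)) b.U
    · have hw' : w' ∈ thickening ((4 / 3) * rho d r0 (k + 1 + 1)) b.U := by
        rw [mem_thickening_iff] at hw ⊢
        obtain ⟨z, hz, hwz⟩ := hw
        refine ⟨z, hz, ?_⟩
        have h1 := dist_triangle w' w z
        rw [hd'] at h1
        have h2 := rho_succ d r0 (k + 1)
        have h3 := rho_pos d hr0 (k + 1)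
        rw [h2] at hww' ⊢
        linarith
      have h1 : apot r0 b (k + 1 + 1) w' =
          ENNReal.ofReal (200 * beta (b.tau w' / Xs r0 (k + 1 + 1))) := by
        simp only [apot]
        rw [indicator_of_mem hw']
      have h2 : apot r0 b (k + 1) w =
          ENNReal.ofReal (200 * beta (b.tau w / Xs r0 (k + 1))) := by
        simp only [apot]
        rw [indicator_of_mem hw]
      rw [h1, h2]
      exact hval _ (by simp)
    · have h2 : apot r0 b (k + 1) w = 0 := by
        simp only [apot]
        rw [indicator_of_notMem hw]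
      have hw2 : w ∉ b.U := fun h =>
        hw (U_sub_thickening b (by have := rho_pos d hr0 (k + 1); positivity) h)
      rw [h2, Theta_zero_of_not_mem b (k + 1) hw2]
      simp

theorem apot_measurable (hr0 : 0 < r0) (b : BallData d) (l : ℕ) : Measurable (apot r0 b l) := by
  cases l with
  | zero =>
    have : apot r0 b 0 = fun _ => 0 := rfl
    rw [this]
    exact measurable_const
  | succ k =>
    have hm : Measurable (fun w => ENNReal.ofReal (200 * beta (b.tau w / Xs r0 (k + 1)))) := by
      apply ENNReal.measurable_ofReal.comp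
      apply Measurable.const_mul
      unfold beta
      apply Measurable.inv
      apply Real.continuous_sqrt.measurable.comp
      apply Measurable.max
      · exact (b.tau_continuous.measurable).div_const _
      · exact measurable_const
    exact hm.indicator isOpen_thickening.measurableSet

/-- Iteration of `apot_rec` with `L3`. -/
theorem cost_chain (H : Std f r0) (b : BallData d) (n : ℕ) :
    ∑ i ∈ Finset.range n, CT f r0 b i ≤
      (∫⁻ w, apot r0 b n w * DE f r0 b.e n w) +
        ∑ l ∈ Finset.range n, ∫⁻ w, apot r0 b (l + 1) w * vE f r0 l w := by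
  have hDE : ∀ i, Measurable (DE f r0 b.e i) := fun i =>
    ENNReal.measurable_ofReal.comp (De_cont H b.e i).measurable
  induction n with
  | zero => simp
  | succ n ih =>
    rw [Finset.sum_range_succ, Finset.sum_range_succ]
    have hma := apot_measurable H.hr0 b n
    have hmT := Theta_measurable H.hr0 b n
    have hL3 := L3 H b.he n (a := fun w => apot r0 b n w + Theta r0 b n w)
      (b := apot r0 b (n + 1)) (hma.add hmT) (apot_measurable H.hr0 b (n + 1))
      (fun w w' h => apot_rec H.hd H.hr0 b n h)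
    have hsplit : ∫⁻ w, (apot r0 b n w + Theta r0 b n w) * DE f r0 b.e n w =
        (∫⁻ w, apot r0 b n w * DE f r0 b.e n w) + CT f r0 b n := by
      unfold CT
      simp_rw [add_mul]
      have hm : Measurable (fun w => apot r0 b n w * DE f r0 b.e n w) := hma.mul (hDE n)
      exact lintegral_add_left hm _
    rw [hsplit] at hL3
    calc ∑ i ∈ Finset.range n, CT f r0 b i + CT f r0 b n
        ≤ ((∫⁻ w, apot r0 b n w * DE f r0 b.e n w) +
            ∑ l ∈ Finset.range n, ∫⁻ w, apot r0 b (l + 1) w * vE f r0 l w) + CT f r0 b n := by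
          gcongr
      _ = ((∫⁻ w, apot r0 b n w * DE f r0 b.e n w) + CT f r0 b n) +
            ∑ l ∈ Finset.range n, ∫⁻ w, apot r0 b (l + 1) w * vE f r0 l w := by ring
      _ ≤ ((∫⁻ w, apot r0 b (n + 1) w * DE f r0 b.e (n + 1) w) +
            ∫⁻ w, apot r0 b (n + 1) w * vE f r0 n w) +
            ∑ l ∈ Finset.range n, ∫⁻ w, apot r0 b (l + 1) w * vE f r0 l w := by gcongr
      _ = _ := by ring

/-- The top term, by the choice of `e`. -/
theorem top_bound (H : Std f r0) (b : BallData d) {j : ℕ} (hj : b.r < rj r0 (j + 1))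
    (he : De f r0 b.e (j + d + 9 + 1) b.y = 0) :
    ∫⁻ w, apot r0 b (j + d + 9) w * DE f r0 b.e (j + d + 9) w ≤
      ENNReal.ofReal 800 * volume (ball (0 : E d) (64 * rj r0 j)) *
        vE f r0 (j + d + 9) b.y := by
  have hr0 := H.hr0
  have hs : rho d r0 (j + d + 9 + 1) = 64 * rj r0 j := by
    rw [rho_succ, rho_top]; ring
  have hs0 : 0 < 64 * rj r0 j := by have := rj_pos hr0 j; positivity
  have hg := De_cont H b.e (j + d + 9)
  have hg0 := De_nonneg (f := f) (r0 := r0) b.he (j + d + 9)
  have hDE : Measurable (DE f r0 b.e (j + d + 9)) :=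
    ENNReal.measurable_ofReal.comp hg.measurable
  calc ∫⁻ w, apot r0 b (j + d + 9) w * DE f r0 b.e (j + d + 9) w
      ≤ ∫⁻ w, indicator (ball b.y (64 * rj r0 j)) (fun w => ENNReal.ofReal 800 *
          DE f r0 b.e (j + d + 9) w) w := by
        apply lintegral_mono
        intro w
        have h1 := apot_top_le H.hd hr0 b hj w
        by_cases hw : w ∈ ball b.y (64 * rj r0 j)
        · rw [indicator_of_mem hw] at h1 ⊢
          exact mul_le_mul' h1 le_rfl
        · rw [indicator_of_notMem hw] at h1 ⊢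
          have h2 : apot r0 b (j + d + 9) w = 0 := le_antisymm h1 zero_le
          simp [h2]
    _ = ∫⁻ w in ball b.y (64 * rj r0 j), ENNReal.ofReal 800 *
          DE f r0 b.e (j + d + 9) w := lintegral_indicator measurableSet_ball _
    _ = ENNReal.ofReal 800 * ∫⁻ w in ball b.y (64 * rj r0 j), DE f r0 b.e (j + d + 9) w :=
        lintegral_const_mul _ hDE
    _ = ENNReal.ofReal 800 * (volume (ball (0 : E d) (64 * rj r0 j)) *
          ENNReal.ofReal (Aop (64 * rj r0 j) (De f r0 b.e (j + d + 9)) b.y)) := by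
        congr 1
        exact setLIntegral_ball_eq hs0 hg hg0 b.y
    _ = _ := by
        have h3 := Aop_De H b.e (j + d + 9) b.y
        rw [hs, he, zero_add] at h3
        rw [h3, mul_assoc]
        rfl

end ValeP137
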