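import Vale.Agent.Lib.P137.Segment

/-! P137 module Integrate (integrate `pointwise_ineq` over `v ∈ B`; Tonelli and change of
variables lead to the weights `Theta_i`). -/

open MeasureTheory Metric Set Filter Topology
open scoped ENNReal

noncomputable section

namespace ValeP137

variable {d : ℕ} {f : E d → ℝ} {r0 : ℝ}

/-- The dilation `w_t` as a homeomorphism. -/
def wtHomeo (b : BallData d) {t : ℝ} (ht : 0 < t) : E d ≃ₜ E d :=
  (Homeomorph.subRight b.p).trans ((Homeomorph.smulOfNeZero t ht.ne').trans (Homeomorph.addLeft b.p))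

theorem wtHomeo_apply (b : BallData d) {t : ℝ} (ht : 0 < t) (v : E d) :
    wtHomeo b ht v = b.wt t v := rfl

theorem map_wt_volume (b : BallData d) {t : ℝ} (ht : 0 < t) :
    Measure.map (wtHomeo b ht).toMeasurableEquiv (volume : Measure (E d)) =
      ENNReal.ofReal ((t ^ d)⁻¹) • (volume : Measure (E d)) := by
  have hφ : ((wtHomeo b ht).toMeasurableEquiv : E d → E d) =
      (fun x => b.p + x) ∘ ((t • ·) : E d → E d) ∘ (fun x => x - b.p) := rfl
  rw [hφ, ← Measure.map_map (by fun_prop) (by fun_prop),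
    ← Measure.map_map (by fun_prop) (by fun_prop),
    (measurePreserving_sub_right volume b.p).map_eq, Measure.map_addHaar_smul volume ht.ne',
    Measure.map_smul, (measurePreserving_add_left volume b.p).map_eq]
  have h2 : Module.finrank ℝ (E d) = d := finrank_euclideanSpace_fin
  rw [h2, abs_of_pos (by positivity)]

/-- Change of variables for the dilation `w_t`. -/
theorem lintegral_ball_comp_wt (b : BallData d) {t : ℝ} (ht : 0 < t) (φ : E d → ℝ≥0∞) :
    ∫⁻ v in ball b.c b.r, φ (b.wt t v) =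
      ENNReal.ofReal ((t ^ d)⁻¹) * ∫⁻ w in b.Bt t, φ w := by
  have h1 : ∀ v, (ball b.c b.r).indicator (fun v => φ (b.wt t v)) v =
      (b.Bt t).indicator φ ((wtHomeo b ht).toMeasurableEquiv v) := by
    intro v
    change _ = (b.Bt t).indicator φ (b.wt t v)
    by_cases hv : v ∈ ball b.c b.r
    · rw [indicator_of_mem hv, indicator_of_mem ((b.wt_mem_iff ht).2 hv)]
    · rw [indicator_of_notMem hv, indicator_of_notMem (fun h => hv ((b.wt_mem_iff ht).1 h))]
  rw [← lintegral_indicator measurableSet_ball]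
  simp_rw [h1]
  rw [← lintegral_map_equiv, map_wt_volume, lintegral_smul_measure, smul_eq_mul,
    lintegral_indicator (b.isOpen_Bt t).measurableSet]

/-- Tonelli plus change of variables. -/
theorem tonelli_wt (b : BallData d) {φ : ℝ → E d → ℝ≥0∞} (hφ : Measurable (Function.uncurry φ)) :
    ∫⁻ v in ball b.c b.r, ∫⁻ t in Icc (1 : ℝ) 4, φ t (b.wt t v) =
      ∫⁻ t in Icc (1 : ℝ) 4, ENNReal.ofReal ((t ^ d)⁻¹) * ∫⁻ w in b.Bt t, φ t w := by
  rw [lintegral_lintegral_swap]
  · refine setLIntegral_congr_fun measurableSet_Icc ?_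
    intro t ht
    exact lintegral_ball_comp_wt b (by linarith [ht.1]) (φ t)
  · have h1 : Measurable (fun z : E d × ℝ => (z.2, b.wt z.2 z.1)) := by
      refine Measurable.prodMk measurable_snd ?_
      have : Continuous (fun z : E d × ℝ => b.wt z.2 z.1) := by
        unfold BallData.wt
        fun_prop
      exact this.measurable
    exact (hφ.comp h1).aemeasurable

/-- The weight, pulled inside the segment integral. -/
theorem weight_inside (hr0 : 0 < r0) (b : BallData d) (i : ℕ) {X : ℝ → E d → ℝ≥0∞}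
    (hX : Measurable (Function.uncurry X)) :
    ∫⁻ v in ball b.c b.r, ENNReal.ofReal (thl r0 i (b.xi 1 v)) *
        ∫⁻ t in Icc (1 : ℝ) 4, X t (b.wt t v) =
      ∫⁻ t in Icc (1 : ℝ) 4, ENNReal.ofReal ((t ^ d)⁻¹) *
        ∫⁻ w in b.Bt t, thE r0 b i t w * X t w := by
  have hm : Measurable (Function.uncurry (fun t w => thE r0 b i t w * X t w)) :=
    (thE_measurable hr0 b i).mul hX
  rw [← tonelli_wt b hm]
  refine setLIntegral_congr_fun measurableSet_ball ?_
  intro v hv
  dsimp only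
  rw [← lintegral_const_mul' _ _ ENNReal.ofReal_ne_top]
  refine setLIntegral_congr_fun measurableSet_Icc ?_
  intro t ht
  have ht0 : 0 < t := by linarith [ht.1]
  have h1 : thE r0 b i t (b.wt t v) = ENNReal.ofReal (thl r0 i (b.xi 1 v)) := by
    unfold thE
    rw [indicator_of_mem ((b.wt_mem_iff ht0).2 hv), b.xi_wt ht0]
  simp only [h1]

/-- Tonelli for the weight `Theta`. -/
theorem Theta_mul_swap (hr0 : 0 < r0) (b : BallData d) (i : ℕ) {Y : E d → ℝ≥0∞}
    (hY : Measurable Y) :
    ∫⁻ w, Theta r0 b i w * Y w = ∫⁻ t in Icc (1 : ℝ) 4, ∫⁻ w in b.Bt t, thE r0 b i t w * Y w := by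
  have hT := thE_measurable hr0 b i
  have h1 : ∀ w, Theta r0 b i w * Y w = ∫⁻ t in Icc (1 : ℝ) 4, thE r0 b i t w * Y w := by
    intro w
    have hm : Measurable (fun t => thE r0 b i t w) := hT.of_uncurry_right
    unfold Theta
    exact (lintegral_mul_const _ hm).symm
  rw [lintegral_congr h1, lintegral_lintegral_swap]
  · refine setLIntegral_congr_fun measurableSet_Icc ?_
    intro t _
    have h2 : ∀ w, thE r0 b i t w * Y w =
        (b.Bt t).indicator (fun w => thE r0 b i t w * Y w) w := by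
      intro w
      by_cases hw : w ∈ b.Bt t
      · rw [indicator_of_mem hw]
      · rw [indicator_of_notMem hw]
        unfold thE
        rw [indicator_of_notMem hw, zero_mul]
    have h3 : ∫⁻ w, thE r0 b i t w * Y w =
        ∫⁻ w, (b.Bt t).indicator (fun w => thE r0 b i t w * Y w) w := by
      refine lintegral_congr h2
    dsimp only
    rw [h3, lintegral_indicator (b.isOpen_Bt t).measurableSet]
  · have h4 : Measurable (fun z : E d × ℝ => thE r0 b i z.2 z.1) :=
      Measurable.comp (g := Function.uncurry (thE r0 b i)) (f := Prod.swap) hT measurable_swap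
    have h5 : Measurable (fun z : E d × ℝ => thE r0 b i z.2 z.1 * Y z.1) :=
      h4.mul (hY.comp measurable_fst)
    exact h5.aemeasurable

/-- The cost term. -/
theorem integrate_cost (H : Std f r0) (b : BallData d) (i : ℕ) :
    ∫⁻ v in ball b.c b.r, ENNReal.ofReal (thl r0 i (b.xi 1 v)) *
        ∫⁻ t in Icc (1 : ℝ) 4, DE f r0 b.e i (b.wt t v) ≤ CT f r0 b i := by
  have hDm : Measurable (DE f r0 b.e i) :=
    ENNReal.measurable_ofReal.comp (De_cont H b.e i).measurable
  have hm : Measurable (Function.uncurry (fun (_ : ℝ) (w : E d) => DE f r0 b.e i w)) :=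
    hDm.comp measurable_snd
  rw [weight_inside H.hr0 b i hm]
  unfold CT
  rw [Theta_mul_swap H.hr0 b i hDm]
  refine setLIntegral_mono' measurableSet_Icc ?_
  intro t ht
  have h1 : ENNReal.ofReal ((t ^ d)⁻¹) ≤ 1 := by
    rw [ENNReal.ofReal_le_one]
    exact inv_le_one_of_one_le₀ (one_le_pow₀ ht.1)
  calc _ ≤ 1 * ∫⁻ w in b.Bt t, thE r0 b i t w * DE f r0 b.e i w := by gcongr
    _ = _ := one_mul _

/-- The gain term. -/
theorem integrate_gain (H : Std f r0) (b : BallData d) (i : ℕ) :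
    ENNReal.ofReal (1 / (8 * 4 ^ d)) * GT f r0 b i ≤
      ∫⁻ v in ball b.c b.r, ENNReal.ofReal (thl r0 i (b.xi 1 v)) *
        ∫⁻ t in Icc (1 : ℝ) 4,
          ENNReal.ofReal (b.tau (b.wt t v) / (2 * t) * hl f r0 i (b.wt t v)) := by
  have hh := (hl_cont H i).measurable
  have hτ := b.tau_continuous.measurable
  have hY : Measurable (fun w => ENNReal.ofReal (b.tau w) * hE f r0 i w) :=
    (ENNReal.measurable_ofReal.comp hτ).mul (ENNReal.measurable_ofReal.comp hh)
  have hm : Measurable (Function.uncurry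
      (fun (t : ℝ) (w : E d) => ENNReal.ofReal (b.tau w / (2 * t) * hl f r0 i w))) := by
    refine ENNReal.measurable_ofReal.comp ?_
    change Measurable (fun z : ℝ × E d => b.tau z.2 / (2 * z.1) * hl f r0 i z.2)
    refine ((hτ.comp measurable_snd).div (measurable_const.mul measurable_fst)).mul
      (hh.comp measurable_snd)
  have h0 : GT f r0 b i = ∫⁻ w, Theta r0 b i w * (ENNReal.ofReal (b.tau w) * hE f r0 i w) := by
    unfold GT
    refine lintegral_congr ?_
    intro w
    ring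
  rw [weight_inside H.hr0 b i hm, h0, Theta_mul_swap H.hr0 b i hY,
    ← lintegral_const_mul' _ _ ENNReal.ofReal_ne_top]
  refine setLIntegral_mono' measurableSet_Icc ?_
  intro t ht
  have ht0 : 0 < t := by linarith [ht.1]
  rw [← lintegral_const_mul' _ _ ENNReal.ofReal_ne_top,
    ← lintegral_const_mul' _ _ ENNReal.ofReal_ne_top]
  refine lintegral_mono ?_
  intro w
  have hkey : ENNReal.ofReal (1 / (8 * 4 ^ d)) * (ENNReal.ofReal (b.tau w) * hE f r0 i w) ≤
      ENNReal.ofReal ((t ^ d)⁻¹) * ENNReal.ofReal (b.tau w / (2 * t) * hl f r0 i w) := by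
    unfold hE
    have hh0 : 0 ≤ hl f r0 i w := hl_nonneg i w
    by_cases hτ0 : 0 ≤ b.tau w
    · rw [← ENNReal.ofReal_mul hτ0, ← ENNReal.ofReal_mul (by positivity),
        ← ENNReal.ofReal_mul (by positivity)]
      apply ENNReal.ofReal_le_ofReal
      have h1 : (t ^ d) ≤ 4 ^ d := pow_le_pow_left₀ ht0.le ht.2 d
      have h2 : 1 / (8 * (4 : ℝ) ^ d) ≤ (t ^ d)⁻¹ * (1 / (2 * t)) := by
        have h3 : (0 : ℝ) < t ^ d := by positivity
        have h4 : (0 : ℝ) < 4 ^ d := by positivity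
        rw [inv_mul_eq_div, div_div, div_le_div_iff₀ (by positivity) (by positivity)]
        nlinarith [ht.2, mul_le_mul h1 ht.2 ht0.le h4.le]
      have h5 : (t ^ d)⁻¹ * (b.tau w / (2 * t) * hl f r0 i w) =
          ((t ^ d)⁻¹ * (1 / (2 * t))) * (b.tau w * hl f r0 i w) := by
        field_simp
      rw [h5]
      exact mul_le_mul_of_nonneg_right h2 (mul_nonneg hτ0 hh0)
    · have : ENNReal.ofReal (b.tau w) = 0 := ENNReal.ofReal_eq_zero.2 (by linarith)
      rw [this]
      simp
  calc ENNReal.ofReal (1 / (8 * 4 ^ d)) * (thE r0 b i t w * (ENNReal.ofReal (b.tau w) * hE f r0 i w))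
      = thE r0 b i t w * (ENNReal.ofReal (1 / (8 * 4 ^ d)) *
          (ENNReal.ofReal (b.tau w) * hE f r0 i w)) := by ring
    _ ≤ thE r0 b i t w * (ENNReal.ofReal ((t ^ d)⁻¹) *
          ENNReal.ofReal (b.tau w / (2 * t) * hl f r0 i w)) := by gcongr
    _ = _ := by ring

/-- The bit term at `s = 4`. -/
theorem integrate_bit4 (b : BallData d) (i : ℕ) :
    ∫⁻ v in ball b.c b.r, ENNReal.ofReal (thl r0 i (b.xi 1 v)) *
        ENNReal.ofReal |f (b.wt 4 v) - Fl f r0 i (b.wt 4 v)| ≤ BIT f r0 b 4 i := by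
  have h0 : (0 : ℝ) < 4 := by norm_num
  have h1 : ∀ v, ENNReal.ofReal (thl r0 i (b.xi 1 v)) *
        ENNReal.ofReal |f (b.wt 4 v) - Fl f r0 i (b.wt 4 v)| =
      (fun w => ENNReal.ofReal (thl r0 i (b.xi 4 w)) * ENNReal.ofReal |f w - Fl f r0 i w|)
        (b.wt 4 v) := by
    intro v
    dsimp only
    rw [b.xi_wt h0]
  rw [lintegral_congr h1, lintegral_ball_comp_wt b h0
    (fun w => ENNReal.ofReal (thl r0 i (b.xi 4 w)) * ENNReal.ofReal |f w - Fl f r0 i w|)]
  unfold BIT
  have h2 : ENNReal.ofReal (((4 : ℝ) ^ d)⁻¹) ≤ 1 := by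
    rw [ENNReal.ofReal_le_one]
    exact inv_le_one_of_one_le₀ (one_le_pow₀ (by norm_num))
  calc _ ≤ 1 * ∫⁻ w in b.Bt 4, ENNReal.ofReal (thl r0 i (b.xi 4 w)) *
        ENNReal.ofReal |f w - Fl f r0 i w| := by gcongr
    _ = _ := one_mul _

/-- Superadditivity of the integral on finite sums. -/
theorem sum_lintegral_le {α : Type*} [MeasurableSpace α] (μ : Measure α) {ι : Type*}
    (s : Finset ι) (g : ι → α → ℝ≥0∞) :
    ∑ i ∈ s, ∫⁻ x, g i x ∂μ ≤ ∫⁻ x, ∑ i ∈ s, g i x ∂μ := by
  classical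
  induction s using Finset.induction_on with
  | empty => simp
  | insert a s ha ih =>
    rw [Finset.sum_insert ha]
    simp_rw [Finset.sum_insert ha]
    calc _ ≤ ∫⁻ x, g a x ∂μ + ∫⁻ x, ∑ i ∈ s, g i x ∂μ := by gcongr
      _ ≤ _ := le_lintegral_add _ _

/-- The integrated inequality. -/
theorem integrate_ineq (H : Std f r0) (b : BallData d) {j : ℕ} (hj : b.r < rj r0 (j + 1)) :
    (∫⁻ v in ball b.c b.r, ENNReal.ofReal (f v)) +
      ENNReal.ofReal (1 / (8 * 4 ^ d)) * ∑ i ∈ Finset.range (j + 1), GT f r0 b i ≤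
    ENNReal.ofReal ((4 ^ d)⁻¹) * (∫⁻ w in b.Bt 4, ENNReal.ofReal (f w)) +
      ∑ i ∈ Finset.range (j + 1), BIT f r0 b 1 i +
      ∑ i ∈ Finset.range (j + 1), BIT f r0 b 4 i +
      ENNReal.ofReal (2 * b.L) * ∑ i ∈ Finset.range (j + 1), CT f r0 b i := by
  have hr0 := H.hr0
  have hf : Continuous f := H.cd.continuous
  have hFi : ∀ i, Continuous (Fl f r0 i) := fun i => (Fl_contDiff H i).continuous
  have hwt : Continuous (fun z : E d × ℝ => b.wt z.2 z.1) := by
    unfold BallData.wt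
    fun_prop
  have hw4 : Continuous (b.wt 4) := hwt.comp (continuous_id.prodMk continuous_const)
  have hxi1 : Continuous (b.xi 1) := by
    unfold BallData.xi BallData.q
    fun_prop
  have ha : ∀ i, Measurable (fun v => ENNReal.ofReal (thl r0 i (b.xi 1 v))) := fun i =>
    ENNReal.measurable_ofReal.comp ((thl_cont hr0 i).comp hxi1).measurable
  have hb1 : ∀ i, Measurable (fun v => ENNReal.ofReal |f v - Fl f r0 i v|) := fun i =>
    ENNReal.measurable_ofReal.comp (hf.sub (hFi i)).abs.measurable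
  have hb2 : ∀ i, Measurable
      (fun v => ENNReal.ofReal |f (b.wt 4 v) - Fl f r0 i (b.wt 4 v)|) := fun i =>
    ENNReal.measurable_ofReal.comp
      ((hf.comp hw4).sub ((hFi i).comp hw4)).abs.measurable
  have hD : ∀ i, Measurable (fun v => ∫⁻ t in Icc (1 : ℝ) 4, DE f r0 b.e i (b.wt t v)) := by
    intro i
    have hDm : Measurable (DE f r0 b.e i) :=
      ENNReal.measurable_ofReal.comp (De_cont H b.e i).measurable
    have h2 : Measurable (fun z : E d × ℝ => DE f r0 b.e i (b.wt z.2 z.1)) :=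
      hDm.comp hwt.measurable
    exact h2.lintegral_prod_right'
  -- integrate the pointwise inequality
  have hmain := setLIntegral_mono' (μ := volume) (s := ball b.c b.r) measurableSet_ball
    (fun v hv => pointwise_ineq H b hj (v := v) hv)
  -- the left side
  have hL : (∫⁻ v in ball b.c b.r, ENNReal.ofReal (f v)) +
      ENNReal.ofReal (1 / (8 * 4 ^ d)) * ∑ i ∈ Finset.range (j + 1), GT f r0 b i ≤
      ∫⁻ v in ball b.c b.r, (ENNReal.ofReal (f v) +
      ∑ i ∈ Finset.range (j + 1), ENNReal.ofReal (thl r0 i (b.xi 1 v)) *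
        ∫⁻ t in Icc (1 : ℝ) 4,
          ENNReal.ofReal (b.tau (b.wt t v) / (2 * t) * hl f r0 i (b.wt t v))) := by
    refine le_trans ?_ (le_lintegral_add _ _)
    gcongr
    rw [Finset.mul_sum]
    refine le_trans ?_ (sum_lintegral_le _ _ _)
    exact Finset.sum_le_sum (fun i _ => integrate_gain H b i)
  refine le_trans hL (le_trans hmain ?_)
  -- the right side
  have hf4 : Measurable (fun v => ENNReal.ofReal (f (b.wt 4 v))) :=
    ENNReal.measurable_ofReal.comp (hf.comp hw4).measurable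
  have hmeas : ∀ i, Measurable (fun v => ENNReal.ofReal (thl r0 i (b.xi 1 v)) *
        (ENNReal.ofReal |f v - Fl f r0 i v| +
          ENNReal.ofReal |f (b.wt 4 v) - Fl f r0 i (b.wt 4 v)| +
          ENNReal.ofReal (2 * b.L) * ∫⁻ t in Icc (1 : ℝ) 4, DE f r0 b.e i (b.wt t v))) :=
    fun i => (ha i).mul (((hb1 i).add (hb2 i)).add (measurable_const.mul (hD i)))
  rw [lintegral_add_left hf4,
    lintegral_ball_comp_wt b (by norm_num : (0 : ℝ) < 4) (fun w => ENNReal.ofReal (f w)),
    lintegral_finsetSum _ (fun i _ => hmeas i)]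
  have hterm : ∀ i ∈ Finset.range (j + 1),
      ∫⁻ v in ball b.c b.r, ENNReal.ofReal (thl r0 i (b.xi 1 v)) *
        (ENNReal.ofReal |f v - Fl f r0 i v| +
          ENNReal.ofReal |f (b.wt 4 v) - Fl f r0 i (b.wt 4 v)| +
          ENNReal.ofReal (2 * b.L) * ∫⁻ t in Icc (1 : ℝ) 4, DE f r0 b.e i (b.wt t v)) ≤
      BIT f r0 b 1 i + BIT f r0 b 4 i + ENNReal.ofReal (2 * b.L) * CT f r0 b i := by
    intro i _
    have h1 : ∀ v, ENNReal.ofReal (thl r0 i (b.xi 1 v)) *
        (ENNReal.ofReal |f v - Fl f r0 i v| +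
          ENNReal.ofReal |f (b.wt 4 v) - Fl f r0 i (b.wt 4 v)| +
          ENNReal.ofReal (2 * b.L) * ∫⁻ t in Icc (1 : ℝ) 4, DE f r0 b.e i (b.wt t v)) =
        ENNReal.ofReal (thl r0 i (b.xi 1 v)) * ENNReal.ofReal |f v - Fl f r0 i v| +
        ENNReal.ofReal (thl r0 i (b.xi 1 v)) *
          ENNReal.ofReal |f (b.wt 4 v) - Fl f r0 i (b.wt 4 v)| +
        ENNReal.ofReal (2 * b.L) * (ENNReal.ofReal (thl r0 i (b.xi 1 v)) *
          ∫⁻ t in Icc (1 : ℝ) 4, DE f r0 b.e i (b.wt t v)) := by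
      intro v
      ring
    have m1 : Measurable (fun v => ENNReal.ofReal (thl r0 i (b.xi 1 v)) *
        ENNReal.ofReal |f v - Fl f r0 i v|) := (ha i).mul (hb1 i)
    have m2 : Measurable (fun v => ENNReal.ofReal (thl r0 i (b.xi 1 v)) *
        ENNReal.ofReal |f (b.wt 4 v) - Fl f r0 i (b.wt 4 v)|) := (ha i).mul (hb2 i)
    have m12 : Measurable (fun v => ENNReal.ofReal (thl r0 i (b.xi 1 v)) *
        ENNReal.ofReal |f v - Fl f r0 i v| + ENNReal.ofReal (thl r0 i (b.xi 1 v)) *
        ENNReal.ofReal |f (b.wt 4 v) - Fl f r0 i (b.wt 4 v)|) := m1.add m2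
    have m3 : Measurable (fun v => ENNReal.ofReal (thl r0 i (b.xi 1 v)) *
        ∫⁻ t in Icc (1 : ℝ) 4, DE f r0 b.e i (b.wt t v)) := (ha i).mul (hD i)
    rw [lintegral_congr h1, lintegral_add_left m12, lintegral_add_left m1,
      lintegral_const_mul _ m3]
    have hB1 : ∫⁻ v in ball b.c b.r, ENNReal.ofReal (thl r0 i (b.xi 1 v)) *
        ENNReal.ofReal |f v - Fl f r0 i v| = BIT f r0 b 1 i := by
      unfold BIT
      rw [b.Bt_one]
    rw [hB1]
    gcongr
    · exact integrate_bit4 b i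
    · exact integrate_cost H b i
  calc _ ≤ ENNReal.ofReal ((4 ^ d)⁻¹) * (∫⁻ w in b.Bt 4, ENNReal.ofReal (f w)) +
        ∑ i ∈ Finset.range (j + 1),
          (BIT f r0 b 1 i + BIT f r0 b 4 i + ENNReal.ofReal (2 * b.L) * CT f r0 b i) := by
        gcongr with i hi
        exact hterm i hi
    _ = _ := by
        rw [Finset.sum_add_distrib, Finset.sum_add_distrib, Finset.mul_sum]
        ring

end ValeP137
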