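import Vale.Agent.Lib.P137.Scales

/-! P137 module MaxBasic (elementary facts on `aM`). -/

open MeasureTheory Metric Set Filter Topology
open scoped ENNReal

noncomputable section

namespace ValeP137

variable {d : ℕ} {f : E d → ℝ}

private theorem ball_vol_pos {c : E d} {r : ℝ} (hr : 0 < r) : 0 < (volume (ball c r)).toReal :=
  ENNReal.toReal_pos (measure_ball_pos volume c hr).ne' measure_ball_lt_top.ne

private theorem avg_le_const {s : Set (E d)} {g : E d → ℝ} {M : ℝ} (hs : MeasurableSet s)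
    (h0 : 0 < (volume s).toReal) (hg : IntegrableOn g s) (hM : ∀ x ∈ s, g x ≤ M) :
    (⨍ x in s, g x) ≤ M := by
  have hfin : volume s ≠ ∞ := fun h => by simp [h] at h0
  rw [setAverage_eq, smul_eq_mul, Measure.real, inv_mul_le_iff₀ h0]
  have hc : IntegrableOn (fun _ : E d => M) s := integrableOn_const hfin
  have := setIntegral_mono_on hg hc hs hM
  simpa [setIntegral_const, Measure.real, smul_eq_mul] using this

private theorem bound_of (hf : Continuous f) (hfc : HasCompactSupport f) :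
    ∃ M : ℝ, ∀ x, f x ≤ M := by
  obtain ⟨M, hM⟩ := hf.bounded_above_of_compact_support hfc
  exact ⟨M, fun x => (le_abs_self _).trans (hM x)⟩

/-- Means of a bounded function are bounded: the set in the definition of `aM` is bounded above. -/
theorem aM_bdd (hf : Continuous f) (hfc : HasCompactSupport f) (ρ : ℝ) (y : E d) :
    BddAbove {A : ℝ | ∃ (c : E d) (r : ℝ), ρ ≤ r ∧ y ∈ ball c r ∧ A = ⨍ x in ball c r, f x} := by
  obtain ⟨M, hM⟩ := bound_of hf hfc
  refine ⟨M, ?_⟩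
  rintro A ⟨c, r, -, hy, rfl⟩
  have hr : 0 < r := pos_of_mem_ball hy
  exact avg_le_const measurableSet_ball (ball_vol_pos hr)
    (hf.integrable_of_hasCompactSupport hfc).integrableOn (fun x _ => hM x)

theorem le_aM (hf : Continuous f) (hfc : HasCompactSupport f) {ρ r : ℝ} {c y : E d} (hr : ρ ≤ r)
    (hy : y ∈ ball c r) : (⨍ x in ball c r, f x) ≤ aM f ρ y :=
  le_csSup (aM_bdd hf hfc ρ y) ⟨c, r, hr, hy, rfl⟩

private theorem aM_set_nonempty {ρ : ℝ} (hρ : 0 < ρ) (y : E d) :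
    {A : ℝ | ∃ (c : E d) (r : ℝ), ρ ≤ r ∧ y ∈ ball c r ∧ A = ⨍ x in ball c r, f x}.Nonempty :=
  ⟨_, y, ρ, le_rfl, mem_ball_self hρ, rfl⟩

theorem aM_le {ρ A : ℝ} {y : E d} (hρ : 0 < ρ)
    (h : ∀ (c : E d) (r : ℝ), ρ ≤ r → y ∈ ball c r → (⨍ x in ball c r, f x) ≤ A) :
    aM f ρ y ≤ A := by
  refine csSup_le (aM_set_nonempty hρ y) ?_
  rintro B ⟨c, r, hr, hy, rfl⟩
  exact h c r hr hy

theorem aM_nonneg (hf : Continuous f) (hfc : HasCompactSupport f) (hf0 : ∀ x, 0 ≤ f x)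
    {ρ : ℝ} (hρ : 0 < ρ) (y : E d) : 0 ≤ aM f ρ y := by
  refine le_trans ?_ (le_aM hf hfc le_rfl (mem_ball_self hρ))
  rw [setAverage_eq, smul_eq_mul]
  exact mul_nonneg (by positivity) (integral_nonneg hf0)

theorem aM_antitone (hf : Continuous f) (hfc : HasCompactSupport f) {ρ ρ' : ℝ} (hρ : 0 < ρ)
    (h : ρ ≤ ρ') (y : E d) : aM f ρ' y ≤ aM f ρ y := by
  refine csSup_le_csSup (aM_bdd hf hfc ρ y) (aM_set_nonempty (hρ.trans_le h) y) ?_
  rintro A ⟨c, r, hr, hy, rfl⟩
  exact ⟨c, r, h.trans hr, hy, rfl⟩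

/-- Level sets of `aM` are open. -/
theorem isOpen_aM_gt (hf : Continuous f) (hfc : HasCompactSupport f) {ρ : ℝ} (hρ : 0 < ρ) (l : ℝ) :
    IsOpen {y : E d | l < aM f ρ y} := by
  have : {y : E d | l < aM f ρ y} =
      ⋃ (p : E d × ℝ) (_ : ρ ≤ p.2 ∧ l < ⨍ x in ball p.1 p.2, f x), ball p.1 p.2 := by
    ext y
    simp only [Set.mem_ofPred_eq, mem_iUnion, exists_prop]
    constructor
    · intro hy
      obtain ⟨A, ⟨c, r, hr, hyb, rfl⟩, hA⟩ := exists_lt_of_lt_csSup (aM_set_nonempty hρ y) hy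
      exact ⟨(c, r), ⟨hr, hA⟩, hyb⟩
    · rintro ⟨⟨c, r⟩, ⟨hr, hA⟩, hyb⟩
      exact hA.trans_le (le_aM hf hfc hr hyb)
  rw [this]
  exact isOpen_iUnion fun p => isOpen_iUnion fun _ => isOpen_ball

theorem aM_measurable (hf : Continuous f) (hfc : HasCompactSupport f) {ρ : ℝ} (hρ : 0 < ρ) :
    Measurable (aM f ρ) :=
  measurable_of_Ioi fun l => (isOpen_aM_gt hf hfc hρ l).measurableSet

/-- Means over large balls are small. -/
theorem aM_le_large (hf : Continuous f) (hfc : HasCompactSupport f) (hf0 : ∀ x, 0 ≤ f x)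
    {ρ : ℝ} (hρ : 0 < ρ) (y : E d) :
    aM f ρ y ≤ (∫ x, f x) / (volume (ball (0 : E d) ρ)).toReal := by
  refine aM_le hρ fun c r hr _ => ?_
  have hrpos : 0 < r := hρ.trans_le hr
  have hint : Integrable f (volume : Measure (E d)) := hf.integrable_of_hasCompactSupport hfc
  have h0 : 0 < (volume (ball (0 : E d) ρ)).toReal := ball_vol_pos hρ
  have h1 : (volume (ball (0 : E d) ρ)).toReal ≤ (volume (ball c r)).toReal := by
    rw [Measure.addHaar_ball_center volume c r]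
    exact ENNReal.toReal_mono measure_ball_lt_top.ne (measure_mono (ball_subset_ball hr))
  have h2 : ∫ x in ball c r, f x ≤ ∫ x, f x :=
    setIntegral_le_integral hint (Eventually.of_forall hf0)
  have h3 : 0 ≤ ∫ x in ball c r, f x := integral_nonneg hf0
  have h4 : 0 ≤ ∫ x, f x := integral_nonneg hf0
  rw [setAverage_eq, smul_eq_mul, Measure.real]
  rw [← div_eq_inv_mul]
  calc (∫ x in ball c r, f x) / (volume (ball c r)).toReal
      ≤ (∫ x in ball c r, f x) / (volume (ball (0 : E d) ρ)).toReal :=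
        div_le_div_of_nonneg_left h3 h0 h1
    _ ≤ _ := by gcongr

end ValeP137
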