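import Vale.Agent.Lib.P137.Transfer

/-! P137 module Sum (the block SUM of the blueprint: kernel norms and the double sum). -/

open MeasureTheory Metric Set Filter Topology
open scoped ENNReal

noncomputable section

namespace ValeP137

variable {d : ℕ} {f : E d → ℝ} {r0 : ℝ}

/-- The radial profile of the kernel. -/
def Gk (b R y : ℝ) : ℝ := if y ≤ R then b / max b y else 0

lemma Gk_nonneg {b : ℝ} (hb : 0 < b) (R y : ℝ) : 0 ≤ Gk b R y := by
  unfold Gk; split_ifs
  · exact div_nonneg hb.le (le_trans hb.le (le_max_left _ _))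
  · exact le_rfl

lemma Gk_le_one {b : ℝ} (hb : 0 < b) (R y : ℝ) : Gk b R y ≤ 1 := by
  unfold Gk; split_ifs
  · exact (div_le_one (lt_of_lt_of_le hb (le_max_left _ _))).2 (le_max_left _ _)
  · exact zero_le_one

lemma Gk_le_rpow {b R y : ℝ} (hb : 0 < b) (hy : 0 < y) (hyR : y ≤ R) :
    Gk b R y ≤ √b * y ^ (-(1 / 2) : ℝ) := by
  have hsy : 0 < √y := Real.sqrt_pos.2 hy
  have hsb : 0 < √b := Real.sqrt_pos.2 hb
  have hrp : y ^ (-(1 / 2) : ℝ) = (√y)⁻¹ := by
    rw [Real.rpow_neg hy.le, Real.sqrt_eq_rpow]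
  rw [hrp]
  unfold Gk
  rw [if_pos hyR]
  have hbb : √b * √b = b := Real.mul_self_sqrt hb.le
  have hyy : √y * √y = y := Real.mul_self_sqrt hy.le
  rcases le_total y b with h | h
  · rw [max_eq_left h, div_self hb.ne']
    rw [← div_eq_mul_inv, one_le_div hsy]
    exact Real.sqrt_le_sqrt h
  · rw [max_eq_right h, ← div_eq_mul_inv, div_le_div_iff₀ hy hsy]
    have hs : √b ≤ √y := Real.sqrt_le_sqrt h
    calc b * √y = √b * (√b * √y) := by rw [← mul_assoc, hbb]
      _ ≤ √b * (√y * √y) := by gcongr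
      _ = √b * y := by rw [hyy]

lemma measurable_Gk {b R : ℝ} : Measurable (Gk b R) := by
  unfold Gk
  exact Measurable.ite measurableSet_Iic (measurable_const.div (measurable_const.max measurable_id))
    measurable_const

lemma kerE_eq (r0 : ℝ) (l j : ℕ) (z : E d) :
    kerE r0 l j z = ENNReal.ofReal (Gk (bK r0 l j) (64 * rj r0 j) ‖z‖) := by
  unfold kerE kmin Gk
  by_cases h : ‖z‖ ≤ 64 * rj r0 j
  · rw [indicator_of_mem (by simpa using h), if_pos h]
  · rw [indicator_of_notMem (by simpa using h), if_neg h, ENNReal.ofReal_zero]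

lemma kerE_measurable (r0 : ℝ) (l j : ℕ) : Measurable (kerE (d := d) r0 l j) := by
  have : kerE (d := d) r0 l j = fun z => ENNReal.ofReal (Gk (bK r0 l j) (64 * rj r0 j) ‖z‖) := by
    funext z; exact kerE_eq r0 l j z
  rw [this]
  exact (measurable_Gk.comp measurable_norm).ennreal_ofReal

lemma omega_eq : volume.real (ball (0 : E d) 1) = omega d := rfl

lemma omega_pos (d : ℕ) : 0 < omega d := by
  unfold omega
  exact ENNReal.toReal_pos (measure_ball_pos _ _ one_pos).ne' measure_ball_lt_top.ne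

/-- The radial integral. -/
lemma radial_bound {b R : ℝ} (hb : 0 < b) (hR : 0 < R) (n : ℕ) :
    ∫ y in Ioi (0 : ℝ), y ^ n • Gk b R y ≤ 2 * √b * R ^ n * √R := by
  have hint : IntegrableOn (fun y : ℝ => R ^ n * (√b * y ^ (-(1 / 2) : ℝ))) (Ioc 0 R) := by
    have h1 : IntervalIntegrable (fun y : ℝ => y ^ (-(1 / 2) : ℝ)) volume 0 R :=
      intervalIntegral.intervalIntegrable_rpow' (by norm_num)
    have h2 : IntegrableOn (fun y : ℝ => y ^ (-(1 / 2) : ℝ)) (Ioc 0 R) :=
      (intervalIntegrable_iff_integrableOn_Ioc_of_le hR.le).1 h1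
    exact (h2.const_mul _).const_mul _
  have hval : ∫ y in Ioc 0 R, R ^ n * (√b * y ^ (-(1 / 2) : ℝ)) = 2 * √b * R ^ n * √R := by
    rw [integral_const_mul, integral_const_mul, ← intervalIntegral.integral_of_le hR.le,
      integral_rpow (Or.inl (by norm_num))]
    have h0 : (0 : ℝ) ^ (-(1 / 2) + 1 : ℝ) = 0 := Real.zero_rpow (by norm_num)
    have h3 : R ^ (-(1 / 2) + 1 : ℝ) = √R := by
      rw [Real.sqrt_eq_rpow]; norm_num
    rw [h0, h3]
    have h4 : (-(1 / 2) + 1 : ℝ) = 1 / 2 := by norm_num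
    rw [h4]
    ring
  have hinter : Ioi (0 : ℝ) ∩ Ioc 0 R = Ioc 0 R := by
    ext y; simp only [mem_inter_iff, mem_Ioi, mem_Ioc]; constructor
    · rintro ⟨_, h⟩; exact h
    · intro h; exact ⟨h.1, h⟩
  rw [← hval, ← hinter, ← setIntegral_indicator measurableSet_Ioc]
  refine integral_mono_of_nonneg ?_ ?_ ?_
  · filter_upwards [ae_restrict_mem measurableSet_Ioi] with y hy
    have hy0 : (0 : ℝ) < y := hy
    simp only [Pi.zero_apply, smul_eq_mul]
    exact mul_nonneg (pow_nonneg hy0.le _) (Gk_nonneg hb _ _)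
  · exact (hint.integrable_indicator measurableSet_Ioc).integrableOn
  · filter_upwards [ae_restrict_mem measurableSet_Ioi] with y hy
    have hy0 : (0 : ℝ) < y := hy
    by_cases hyR : y ≤ R
    · rw [indicator_of_mem (show y ∈ Ioc 0 R from ⟨hy0, hyR⟩), smul_eq_mul]
      have hG := Gk_le_rpow hb hy0 hyR
      have hpow : y ^ n ≤ R ^ n := pow_le_pow_left₀ hy0.le hyR n
      have hrp : 0 ≤ √b * y ^ (-(1 / 2) : ℝ) :=
        mul_nonneg (Real.sqrt_nonneg _) (Real.rpow_nonneg hy0.le _)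
      exact mul_le_mul hpow hG (Gk_nonneg hb _ _) (pow_nonneg hR.le _)
    · rw [indicator_of_notMem (fun h => hyR h.2), smul_eq_mul]
      unfold Gk
      rw [if_neg hyR, mul_zero]

/-- The norm of the kernel. -/
lemma ker_norm (hd : 1 ≤ d) (hr0 : 0 < r0) (l j : ℕ) :
    ∫⁻ z : E d, kerE r0 l j z ≤
      ENNReal.ofReal ((d : ℝ) * omega d *
        (2 * √(bK r0 l j) * (64 * rj r0 j) ^ (d - 1) * √(64 * rj r0 j))) := by
  have hb : 0 < bK r0 l j := by unfold bK; positivity
  have hR : 0 < 64 * rj r0 j := mul_pos (by norm_num) (rj_pos hr0 j)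
  set b := bK r0 l j with hbdef
  set R := 64 * rj r0 j with hRdef
  have : Nonempty (Fin d) := ⟨⟨0, hd⟩⟩
  have : Nontrivial (E d) := inferInstance
  have hfin : Module.finrank ℝ (E d) = d := finrank_euclideanSpace_fin
  have hmeas : Measurable (fun z : E d => Gk b R ‖z‖) := measurable_Gk.comp measurable_norm
  have hint : Integrable (fun z : E d => Gk b R ‖z‖) := by
    have hsub : (fun z : E d => Gk b R ‖z‖) =
        indicator (closedBall (0 : E d) R) (fun z : E d => Gk b R ‖z‖) := by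
      funext z
      by_cases h : ‖z‖ ≤ R
      · rw [indicator_of_mem (by simpa using h)]
      · rw [indicator_of_notMem (by simpa using h)]
        unfold Gk; rw [if_neg h]
    rw [hsub, integrable_indicator_iff measurableSet_closedBall]
    refine Measure.integrableOn_of_bounded (M := 1) (measure_closedBall_lt_top).ne
      hmeas.aestronglyMeasurable ?_
    filter_upwards with z
    rw [Real.norm_of_nonneg (Gk_nonneg hb _ _)]
    exact Gk_le_one hb _ _
  have h1 : ∫⁻ z : E d, kerE r0 l j z = ENNReal.ofReal (∫ z : E d, Gk b R ‖z‖) := by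
    rw [ofReal_integral_eq_lintegral_ofReal hint (Eventually.of_forall fun z => Gk_nonneg hb _ _)]
    exact lintegral_congr fun z => kerE_eq r0 l j z
  rw [h1]
  apply ENNReal.ofReal_le_ofReal
  have h2 := integral_fun_norm_addHaar (volume : Measure (E d)) (Gk b R)
  rw [h2, hfin, omega_eq, nsmul_eq_mul, smul_eq_mul]
  have h3 := radial_bound hb hR (d - 1)
  have hd0 : (0 : ℝ) ≤ (d : ℝ) * omega d := mul_nonneg (Nat.cast_nonneg _) (omega_pos d).le
  rw [← mul_assoc]
  exact mul_le_mul_of_nonneg_left h3 hd0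

/-- Convolution with the kernel, by Tonelli. -/
lemma ker_conv {V : E d → ℝ≥0∞} (hV : Measurable V) (r0 : ℝ) (l j : ℕ) :
    ∫⁻ y, ∫⁻ w, kerE r0 l j (y - w) * V w = (∫⁻ z : E d, kerE r0 l j z) * ∫⁻ w, V w := by
  have hK := kerE_measurable (d := d) r0 l j
  have hm : Measurable (Function.uncurry fun y w : E d => kerE r0 l j (y - w) * V w) := by
    have h1 : Measurable fun p : E d × E d => kerE r0 l j (p.1 - p.2) :=
      hK.comp (measurable_fst.sub measurable_snd)
    exact h1.mul (hV.comp measurable_snd)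
  rw [lintegral_lintegral_swap hm.aemeasurable]
  have h2 : ∀ w : E d, ∫⁻ y, kerE r0 l j (y - w) * V w = (∫⁻ z : E d, kerE r0 l j z) * V w := by
    intro w
    have hm2 : Measurable fun y : E d => kerE r0 l j (y - w) :=
      hK.comp (measurable_id.sub measurable_const)
    rw [lintegral_mul_const (V w) hm2]
    congr 1
    exact lintegral_sub_right_eq_self (fun z => kerE r0 l j z) w
  simp only [h2]
  exact lintegral_const_mul _ hV

/-- The constant in the kernel bound. -/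
def C1 (d : ℕ) : ℝ := 461952 * d * 64 ^ d

lemma C1_nonneg (d : ℕ) : 0 ≤ C1 d := by unfold C1; positivity

/-- The constant of PART B; it depends on `d` only. -/
def CB (d : ℕ) : ℝ := 2400 * 64 ^ d + C1 d * (√2) ^ (d + 9) * 4

theorem CB_nonneg (d : ℕ) : 0 ≤ CB d := by
  unfold CB
  have := C1_nonneg d
  positivity

/-- Right side of the main lemma. -/
def RHSmain (f : E d → ℝ) (r0 : ℝ) (j : ℕ) (y : E d) : ℝ≥0∞ :=
  ENNReal.ofReal (2400 * 64 ^ d * rj r0 j) * vE f r0 (j + d + 9) y +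
    ∑ l ∈ Finset.range (j + d + 9), ENNReal.ofReal (2406 / (omega d * rj r0 j ^ (d - 1))) *
      ∫⁻ w, kerE r0 l j (y - w) * vE f r0 l w

/-- The numerical kernel estimate. -/
lemma ker_constant (hd : 1 ≤ d) (hr0 : 0 < r0) (l j : ℕ) :
    (rj r0 j)⁻¹ * ((2406 / (omega d * rj r0 j ^ (d - 1))) *
      ((d : ℝ) * omega d *
        (2 * √(bK r0 l j) * (64 * rj r0 j) ^ (d - 1) * √(64 * rj r0 j)))) ≤
      C1 d * ((√2) ^ (l + 1) / (√2) ^ j) := by
  have hr : 0 < rj r0 j := rj_pos hr0 j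
  have hw : 0 < omega d := omega_pos d
  have hpow : 0 < rj r0 j ^ (d - 1) := pow_pos hr _
  have hmul : (64 * rj r0 j) ^ (d - 1) = 64 ^ (d - 1) * rj r0 j ^ (d - 1) := mul_pow _ _ _
  have hs : √(64 * rj r0 j) = 8 * √(rj r0 j) := by
    rw [Real.sqrt_mul (by norm_num)]
    congr 1
    rw [show (64 : ℝ) = 8 ^ 2 by norm_num]
    exact Real.sqrt_sq (by norm_num)
  have hsr : √(rj r0 j) * √(rj r0 j) = rj r0 j := Real.mul_self_sqrt hr.le
  have hsrpos : 0 < √(rj r0 j) := Real.sqrt_pos.2 hr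
  have hs2 : (0 : ℝ) < √2 := by positivity
  have hs22 : √2 * √2 = 2 := Real.mul_self_sqrt (by norm_num)
  -- the value of `√b √r_j`
  have hb : √(bK r0 l j) * √(rj r0 j) ≤ 12 * rj r0 j * ((√2) ^ (l + 1) / (√2) ^ j) := by
    have hbK : bK r0 l j * rj r0 j =
        140 * (rj r0 j * ((√2) ^ (l + 1) / (√2) ^ j)) ^ 2 := by
      have h4 : rj r0 j = r0 * (√2) ^ j * (√2) ^ j * (√2) ^ j * (√2) ^ j := by
        unfold rj
        have : (4 : ℝ) ^ j = (√2) ^ j * (√2) ^ j * (√2) ^ j * (√2) ^ j := by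
          rw [← mul_pow, ← mul_pow, ← mul_pow]
          congr 1
          nlinarith
        rw [this]; ring
      have h2 : (2 : ℝ) ^ (j + l + 1) = ((√2) ^ j) ^ 2 * ((√2) ^ (l + 1)) ^ 2 := by
        rw [← pow_mul, ← pow_mul, ← pow_add, show j * 2 + (l + 1) * 2 = (j + l + 1) * 2 by ring,
          mul_comm (j + l + 1) 2, pow_mul]
        congr 1
        nlinarith
      unfold bK
      rw [h2]
      have hne : (√2) ^ j ≠ 0 := (pow_pos hs2 j).ne'
      rw [h4]
      field_simp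
    rw [← Real.sqrt_mul (by unfold bK; positivity), hbK]
    have hnn : 0 ≤ rj r0 j * ((√2) ^ (l + 1) / (√2) ^ j) := by positivity
    rw [Real.sqrt_le_left (by positivity)]
    nlinarith [sq_nonneg (rj r0 j * ((√2) ^ (l + 1) / (√2) ^ j))]
  have h64 : (64 : ℝ) ^ (d - 1) ≤ 64 ^ d := pow_le_pow_right₀ (by norm_num) (Nat.sub_le _ _)
  have hEq : (rj r0 j)⁻¹ * ((2406 / (omega d * rj r0 j ^ (d - 1))) *
      ((d : ℝ) * omega d *
        (2 * √(bK r0 l j) * (64 * rj r0 j) ^ (d - 1) * √(64 * rj r0 j)))) =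
      (rj r0 j)⁻¹ * (38496 * d * 64 ^ (d - 1) * (√(bK r0 l j) * √(rj r0 j))) := by
    rw [hmul, hs]
    field_simp
    ring
  rw [hEq]
  have hnn : 0 ≤ (√2) ^ (l + 1) / (√2) ^ j := by positivity
  calc (rj r0 j)⁻¹ * (38496 * d * 64 ^ (d - 1) * (√(bK r0 l j) * √(rj r0 j)))
      ≤ (rj r0 j)⁻¹ * (38496 * d * 64 ^ (d - 1) *
          (12 * rj r0 j * ((√2) ^ (l + 1) / (√2) ^ j))) := by gcongr
    _ = 461952 * d * 64 ^ (d - 1) * ((√2) ^ (l + 1) / (√2) ^ j) := by
        field_simp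
        ring
    _ ≤ C1 d * ((√2) ^ (l + 1) / (√2) ^ j) := by
        unfold C1
        gcongr

/-- The geometric sum over admissible `j`. -/
lemma inner_sum {C : ℝ} (hC : 0 ≤ C) (m l : ℕ) :
    ∑' j : ℕ, (if l < j + m then ENNReal.ofReal (C * ((√2) ^ (l + 1) / (√2) ^ j)) else 0) ≤
      ENNReal.ofReal (C * (√2) ^ m * 4) := by
  have hs2 : (0 : ℝ) < √2 := by positivity
  have hs43 : (4 / 3 : ℝ) ≤ √2 := by
    apply Real.le_sqrt_of_sq_le; norm_num
  have hinv : (√2)⁻¹ ≤ 3 / 4 := by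
    rw [inv_le_comm₀ hs2 (by norm_num)]
    linarith
  have hinv0 : 0 ≤ (√2)⁻¹ := by positivity
  have hinv1 : (√2)⁻¹ < 1 := by linarith
  let S : Set ℕ := {j | l < j + m}
  let φ : S → ℕ := fun j => j.1 + m - (l + 1)
  have hφ : Function.Injective φ := by
    intro a b hab
    have ha : l < a.1 + m := a.2
    have hb : l < b.1 + m := b.2
    have : a.1 + m - (l + 1) = b.1 + m - (l + 1) := hab
    apply Subtype.ext
    omega
  let g : ℕ → ℝ≥0∞ := fun n => ENNReal.ofReal (C * (√2) ^ m * ((√2)⁻¹) ^ n)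
  have h1 : (∑' j : ℕ, (if l < j + m then ENNReal.ofReal (C * ((√2) ^ (l + 1) / (√2) ^ j)) else 0))
      = ∑' j : S, ENNReal.ofReal (C * ((√2) ^ (l + 1) / (√2) ^ j.1)) := by
    rw [tsum_subtype S (fun j : ℕ => ENNReal.ofReal (C * ((√2) ^ (l + 1) / (√2) ^ j)))]
    apply tsum_congr
    intro j
    by_cases h : l < j + m
    · rw [if_pos h, indicator_of_mem (show j ∈ S from h)]
    · rw [if_neg h, indicator_of_notMem (show j ∉ S from h)]
  have h2 : ∀ j : S, ENNReal.ofReal (C * ((√2) ^ (l + 1) / (√2) ^ j.1)) = g (φ j) := by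
    intro j
    have hj : l < j.1 + m := j.2
    have e : j.1 + m = (l + 1) + φ j := by
      show j.1 + m = (l + 1) + (j.1 + m - (l + 1))
      omega
    have h3 : (√2) ^ j.1 * (√2) ^ m = (√2) ^ (l + 1) * (√2) ^ (φ j) := by
      rw [← pow_add, ← pow_add, e]
    show ENNReal.ofReal _ = ENNReal.ofReal _
    congr 1
    rw [inv_pow]
    have hne : (√2) ^ j.1 ≠ 0 := (pow_pos hs2 _).ne'
    have hne' : (√2) ^ (φ j) ≠ 0 := (pow_pos hs2 _).ne'
    field_simp
    linear_combination (-C) * h3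
  rw [h1]
  simp only [h2]
  refine (ENNReal.tsum_comp_le_tsum_of_injective hφ g).trans ?_
  have hsum : Summable fun n : ℕ => C * (√2) ^ m * ((√2)⁻¹) ^ n :=
    (summable_geometric_of_lt_one hinv0 hinv1).mul_left _
  have hnn : ∀ n : ℕ, 0 ≤ C * (√2) ^ m * ((√2)⁻¹) ^ n := fun n => by positivity
  show ∑' n, ENNReal.ofReal (C * (√2) ^ m * ((√2)⁻¹) ^ n) ≤ _
  rw [← ENNReal.ofReal_tsum_of_nonneg hnn hsum, tsum_mul_left,
    tsum_geometric_of_lt_one hinv0 hinv1]
  apply ENNReal.ofReal_le_ofReal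
  have h4 : (1 - (√2)⁻¹)⁻¹ ≤ 4 := by
    rw [inv_le_comm₀ (by linarith) (by norm_num)]
    linarith
  have hCC : 0 ≤ C * (√2) ^ m := by positivity
  exact mul_le_mul_of_nonneg_left h4 hCC

/-- The double sum, abstractly. -/
lemma tsum_double (I : ℕ → ℝ≥0∞) {C : ℝ} (hC : 0 ≤ C) (m : ℕ) (A : ℝ≥0∞) :
    ∑' j : ℕ, (A * I (j + m) + ∑ l ∈ Finset.range (j + m),
        ENNReal.ofReal (C * ((√2) ^ (l + 1) / (√2) ^ j)) * I l) ≤
      (A + ENNReal.ofReal (C * (√2) ^ m * 4)) * ∑' l, I l := by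
  rw [ENNReal.tsum_add, ENNReal.tsum_mul_left, add_mul]
  refine add_le_add ?_ ?_
  · exact mul_le_mul_right (ENNReal.tsum_comp_le_tsum_of_injective (add_left_injective m) I) A
  · calc ∑' j : ℕ, ∑ l ∈ Finset.range (j + m),
          ENNReal.ofReal (C * ((√2) ^ (l + 1) / (√2) ^ j)) * I l
        = ∑' j : ℕ, ∑' l : ℕ,
            (if l < j + m then ENNReal.ofReal (C * ((√2) ^ (l + 1) / (√2) ^ j)) else 0) * I l := by
          apply tsum_congr
          intro j
          rw [tsum_eq_sum (s := Finset.range (j + m))]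
          · apply Finset.sum_congr rfl
            intro l hl
            rw [if_pos (Finset.mem_range.1 hl)]
          · intro l hl
            rw [if_neg (by simpa using hl), zero_mul]
      _ = ∑' l : ℕ, ∑' j : ℕ,
            (if l < j + m then ENNReal.ofReal (C * ((√2) ^ (l + 1) / (√2) ^ j)) else 0) * I l :=
          ENNReal.tsum_comm
      _ = ∑' l : ℕ, (∑' j : ℕ,
            (if l < j + m then ENNReal.ofReal (C * ((√2) ^ (l + 1) / (√2) ^ j)) else 0)) * I l := by
          apply tsum_congr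
          intro l
          rw [ENNReal.tsum_mul_right]
      _ ≤ ∑' l : ℕ, ENNReal.ofReal (C * (√2) ^ m * 4) * I l := by
          apply ENNReal.tsum_le_tsum
          intro l
          gcongr
          exact inner_sum hC m l
      _ = ENNReal.ofReal (C * (√2) ^ m * 4) * ∑' l, I l := ENNReal.tsum_mul_left

lemma vE_measurable (H : Std f r0) (l : ℕ) : Measurable (vE f r0 l) :=
  (vl_cont H l).measurable.ennreal_ofReal

/-- One scale. -/
lemma one_scale (H : Std f r0) (j : ℕ) :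
    ENNReal.ofReal (rj r0 j)⁻¹ * ∫⁻ y, RHSmain f r0 j y ≤
      ENNReal.ofReal (2400 * 64 ^ d) * (∫⁻ w, vE f r0 (j + d + 9) w) +
        ∑ l ∈ Finset.range (j + d + 9),
          ENNReal.ofReal (C1 d * ((√2) ^ (l + 1) / (√2) ^ j)) * ∫⁻ w, vE f r0 l w := by
  have hr : 0 < rj r0 j := rj_pos H.hr0 j
  have hw : 0 < omega d := omega_pos d
  have hconv : ∀ l, Measurable fun y : E d => ∫⁻ w, kerE r0 l j (y - w) * vE f r0 l w := by
    intro l
    have h1 : Measurable fun p : E d × E d => kerE r0 l j (p.1 - p.2) * vE f r0 l p.2 :=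
      ((kerE_measurable r0 l j).comp (measurable_fst.sub measurable_snd)).mul
        ((vE_measurable H l).comp measurable_snd)
    exact h1.lintegral_prod_right'
  have hint : ∫⁻ y, RHSmain f r0 j y =
      ENNReal.ofReal (2400 * 64 ^ d * rj r0 j) * (∫⁻ w, vE f r0 (j + d + 9) w) +
        ∑ l ∈ Finset.range (j + d + 9), ENNReal.ofReal (2406 / (omega d * rj r0 j ^ (d - 1))) *
          ((∫⁻ z : E d, kerE r0 l j z) * ∫⁻ w, vE f r0 l w) := by
    unfold RHSmain
    rw [lintegral_add_left ((vE_measurable H _).const_mul _), lintegral_const_mul _ (vE_measurable H _),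
      lintegral_finsetSum _ (fun l _ => (hconv l).const_mul _)]
    congr 1
    apply Finset.sum_congr rfl
    intro l _
    rw [lintegral_const_mul _ (hconv l), ker_conv (vE_measurable H l)]
  rw [hint, mul_add]
  refine add_le_add ?_ ?_
  · rw [← mul_assoc, ← ENNReal.ofReal_mul (inv_nonneg.2 hr.le)]
    apply le_of_eq
    congr 2
    field_simp
  · rw [Finset.mul_sum]
    apply Finset.sum_le_sum
    intro l _
    have hk : 0 ≤ 2406 / (omega d * rj r0 j ^ (d - 1)) := by positivity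
    have hT : 0 ≤ (d : ℝ) * omega d *
        (2 * √(bK r0 l j) * (64 * rj r0 j) ^ (d - 1) * √(64 * rj r0 j)) := by positivity
    calc ENNReal.ofReal (rj r0 j)⁻¹ * (ENNReal.ofReal (2406 / (omega d * rj r0 j ^ (d - 1))) *
          ((∫⁻ z : E d, kerE r0 l j z) * ∫⁻ w, vE f r0 l w))
        ≤ ENNReal.ofReal (rj r0 j)⁻¹ * (ENNReal.ofReal (2406 / (omega d * rj r0 j ^ (d - 1))) *
          (ENNReal.ofReal ((d : ℝ) * omega d *
            (2 * √(bK r0 l j) * (64 * rj r0 j) ^ (d - 1) * √(64 * rj r0 j))) *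
              ∫⁻ w, vE f r0 l w)) := by
          gcongr
          exact ker_norm H.hd H.hr0 l j
      _ = ENNReal.ofReal ((rj r0 j)⁻¹ * ((2406 / (omega d * rj r0 j ^ (d - 1))) *
            ((d : ℝ) * omega d *
              (2 * √(bK r0 l j) * (64 * rj r0 j) ^ (d - 1) * √(64 * rj r0 j))))) *
              ∫⁻ w, vE f r0 l w := by
          rw [ENNReal.ofReal_mul (inv_nonneg.2 hr.le), ENNReal.ofReal_mul hk]
          ring
      _ ≤ _ := by
          refine mul_le_mul_left (ENNReal.ofReal_le_ofReal ?_) _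
          exact ker_constant H.hd H.hr0 l j

/-- The double sum. -/
theorem sum_bound (H : Std f r0) :
    ∑' j, ENNReal.ofReal (rj r0 j)⁻¹ * ∫⁻ y, RHSmain f r0 j y ≤
      ENNReal.ofReal (CB d) * ∫⁻ w, hE f r0 0 w := by
  have e : ∀ j : ℕ, j + d + 9 = j + (d + 9) := fun j => Nat.add_assoc _ _ _
  have h1 : ∑' j, ENNReal.ofReal (rj r0 j)⁻¹ * ∫⁻ y, RHSmain f r0 j y ≤
      ∑' j : ℕ, (ENNReal.ofReal (2400 * 64 ^ d) * (∫⁻ w, vE f r0 (j + (d + 9)) w) +
        ∑ l ∈ Finset.range (j + (d + 9)),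
          ENNReal.ofReal (C1 d * ((√2) ^ (l + 1) / (√2) ^ j)) * ∫⁻ w, vE f r0 l w) := by
    apply ENNReal.tsum_le_tsum
    intro j
    have := one_scale H j
    rwa [e j] at this
  refine h1.trans ((tsum_double (fun l => ∫⁻ w, vE f r0 l w) (C1_nonneg d) (d + 9) _).trans ?_)
  have hCB : ENNReal.ofReal (2400 * 64 ^ d) + ENNReal.ofReal (C1 d * (√2) ^ (d + 9) * 4) =
      ENNReal.ofReal (CB d) := by
    unfold CB
    rw [ENNReal.ofReal_add (by positivity)
      (mul_nonneg (mul_nonneg (C1_nonneg d) (by positivity)) (by norm_num))]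
  rw [hCB]
  gcongr
  exact tsum_vE_le H

end ValeP137
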