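import Vale.Agent.Lib.P137.Bits
import Vale.Agent.Lib.P137.Cost
import Vale.Agent.Lib.P137.Integrate
import Vale.Agent.Lib.P137.Kernel
import Vale.Agent.Lib.P137.MaxBasic
import Vale.Agent.Lib.P137.Sum

/-! P137 module Ball (the single ball lemma and the main lemma). Complete, given its imports. -/

open MeasureTheory Metric Set Filter Topology
open scoped ENNReal

noncomputable section

namespace ValeP137

variable {d : ℕ} {f : E d → ℝ} {r0 : ℝ}

theorem omega_pos_B (d : ℕ) : 0 < omega d := by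
  unfold omega
  exact ENNReal.toReal_pos (measure_ball_pos volume _ one_pos).ne' measure_ball_lt_top.ne

theorem vol_ball_B (c : E d) {s : ℝ} (hs : 0 < s) :
    volume (ball c s) = ENNReal.ofReal (omega d * s ^ d) := by
  have h1 := Measure.addHaar_ball_of_pos (volume : Measure (E d)) c hs
  rw [h1, finrank_euclideanSpace_fin]
  unfold omega
  have h2 : (volume (ball (0 : E d) 1)) ≠ ⊤ := measure_ball_lt_top.ne
  rw [ENNReal.ofReal_mul ENNReal.toReal_nonneg, ENNReal.ofReal_toReal h2, mul_comm]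

theorem ofReal_avg_B (hf : Continuous f) (hfc : HasCompactSupport f) (hf0 : ∀ x, 0 ≤ f x)
    (c : E d) {s : ℝ} (hs : 0 < s) :
    ENNReal.ofReal (⨍ x in ball c s, f x) =
      (ENNReal.ofReal (omega d * s ^ d))⁻¹ * ∫⁻ x in ball c s, ENNReal.ofReal (f x) := by
  have hi : IntegrableOn f (ball c s) := (hf.integrable_of_hasCompactSupport hfc).integrableOn
  have hv := vol_ball_B c hs
  have hpos : 0 < omega d * s ^ d := mul_pos (omega_pos_B d) (pow_pos hs d)
  rw [setAverage_eq, smul_eq_mul, ENNReal.ofReal_mul (by positivity),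
    ofReal_integral_eq_lintegral_ofReal hi (Eventually.of_forall hf0)]
  congr 1
  rw [Measure.real, hv, ENNReal.toReal_ofReal hpos.le, ENNReal.ofReal_inv_of_pos hpos]

/-- The inequality after cancelling the gain. -/
theorem core_ineq (H : Std f r0) (b : BallData d) {j : ℕ} (hj : b.r < rj r0 (j + 1)) :
    ∫⁻ v in ball b.c b.r, ENNReal.ofReal (f v) ≤
      ENNReal.ofReal ((4 ^ d)⁻¹) * (∫⁻ w in b.Bt 4, ENNReal.ofReal (f w)) +
      ENNReal.ofReal (16 / 3) * (∑ l ∈ Finset.range j,
        ENNReal.ofReal (rho d r0 (l + 1)) * ∫⁻ w in b.U, vE f r0 l w) +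
      ENNReal.ofReal (2 * b.L) * ∑ i ∈ Finset.range (j + 1), CT f r0 b i := by
  set Γ := ∑ i ∈ Finset.range (j + 1), GT f r0 b i with hΓ
  set D := ∑ l ∈ Finset.range j, ENNReal.ofReal (rho d r0 (l + 1)) * ∫⁻ w in b.U, vE f r0 l w with hD
  have hΓf : Γ ≠ ⊤ := by
    rw [hΓ]
    exact (ENNReal.sum_lt_top.mpr fun i _ => GT_lt_top H b i).ne
  have h1 := integrate_ineq H b hj
  have h2 := bits_bound H b hj (s := 1) (by simp)
  have h3 := bits_bound H b hj (s := 4) (by simp)
  set a := ENNReal.ofReal (1 / (16 * 4 ^ d)) with ha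
  have ha8 : ENNReal.ofReal (1 / (8 * 4 ^ d)) = a + a := by
    rw [ha, ← ENNReal.ofReal_add (by positivity) (by positivity)]
    congr 1
    field_simp
    norm_num
  have hc : ENNReal.ofReal (16 / 3) = ENNReal.ofReal (8 / 3) + ENNReal.ofReal (8 / 3) := by
    rw [← ENNReal.ofReal_add (by positivity) (by positivity)]
    norm_num
  have haΓ : (a + a) * Γ ≠ ⊤ := ENNReal.mul_ne_top (ENNReal.add_ne_top.mpr
    ⟨ENNReal.ofReal_ne_top, ENNReal.ofReal_ne_top⟩) hΓf
  rw [ha8] at h1
  refine (ENNReal.add_le_add_iff_right haΓ).1 (h1.trans ?_)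
  calc _ ≤ ENNReal.ofReal ((4 ^ d)⁻¹) * (∫⁻ w in b.Bt 4, ENNReal.ofReal (f w)) +
        (a * Γ + ENNReal.ofReal (8 / 3) * D) + (a * Γ + ENNReal.ofReal (8 / 3) * D) +
        ENNReal.ofReal (2 * b.L) * ∑ i ∈ Finset.range (j + 1), CT f r0 b i := by
        gcongr
    _ = _ := by
        rw [hc]
        ring

/-- The single ball lemma. -/
theorem ball_lemma (H : Std f r0) (b : BallData d) {j : ℕ}
    (hj0 : rj r0 j ≤ b.r) (hj : b.r < rj r0 (j + 1))
    (he : De f r0 b.e (j + d + 9 + 1) b.y = 0) :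
    ENNReal.ofReal (⨍ x in ball b.c b.r, f x) ≤
      ENNReal.ofReal (aM f (rj r0 (j + 1)) b.y) + RHSmain f r0 j b.y := by
  have hd := H.hd
  have hr0 := H.hr0
  have hfc := H.cd.continuous
  have hr := b.hr
  have hrj := rj_pos hr0 j
  have hω := omega_pos_B d
  set r := b.r with hrdef
  set c := (omega d * rj r0 j ^ (d - 1))⁻¹ with hc
  have hcpos : 0 < c := by positivity
  set Kl : ℕ → ℝ≥0∞ := fun l => ∫⁻ w, kerE r0 l j (b.y - w) * vE f r0 l w with hKl
  set A := (ENNReal.ofReal (omega d * r ^ d))⁻¹ with hA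
  have hvolpos : 0 < omega d * r ^ d := by positivity
  have hAreal : ∀ x : ℝ, 0 ≤ x → A * ENNReal.ofReal x = ENNReal.ofReal (x / (omega d * r ^ d)) := by
    intro x hx
    rw [hA, ← ENNReal.ofReal_inv_of_pos hvolpos, ← ENNReal.ofReal_mul (by positivity)]
    congr 1
    field_simp
  have hrd : r ^ d = r ^ (d - 1) * r := by
    rw [← pow_succ]; congr 1; omega
  have hrjd : rj r0 j ^ d = rj r0 j ^ (d - 1) * rj r0 j := by
    rw [← pow_succ]; congr 1; omega
  have hrjr : rj r0 j / (omega d * r ^ d) ≤ c := by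
    have h1 : rj r0 j ^ d ≤ r ^ d := pow_le_pow_left₀ hrj.le hj0 _
    rw [hc, ← one_div, div_le_div_iff₀ hvolpos (by positivity)]
    rw [hrjd] at h1
    nlinarith [mul_le_mul_of_nonneg_left h1 hω.le]
  have hrr : r / (omega d * r ^ d) ≤ c := by
    have h1 : rj r0 j ^ (d - 1) ≤ r ^ (d - 1) := pow_le_pow_left₀ hrj.le hj0 _
    rw [hc, ← one_div, div_le_div_iff₀ hvolpos (by positivity), hrd]
    nlinarith [mul_le_mul_of_nonneg_left h1 (mul_pos hω hr).le]
  -- the first term
  have hT1 : A * (ENNReal.ofReal ((4 ^ d)⁻¹) * (∫⁻ w in b.Bt 4, ENNReal.ofReal (f w))) ≤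
      ENNReal.ofReal (aM f (rj r0 (j + 1)) b.y) := by
    have h4r : (0 : ℝ) < 4 * r := by positivity
    have hav := ofReal_avg_B hfc H.cs H.nn (b.ct 4) h4r
    have hle : (⨍ x in ball (b.ct 4) (4 * r), f x) ≤ aM f (rj r0 (j + 1)) b.y := by
      refine le_aM hfc H.cs ?_ (b.y_mem (t := 4) (by simp))
      rw [rj_succ]; linarith
    refine le_trans (le_of_eq ?_) (ENNReal.ofReal_le_ofReal hle)
    rw [hav, ← mul_assoc, hAreal _ (by positivity)]
    unfold BallData.Bt
    congr 1
    rw [← ENNReal.ofReal_inv_of_pos (by positivity)]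
    congr 1
    rw [mul_pow]
    field_simp
  -- the defect term
  have hT2 : A * (ENNReal.ofReal (16 / 3) * (∑ l ∈ Finset.range j,
        ENNReal.ofReal (rho d r0 (l + 1)) * ∫⁻ w in b.U, vE f r0 l w)) ≤
      ∑ l ∈ Finset.range j, ENNReal.ofReal ((16 / 3) * c) * Kl l := by
    rw [← mul_assoc, hAreal _ (by positivity), Finset.mul_sum]
    refine Finset.sum_le_sum fun l hl => ?_
    have hlj : l < j := Finset.mem_range.mp hl
    have h1 : ENNReal.ofReal (rho d r0 (l + 1)) * ∫⁻ w in b.U, vE f r0 l w ≤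
        ENNReal.ofReal (rj r0 j) * Kl l := by
      calc _ = ∫⁻ w in b.U, ENNReal.ofReal (rho d r0 (l + 1)) * vE f r0 l w := by
            rw [lintegral_const_mul' _ _ ENNReal.ofReal_ne_top]
        _ ≤ ∫⁻ w in b.U, ENNReal.ofReal (rj r0 j) * (kerE r0 l j (b.y - w) * vE f r0 l w) := by
            refine setLIntegral_mono' b.isOpen_U.measurableSet fun w hw => ?_
            rw [← mul_assoc]
            gcongr
            exact U_le_ker hr0 b hj0 hj hlj hw
        _ ≤ ∫⁻ w, ENNReal.ofReal (rj r0 j) * (kerE r0 l j (b.y - w) * vE f r0 l w) :=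
            setLIntegral_le_lintegral _ _
        _ = _ := by rw [hKl]; simp only; rw [lintegral_const_mul' _ _ ENNReal.ofReal_ne_top]
    calc _ ≤ ENNReal.ofReal (16 / 3 / (omega d * r ^ d)) * (ENNReal.ofReal (rj r0 j) * Kl l) := by
          gcongr
      _ = ENNReal.ofReal (16 / 3 / (omega d * r ^ d) * rj r0 j) * Kl l := by
          rw [ENNReal.ofReal_mul (by positivity), mul_assoc]
      _ ≤ _ := by
          refine mul_le_mul_left (ENNReal.ofReal_le_ofReal ?_) _
          calc _ = (16 / 3) * (rj r0 j / (omega d * r ^ d)) := by ring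
            _ ≤ _ := mul_le_mul_of_nonneg_left hrjr (by norm_num)
  -- the cost term
  have hT3 : A * (ENNReal.ofReal (2 * b.L) * ∑ i ∈ Finset.range (j + 1), CT f r0 b i) ≤
      ENNReal.ofReal (2400 * 64 ^ d * rj r0 j) * vE f r0 (j + d + 9) b.y +
      ∑ l ∈ Finset.range (j + d + 9), ENNReal.ofReal (2400 * c) * Kl l := by
    have hL := b.L_le
    have hLpos : 0 < b.L := lt_trans hr b.r_lt_L
    have h1 : ∑ i ∈ Finset.range (j + 1), CT f r0 b i ≤
        ∑ i ∈ Finset.range (j + d + 9), CT f r0 b i :=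
      Finset.sum_le_sum_of_subset (Finset.range_mono (by omega))
    have h2 := cost_chain H b (j + d + 9)
    have h3 := top_bound H b hj he
    have h4 : ∑ l ∈ Finset.range (j + d + 9), ∫⁻ w, apot r0 b (l + 1) w * vE f r0 l w ≤
        ∑ l ∈ Finset.range (j + d + 9), ENNReal.ofReal 800 * Kl l := by
      refine Finset.sum_le_sum fun l hl => ?_
      have hl' : l < j + d + 9 := Finset.mem_range.mp hl
      calc _ ≤ ∫⁻ w, ENNReal.ofReal 800 * (kerE r0 l j (b.y - w) * vE f r0 l w) := by
            refine lintegral_mono fun w => ?_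
            rw [← mul_assoc]
            gcongr
            exact apot_le_ker hd hr0 b hj0 hj hl' w
        _ = _ := by rw [hKl]; simp only; rw [lintegral_const_mul' _ _ ENNReal.ofReal_ne_top]
    have hLr : 2 * b.L / (omega d * r ^ d) ≤ 3 * c := by
      calc _ ≤ 3 * (r / (omega d * r ^ d)) := by
            rw [mul_div_assoc', div_le_div_iff_of_pos_right hvolpos]
            linarith
        _ ≤ _ := by gcongr
    rw [← mul_assoc, hAreal _ (by positivity)]
    calc _ ≤ ENNReal.ofReal (3 * c) * (ENNReal.ofReal 800 * volume (ball (0 : E d) (64 * rj r0 j)) *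
              vE f r0 (j + d + 9) b.y + ∑ l ∈ Finset.range (j + d + 9), ENNReal.ofReal 800 * Kl l) := by
          gcongr ?_ * ?_
          · exact ENNReal.ofReal_le_ofReal hLr
          · exact h1.trans (h2.trans (add_le_add h3 h4))
      _ = _ := by
          have e1 : ENNReal.ofReal (3 * c) * (ENNReal.ofReal 800 * volume (ball (0 : E d) (64 * rj r0 j))) =
              ENNReal.ofReal (2400 * 64 ^ d * rj r0 j) := by
            rw [vol_ball_B _ (by positivity), ← ENNReal.ofReal_mul (by positivity),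
              ← ENNReal.ofReal_mul (by positivity)]
            congr 1
            rw [hc, mul_pow, hrjd]
            field_simp
            try ring
          have e2 : ∀ l, ENNReal.ofReal (3 * c) * (ENNReal.ofReal 800 * Kl l) =
              ENNReal.ofReal (2400 * c) * Kl l := by
            intro l
            rw [← mul_assoc, ← ENNReal.ofReal_mul (by positivity)]
            congr 2
            ring
          rw [mul_add, Finset.mul_sum, ← mul_assoc, e1]
          congr 1
          exact Finset.sum_congr rfl fun l _ => e2 l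
  -- assembling
  have hcore := core_ineq H b hj
  rw [ofReal_avg_B hfc H.cs H.nn b.c hr]
  unfold RHSmain
  calc _ ≤ A * (ENNReal.ofReal ((4 ^ d)⁻¹) * (∫⁻ w in b.Bt 4, ENNReal.ofReal (f w)) +
      ENNReal.ofReal (16 / 3) * (∑ l ∈ Finset.range j,
        ENNReal.ofReal (rho d r0 (l + 1)) * ∫⁻ w in b.U, vE f r0 l w) +
      ENNReal.ofReal (2 * b.L) * ∑ i ∈ Finset.range (j + 1), CT f r0 b i) := by
        gcongr
    _ ≤ ENNReal.ofReal (aM f (rj r0 (j + 1)) b.y) +
        (∑ l ∈ Finset.range j, ENNReal.ofReal ((16 / 3) * c) * Kl l) +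
        (ENNReal.ofReal (2400 * 64 ^ d * rj r0 j) * vE f r0 (j + d + 9) b.y +
          ∑ l ∈ Finset.range (j + d + 9), ENNReal.ofReal (2400 * c) * Kl l) := by
        rw [mul_add, mul_add]
        exact add_le_add (add_le_add hT1 hT2) hT3
    _ ≤ _ := by
        have hsub : ∑ l ∈ Finset.range j, ENNReal.ofReal ((16 / 3) * c) * Kl l ≤
            ∑ l ∈ Finset.range (j + d + 9), ENNReal.ofReal ((16 / 3) * c) * Kl l :=
          Finset.sum_le_sum_of_subset (Finset.range_mono (by omega))
        have hadd : ∑ l ∈ Finset.range (j + d + 9), ENNReal.ofReal ((16 / 3) * c) * Kl l +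
            ∑ l ∈ Finset.range (j + d + 9), ENNReal.ofReal (2400 * c) * Kl l ≤
            ∑ l ∈ Finset.range (j + d + 9), ENNReal.ofReal (2406 / (omega d * rj r0 j ^ (d - 1))) * Kl l := by
          rw [← Finset.sum_add_distrib]
          refine Finset.sum_le_sum fun l _ => ?_
          rw [← add_mul, ← ENNReal.ofReal_add (by positivity) (by positivity)]
          gcongr
          rw [hc, ← div_eq_mul_inv, ← div_eq_mul_inv, ← add_div]
          gcongr
          norm_num
        calc _ ≤ ENNReal.ofReal (aM f (rj r0 (j + 1)) b.y) +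
              (∑ l ∈ Finset.range (j + d + 9), ENNReal.ofReal ((16 / 3) * c) * Kl l) +
              (ENNReal.ofReal (2400 * 64 ^ d * rj r0 j) * vE f r0 (j + d + 9) b.y +
                ∑ l ∈ Finset.range (j + d + 9), ENNReal.ofReal (2400 * c) * Kl l) := by
              gcongr
          _ = ENNReal.ofReal (aM f (rj r0 (j + 1)) b.y) +
              (ENNReal.ofReal (2400 * 64 ^ d * rj r0 j) * vE f r0 (j + d + 9) b.y +
              (∑ l ∈ Finset.range (j + d + 9), ENNReal.ofReal ((16 / 3) * c) * Kl l +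
               ∑ l ∈ Finset.range (j + d + 9), ENNReal.ofReal (2400 * c) * Kl l)) := by
              ring
          _ ≤ _ := by gcongr

/-- The main lemma. -/
theorem main_lemma (H : Std f r0) (j : ℕ) (y : E d) :
    ENNReal.ofReal (aM f (rj r0 j) y - aM f (rj r0 (j + 1)) y) ≤ RHSmain f r0 j y := by
  have hd := H.hd
  have hr0 := H.hr0
  have hfc := H.cd.continuous
  set R := RHSmain f r0 j y with hR
  by_cases hRtop : R = ⊤
  · rw [hRtop]; exact le_top
  -- the direction
  obtain ⟨e, he1, he⟩ : ∃ e : E d, ‖e‖ = 1 ∧ De f r0 e (j + d + 9 + 1) y = 0 := by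
    set G := Gl f r0 (j + d + 9 + 1) y with hG
    by_cases hG0 : G = 0
    · 
      refine ⟨EuclideanSpace.single ⟨0, by omega⟩ 1, by simp, ?_⟩
      unfold De hl
      rw [← hG, hG0]
      simp
    · have hGn : ‖G‖ ≠ 0 := norm_ne_zero_iff.mpr hG0
      refine ⟨(‖G‖)⁻¹ • G, by rw [norm_smul, norm_inv, norm_norm]; field_simp, ?_⟩
      unfold De hl
      rw [← hG, inner_smul_right, real_inner_self_eq_norm_sq]
      field_simp
      ring
  set R' := R.toReal with hR'
  have hR'0 : 0 ≤ R' := ENNReal.toReal_nonneg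
  have hofR : ENNReal.ofReal R' = R := ENNReal.ofReal_toReal hRtop
  have hajp : 0 ≤ aM f (rj r0 (j + 1)) y := aM_nonneg hfc H.cs H.nn (rj_pos hr0 _) y
  have hle : aM f (rj r0 j) y ≤ aM f (rj r0 (j + 1)) y + R' := by
    refine aM_le (rj_pos hr0 j) fun c r hr hy => ?_
    by_cases hr2 : rj r0 (j + 1) ≤ r
    · have := le_aM hfc H.cs hr2 hy
      linarith
    · have hr3 : r < rj r0 (j + 1) := not_le.mp hr2
      have hrpos : 0 < r := lt_of_lt_of_le (rj_pos hr0 j) hr
      let b : BallData d := ⟨y, c, e, r, he1, hrpos, hy⟩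
      have h1 := ball_lemma H b hr hr3 he
      have h2 : ENNReal.ofReal (⨍ x in ball c r, f x) ≤
          ENNReal.ofReal (aM f (rj r0 (j + 1)) y + R') := by
        rw [ENNReal.ofReal_add hajp hR'0, hofR]
        exact h1
      exact (ENNReal.ofReal_le_ofReal_iff (add_nonneg hajp hR'0)).1 h2
  rw [← hofR]
  exact ENNReal.ofReal_le_ofReal (by linarith)

/-- PART B. -/
theorem partB (H : Std f r0) :
    ∑' j, ENNReal.ofReal (rj r0 j)⁻¹ *
        ∫⁻ y, ENNReal.ofReal (aM f (rj r0 j) y - aM f (rj r0 (j + 1)) y) ≤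
      ENNReal.ofReal (CB d) * ∫⁻ w, hE f r0 0 w := by
  refine le_trans (ENNReal.tsum_le_tsum fun j => ?_) (sum_bound H)
  gcongr
  exact main_lemma H j _

end ValeP137
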