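import Vale.Agent.Lib.P137.Transfer
import Vale.Agent.Lib.P137.ThetaBounds

/-! P137 module Bits (the block BITS of the blueprint). -/

open MeasureTheory Metric Set Filter Topology
open scoped ENNReal

noncomputable section

namespace ValeP137

variable {d : ℕ} {f : E d → ℝ} {r0 : ℝ}

namespace BitsAux

theorem xi_continuous (b : BallData d) (s : ℝ) : Continuous (b.xi s) := by
  unfold BallData.xi BallData.q
  fun_prop

/-- Lower end of the bit `A_i`. -/
def lo (r0 : ℝ) : ℕ → ℝ
  | 0 => 2 * Xs r0 0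
  | i + 1 => (5 / 2) * Xs r0 i

/-- The bit `A_i(s)`. -/
def AA (r0 : ℝ) (b : BallData d) (s : ℝ) (i : ℕ) : Set (E d) :=
  {w | w ∈ b.Bt s ∧ lo r0 i < b.xi s w ∧ b.xi s w ≤ (5 / 2) * Xs r0 i}

/-- The enlarged bit `C'_i(s)`. -/
def CC (r0 : ℝ) (b : BallData d) (s : ℝ) (i : ℕ) : Set (E d) :=
  {w | w ∈ b.Bt s ∧ (19 / 32) * Xs r0 i ≤ b.xi s w ∧ b.xi s w ≤ (81 / 32) * Xs r0 i}

theorem AA_meas (b : BallData d) (s : ℝ) (i : ℕ) : MeasurableSet (AA r0 b s i) := by
  have hc := xi_continuous b s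
  have h1 : MeasurableSet {w : E d | lo r0 i < b.xi s w} :=
    measurableSet_lt measurable_const hc.measurable
  have h2 : MeasurableSet {w : E d | b.xi s w ≤ (5 / 2) * Xs r0 i} :=
    measurableSet_le hc.measurable measurable_const
  exact (b.isOpen_Bt s).measurableSet.inter (h1.inter h2)

theorem CC_meas (b : BallData d) (s : ℝ) (i : ℕ) : MeasurableSet (CC r0 b s i) := by
  have hc := xi_continuous b s
  have h1 : MeasurableSet {w : E d | (19 / 32) * Xs r0 i ≤ b.xi s w} :=
    measurableSet_le measurable_const hc.measurable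
  have h2 : MeasurableSet {w : E d | b.xi s w ≤ (81 / 32) * Xs r0 i} :=
    measurableSet_le hc.measurable measurable_const
  exact (b.isOpen_Bt s).measurableSet.inter (h1.inter h2)

theorem lo_ge (hr0 : 0 < r0) (i : ℕ) : (5 / 8) * Xs r0 i ≤ lo r0 i := by
  cases i with
  | zero =>
    have := Xs_pos hr0 0
    simp only [lo]
    nlinarith
  | succ k =>
    simp only [lo]
    rw [Xs_succ]
    nlinarith

theorem thick_sub (hr0 : 0 < r0) (b : BallData d) {s : ℝ} (hs : s ∈ Icc (1 : ℝ) 4) (i : ℕ) {x : ℝ}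
    (hx : x ≤ Xs r0 i / 48) : thickening x (AA r0 b s i) ⊆ CC r0 b s i := by
  intro w' hw'
  rcases (mem_thickening_iff).1 hw' with ⟨w, ⟨hwB, hw1, hw2⟩, hd⟩
  have hXpos := Xs_pos hr0 i
  have hlo := lo_ge hr0 i
  have hs1 : (1 : ℝ) ≤ s := hs.1
  have hs0 : (0 : ℝ) < s := by linarith
  have hd' : ‖w' - w‖ < x := by simpa [dist_eq_norm] using hd
  have hxle : x ≤ s * b.xi s w := by
    have h3 : (0 : ℝ) < b.xi s w := by nlinarith
    nlinarith
  have hw'B : w' ∈ b.Bt s := b.ball_sub hs0 hwB hxle hd'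
  have hlip := b.xi_lip_w hs0 hwB hw'B
  have hnorm0 : 0 ≤ ‖w' - w‖ := norm_nonneg _
  have hdiv : ‖w' - w‖ / s ≤ ‖w' - w‖ := div_le_self hnorm0 hs1
  have habs := abs_le.1 (hlip.trans hdiv)
  refine ⟨hw'B, ?_, ?_⟩
  · nlinarith [habs.1]
  · nlinarith [habs.2]

theorem CC_sub_U (b : BallData d) {s : ℝ} (hs : s ∈ Icc (1 : ℝ) 4) (i : ℕ) :
    CC r0 b s i ⊆ b.U := fun _ hw => b.Bt_sub_U hs hw.1

theorem radius_le (hr0 : 0 < r0) (hd1 : 1 ≤ d) (i : ℕ) :
    (4 / 3) * rho d r0 i + rho d r0 (i + 1) ≤ Xs r0 i / 48 := by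
  have hX := Xs_pos hr0 i
  have hrho : rho d r0 (i + 1) = 4 * Xs r0 i / 4 ^ (d + 9) := by
    unfold rho; rw [Xs_succ]
  have hrho0 : rho d r0 i = Xs r0 i / 4 ^ (d + 9) := rfl
  have hpow : (4 : ℝ) ^ 9 ≤ 4 ^ (d + 9) :=
    pow_le_pow_right₀ (by norm_num) (by omega)
  rw [hrho, hrho0]
  have h4 : (0 : ℝ) < 4 ^ (d + 9) := by positivity
  rw [show (4 / 3) * (Xs r0 i / 4 ^ (d + 9)) + 4 * Xs r0 i / 4 ^ (d + 9) =
      (16 / 3) * Xs r0 i / 4 ^ (d + 9) by ring]
  rw [div_le_div_iff₀ h4 (by norm_num)]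
  nlinarith [mul_le_mul_of_nonneg_left hpow hX.le]

theorem abs_sub_ladder (f : E d → ℝ) (r0 : ℝ) (w : E d) (i : ℕ) :
    |f w - Fl f r0 i w| ≤
      ∑ l ∈ Finset.range i, |Fl f r0 l w - Fl f r0 (l + 1) w| := by
  induction i with
  | zero => simp [Fl]
  | succ n ih =>
    rw [Finset.sum_range_succ]
    have := abs_sub_le (f w) (Fl f r0 n w) (Fl f r0 (n + 1) w)
    linarith

theorem Xs_mono (hr0 : 0 < r0) {i k : ℕ} (h : i ≤ k) : Xs r0 i ≤ Xs r0 k := by
  induction h with
  | refl => exact le_rfl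
  | @step n _ ih =>
    rw [Xs_succ]
    nlinarith [Xs_pos hr0 n]

/-- The pointwise reduction to the bits. -/
theorem ptwise (H : Std f r0) (b : BallData d) {j : ℕ} (hj : b.r < rj r0 (j + 1))
    {s : ℝ} (hs : 0 < s) {w : E d} :
    ∑ i ∈ Finset.range (j + 1),
        ENNReal.ofReal (thl r0 i (b.xi s w)) * ENNReal.ofReal |f w - Fl f r0 i w| ≤
      ∑ i ∈ Finset.range j, indicator (AA r0 b s i)
        (fun w => ∑ l ∈ Finset.range (i + 1),
          ENNReal.ofReal |Fl f r0 l w - Fl f r0 (l + 1) w|) w := by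
  have hr0 := H.hr0
  classical
  by_cases hw : w ∈ b.Bt s
  swap
  · -- outside the ball we have nonpositive xi, so only level zero is active
    have hxi : b.xi s w ≤ 0 := by
      by_contra hcon
      exact hw ((b.xi_pos_iff hs).1 (not_le.1 hcon))
    have hzero : ∀ i ∈ Finset.range (j + 1),
        ENNReal.ofReal (thl r0 i (b.xi s w)) * ENNReal.ofReal |f w - Fl f r0 i w| = 0 := by
      intro i _
      cases i with
      | zero => simp [Fl]
      | succ k =>
        have hX := Xs_pos hr0 (k + 1)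
        rw [thl_succ_eq_zero hr0 k (by linarith)]
        simp
    rw [Finset.sum_eq_zero hzero]
    exact zero_le
  by_cases hlow : b.xi s w ≤ 2 * Xs r0 0
  · have hzero : ∀ i ∈ Finset.range (j + 1),
        ENNReal.ofReal (thl r0 i (b.xi s w)) * ENNReal.ofReal |f w - Fl f r0 i w| = 0 := by
      intro i _
      cases i with
      | zero => simp [Fl]
      | succ k =>
        have h0 : Xs r0 0 ≤ Xs r0 k := Xs_mono hr0 (Nat.zero_le k)
        have hk := Xs_succ r0 k
        rw [thl_succ_eq_zero hr0 k (by rw [hk]; linarith)]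
        simp
    rw [Finset.sum_eq_zero hzero]
    exact zero_le
  have hlow' : 2 * Xs r0 0 < b.xi s w := not_le.1 hlow
  have hxile := b.xi_le hs w
  have hjX : b.xi s w < Xs r0 j / 8 := by
    have h1 := rj_succ r0 j
    have h2 := Xs_eq_rj r0 j
    rw [h1] at hj
    rw [h2]
    linarith
  have hjpos := Xs_pos hr0 j
  have hex : ∃ i0, b.xi s w ≤ (5 / 2) * Xs r0 i0 := ⟨j, by linarith⟩
  let i0 := Nat.find hex
  have hi0 : b.xi s w ≤ (5 / 2) * Xs r0 i0 := Nat.find_spec hex
  have hi0j : i0 ≤ j := Nat.find_min' hex (by linarith)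
  have hlo : lo r0 i0 < b.xi s w := by
    rcases hcase : i0 with _ | k
    · simpa [lo] using hlow'
    · have hk : k < i0 := by omega
      have := Nat.find_min hex hk
      simp only [lo]
      exact not_le.1 this
  have hi0ltj : i0 < j := by
    refine lt_of_le_of_ne hi0j ?_
    intro heq
    have h5 := lo_ge hr0 i0
    rw [heq] at h5 hlo
    nlinarith
  have hmem : w ∈ AA r0 b s i0 := ⟨hw, hlo, hi0⟩
  set T : ℝ := ∑ l ∈ Finset.range (i0 + 1), |Fl f r0 l w - Fl f r0 (l + 1) w| with hT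
  have hTnn : 0 ≤ T := Finset.sum_nonneg fun _ _ => abs_nonneg _
  have hterm : ∀ i ∈ Finset.range (j + 1),
      ENNReal.ofReal (thl r0 i (b.xi s w)) * ENNReal.ofReal |f w - Fl f r0 i w| ≤
        ENNReal.ofReal (thl r0 i (b.xi s w)) * ENNReal.ofReal T := by
    intro i _
    by_cases hi : i ≤ i0 + 1
    · gcongr
      refine (abs_sub_ladder f r0 w i).trans ?_
      refine Finset.sum_le_sum_of_subset_of_nonneg ?_ (fun _ _ _ => abs_nonneg _)
      intro x hx
      simp only [Finset.mem_range] at hx ⊢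
      omega
    · obtain ⟨k, rfl⟩ : ∃ k, i = k + 1 := ⟨i - 1, by omega⟩
      have hk2 : i0 + 1 ≤ k := by omega
      have h1 : Xs r0 (i0 + 1) ≤ Xs r0 k := Xs_mono hr0 hk2
      have h2 := Xs_succ r0 k
      have h3 := Xs_succ r0 i0
      have h4 := Xs_pos hr0 i0
      rw [thl_succ_eq_zero hr0 k (by rw [h2]; nlinarith)]
      simp
  have hsum1 : ∑ i ∈ Finset.range (j + 1), ENNReal.ofReal (thl r0 i (b.xi s w)) = 1 := by
    rw [← ENNReal.ofReal_sum_of_nonneg (fun i _ => thl_nonneg hr0 i _),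
      thl_xi_sum hr0 b hj hs w]
    simp
  calc ∑ i ∈ Finset.range (j + 1),
        ENNReal.ofReal (thl r0 i (b.xi s w)) * ENNReal.ofReal |f w - Fl f r0 i w|
      ≤ ∑ i ∈ Finset.range (j + 1),
        ENNReal.ofReal (thl r0 i (b.xi s w)) * ENNReal.ofReal T := Finset.sum_le_sum hterm
    _ = ENNReal.ofReal T := by rw [← Finset.sum_mul, hsum1, one_mul]
    _ = ∑ l ∈ Finset.range (i0 + 1), ENNReal.ofReal |Fl f r0 l w - Fl f r0 (l + 1) w| := by
        rw [hT, ENNReal.ofReal_sum_of_nonneg (fun _ _ => abs_nonneg _)]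
    _ = indicator (AA r0 b s i0)
        (fun w => ∑ l ∈ Finset.range (i0 + 1),
          ENNReal.ofReal |Fl f r0 l w - Fl f r0 (l + 1) w|) w := by
        rw [indicator_of_mem hmem]
    _ ≤ _ := by
        exact Finset.single_le_sum
          (f := fun i => indicator (AA r0 b s i)
            (fun w => ∑ l ∈ Finset.range (i + 1),
              ENNReal.ofReal |Fl f r0 l w - Fl f r0 (l + 1) w|) w)
          (fun _ _ => zero_le) (Finset.mem_range.2 hi0ltj)

/-- Step A: one bit is bounded by ladder terms on `C'_i`. -/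
theorem one_bit (H : Std f r0) (b : BallData d) {s : ℝ} (hs : s ∈ Icc (1 : ℝ) 4) (i : ℕ) :
    ∫⁻ w in AA r0 b s i, ∑ l ∈ Finset.range (i + 1),
        ENNReal.ofReal |Fl f r0 l w - Fl f r0 (l + 1) w| ≤
      ∑ l ∈ Finset.range (i + 1), ENNReal.ofReal (rho d r0 (l + 1)) *
        ((∫⁻ w in CC r0 b s i, hE f r0 i w) +
          ∑ n ∈ Finset.Ico l i, ∫⁻ w in CC r0 b s i, vE f r0 n w) := by
  have hr0 := H.hr0
  have hmeasD : ∀ l, Measurable fun w : E d =>
      ENNReal.ofReal |Fl f r0 l w - Fl f r0 (l + 1) w| := by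
    intro l
    have h1 := (Fl_contDiff H l).continuous
    have h2 := (Fl_contDiff H (l + 1)).continuous
    exact ENNReal.measurable_ofReal.comp ((h1.sub h2).abs.measurable)
  rw [lintegral_finsetSum _ (fun l _ => hmeasD l)]
  refine Finset.sum_le_sum fun l hl => ?_
  have hli : l ≤ i := by
    simp only [Finset.mem_range] at hl; omega
  have hA := AA_meas (r0 := r0) b s i
  set S1 : Set (E d) := thickening (rho d r0 (i + 1)) (AA r0 b s i) with hS1
  have hS1m : MeasurableSet S1 := (isOpen_thickening).measurableSet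
  have hsub1 : thickening (rho d r0 (l + 1)) (AA r0 b s i) ⊆ S1 :=
    thickening_mono (rho_mono d hr0 (by omega)) _
  have hL2 := L2 H l hA hS1m hsub1
  have hsub2 : thickening ((4 / 3) * rho d r0 i) S1 ⊆ CC r0 b s i := by
    refine (thickening_thickening_subset _ _ _).trans ?_
    exact thick_sub hr0 b hs i (radius_le hr0 H.hd i)
  have hchain := chain H hli hS1m (CC_meas b s i) hsub2
  exact hL2.trans (by gcongr)

/-- Step B: reorganising the double sum. -/
theorem reorganise (hr0 : 0 < r0) (i : ℕ) (Hh : ℝ≥0∞) (V : ℕ → ℝ≥0∞) :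
    ∑ l ∈ Finset.range (i + 1), ENNReal.ofReal (rho d r0 (l + 1)) *
        (Hh + ∑ n ∈ Finset.Ico l i, V n) ≤
      ENNReal.ofReal ((4 / 3) * rho d r0 (i + 1)) * Hh +
        ∑ n ∈ Finset.range i, ENNReal.ofReal ((4 / 3) * rho d r0 (n + 1)) * V n := by
  have hR : ∀ n, ∑ l ∈ Finset.range (n + 1), ENNReal.ofReal (rho d r0 (l + 1)) ≤
      ENNReal.ofReal ((4 / 3) * rho d r0 (n + 1)) := by
    intro n
    rw [← ENNReal.ofReal_sum_of_nonneg (fun l _ => (rho_pos d hr0 (l + 1)).le)]
    exact ENNReal.ofReal_le_ofReal (sum_rho_le d hr0 n)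
  simp_rw [mul_add]
  rw [Finset.sum_add_distrib, ← Finset.sum_mul]
  refine add_le_add (by gcongr; exact hR i) ?_
  simp_rw [Finset.mul_sum]
  have hswap : ∑ l ∈ Finset.range (i + 1), ∑ n ∈ Finset.Ico l i,
        ENNReal.ofReal (rho d r0 (l + 1)) * V n =
      ∑ n ∈ Finset.range i, ∑ l ∈ Finset.range (n + 1),
        ENNReal.ofReal (rho d r0 (l + 1)) * V n := by
    refine Finset.sum_comm' ?_
    intro l n
    simp only [Finset.mem_range, Finset.mem_Ico]
    omega
  rw [hswap]
  refine Finset.sum_le_sum fun n _ => ?_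
  rw [← Finset.sum_mul]
  gcongr; exact hR n

/-- Step C: the gain absorbs the gradient term. -/
theorem gain_absorb (H : Std f r0) (b : BallData d) {s : ℝ} (hs : s ∈ Icc (1 : ℝ) 4) (i : ℕ) :
    ENNReal.ofReal ((4 / 3) * rho d r0 (i + 1)) * ∫⁻ w in CC r0 b s i, hE f r0 i w ≤
      ENNReal.ofReal (1 / (16 * 4 ^ d)) * GT f r0 b i := by
  have hr0 := H.hr0
  have hX := Xs_pos hr0 i
  have hstep : ENNReal.ofReal (Xs r0 i / 1792) * ∫⁻ w in CC r0 b s i, hE f r0 i w ≤ GT f r0 b i := by
    have hmeas : Measurable (hE f r0 i) :=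
      ENNReal.measurable_ofReal.comp (hl_cont H i).measurable
    rw [← lintegral_const_mul _ hmeas]
    unfold GT
    calc ∫⁻ w in CC r0 b s i, ENNReal.ofReal (Xs r0 i / 1792) * hE f r0 i w
        ≤ ∫⁻ w in CC r0 b s i, ENNReal.ofReal (b.tau w) * Theta r0 b i w * hE f r0 i w := by
          refine setLIntegral_mono' (CC_meas b s i) fun w hw => ?_
          gcongr; exact Theta_ge hr0 b i hs hw.1 hw.2.1 hw.2.2
      _ ≤ _ := setLIntegral_le_lintegral _ _
  have hconst : ENNReal.ofReal ((4 / 3) * rho d r0 (i + 1)) ≤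
      ENNReal.ofReal (1 / (16 * 4 ^ d)) * ENNReal.ofReal (Xs r0 i / 1792) := by
    rw [← ENNReal.ofReal_mul (by positivity)]
    refine ENNReal.ofReal_le_ofReal ?_
    have hrho : rho d r0 (i + 1) = 4 * Xs r0 i / 4 ^ (d + 9) := by
      unfold rho; rw [Xs_succ]
    rw [hrho, pow_add]
    have h4 : (0 : ℝ) < 4 ^ d := by positivity
    have : (4 : ℝ) ^ 9 = 262144 := by norm_num
    rw [this]
    rw [show (4 / 3) * (4 * Xs r0 i / (4 ^ d * 262144)) = (Xs r0 i / 4 ^ d) * (16 / (3 * 262144)) by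
        field_simp; norm_num, show 1 / (16 * (4 : ℝ) ^ d) * (Xs r0 i / 1792) = (Xs r0 i / 4 ^ d) * (1 / 28672) by
        field_simp; norm_num]
    have h5 : 0 < Xs r0 i / 4 ^ d := by positivity
    nlinarith
  calc ENNReal.ofReal ((4 / 3) * rho d r0 (i + 1)) * ∫⁻ w in CC r0 b s i, hE f r0 i w
      ≤ (ENNReal.ofReal (1 / (16 * 4 ^ d)) * ENNReal.ofReal (Xs r0 i / 1792)) *
          ∫⁻ w in CC r0 b s i, hE f r0 i w := by gcongr
    _ = ENNReal.ofReal (1 / (16 * 4 ^ d)) *
          (ENNReal.ofReal (Xs r0 i / 1792) * ∫⁻ w in CC r0 b s i, hE f r0 i w) := by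
        rw [mul_assoc]
    _ ≤ _ := by gcongr

/-- Overlap: the sets `C'_i` cover each point at most twice. -/
theorem overlap (hr0 : 0 < r0) (b : BallData d) {s : ℝ} (hs : s ∈ Icc (1 : ℝ) 4)
    (I : Finset ℕ) {g : E d → ℝ≥0∞} (hg : Measurable g) :
    ∑ i ∈ I, ∫⁻ w in CC r0 b s i, g w ≤ 2 * ∫⁻ w in b.U, g w := by
  classical
  have h1 : ∑ i ∈ I, ∫⁻ w in CC r0 b s i, g w =
      ∫⁻ w, ∑ i ∈ I, indicator (CC r0 b s i) g w := by
    rw [lintegral_finsetSum _ (fun i _ => hg.indicator (CC_meas b s i))]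
    exact Finset.sum_congr rfl fun i _ => (lintegral_indicator (CC_meas b s i) g).symm
  rw [h1]
  have h2 : ∀ w, ∑ i ∈ I, indicator (CC r0 b s i) g w ≤ indicator b.U (fun w => 2 * g w) w := by
    intro w
    by_cases hw : w ∈ b.U
    · rw [indicator_of_mem hw]
      have hsum : ∑ i ∈ I, indicator (CC r0 b s i) g w =
          ∑ i ∈ I with w ∈ CC r0 b s i, g w := by
        rw [Finset.sum_filter]
        exact Finset.sum_congr rfl fun i _ => by
          by_cases hi : w ∈ CC r0 b s i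
          · simp [hi]
          · simp [hi]
      rw [hsum, Finset.sum_const, nsmul_eq_mul]
      have hcard : (I.filter fun i => w ∈ CC r0 b s i).card ≤ 2 := by
        by_contra hcon
        rw [not_le] at hcon
        obtain ⟨a, ha, c, hc, e, he, hac, hae, hce⟩ := Finset.two_lt_card.1 hcon
        simp only [Finset.mem_filter] at ha hc he
        -- three distinct levels: the smallest and the largest differ by at least two
        have key : ∀ x y : ℕ, x + 2 ≤ y → w ∈ CC r0 b s x → w ∈ CC r0 b s y → False := by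
          intro x y hxy hx hy
          have h3 : Xs r0 (x + 2) ≤ Xs r0 y := Xs_mono hr0 hxy
          have h4 : Xs r0 (x + 2) = 16 * Xs r0 x := by
            rw [Xs_succ, Xs_succ]; ring
          have h5 := Xs_pos hr0 x
          have h6 := hx.2.2
          have h7 := hy.2.1
          nlinarith
        have ha' := ha.2
        have hc' := hc.2
        have he' := he.2
        rcases lt_trichotomy a c with h1 | h1 | h1
        · rcases lt_trichotomy c e with h2 | h2 | h2
          · exact key a e (by omega) ha' he'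
          · exact hce h2
          · rcases lt_trichotomy a e with h3 | h3 | h3
            · exact key a c (by omega) ha' hc'
            · exact hae h3
            · exact key e c (by omega) he' hc'
        · exact hac h1
        · rcases lt_trichotomy a e with h2 | h2 | h2
          · exact key c e (by omega) hc' he'
          · exact hae h2
          · rcases lt_trichotomy c e with h3 | h3 | h3
            · exact key c a (by omega) hc' ha'
            · exact hce h3
            · exact key e a (by omega) he' ha'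
      have : ((I.filter fun i => w ∈ CC r0 b s i).card : ℝ≥0∞) ≤ 2 := by
        exact_mod_cast hcard
      gcongr
    · have hz : ∀ i ∈ I, indicator (CC r0 b s i) g w = 0 := fun i _ =>
        indicator_of_notMem (fun hi => hw (CC_sub_U b hs i hi)) g
      rw [Finset.sum_eq_zero hz]
      exact zero_le
  calc ∫⁻ w, ∑ i ∈ I, indicator (CC r0 b s i) g w
      ≤ ∫⁻ w, indicator b.U (fun w => 2 * g w) w := lintegral_mono h2
    _ = ∫⁻ w in b.U, 2 * g w := lintegral_indicator b.isOpen_U.measurableSet _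
    _ = 2 * ∫⁻ w in b.U, g w := lintegral_const_mul _ hg

end BitsAux

open BitsAux in
/-- The bits are absorbed by half of the gain, up to ladder defects on `U`. -/
theorem bits_bound (H : Std f r0) (b : BallData d) {j : ℕ} (hj : b.r < rj r0 (j + 1))
    {s : ℝ} (hs : s ∈ Icc (1 : ℝ) 4) :
    ∑ i ∈ Finset.range (j + 1), BIT f r0 b s i ≤
      ENNReal.ofReal (1 / (16 * 4 ^ d)) * ∑ i ∈ Finset.range (j + 1), GT f r0 b i +
      ENNReal.ofReal (8 / 3) * ∑ l ∈ Finset.range j,
        ENNReal.ofReal (rho d r0 (l + 1)) * ∫⁻ w in b.U, vE f r0 l w := by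
  have hr0 := H.hr0
  have hs0 : (0 : ℝ) < s := by linarith [hs.1]
  -- measurability of the integrands
  have hmeasT : ∀ i, Measurable fun w : E d =>
      ENNReal.ofReal (thl r0 i (b.xi s w)) * ENNReal.ofReal |f w - Fl f r0 i w| := by
    intro i
    have h1 := (thl_cont hr0 i).comp (xi_continuous b s)
    have h2 := H.cd.continuous
    have h3 := (Fl_contDiff H i).continuous
    exact (ENNReal.measurable_ofReal.comp h1.measurable).mul
      (ENNReal.measurable_ofReal.comp (h2.sub h3).abs.measurable)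
  have hmeasD : ∀ i, Measurable fun w : E d => ∑ l ∈ Finset.range (i + 1),
      ENNReal.ofReal |Fl f r0 l w - Fl f r0 (l + 1) w| := by
    intro i
    refine Finset.measurable_sum _ fun l _ => ?_
    have h1 := (Fl_contDiff H l).continuous
    have h2 := (Fl_contDiff H (l + 1)).continuous
    exact ENNReal.measurable_ofReal.comp ((h1.sub h2).abs.measurable)
  -- step 1 : the pointwise reduction
  have hstep1 : ∑ i ∈ Finset.range (j + 1), BIT f r0 b s i ≤
      ∑ i ∈ Finset.range j, ∫⁻ w in AA r0 b s i, ∑ l ∈ Finset.range (i + 1),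
        ENNReal.ofReal |Fl f r0 l w - Fl f r0 (l + 1) w| := by
    unfold BIT
    rw [← lintegral_finsetSum _ (fun i _ => hmeasT i)]
    calc ∫⁻ w in b.Bt s, ∑ i ∈ Finset.range (j + 1),
          ENNReal.ofReal (thl r0 i (b.xi s w)) * ENNReal.ofReal |f w - Fl f r0 i w|
        ≤ ∫⁻ w in b.Bt s, ∑ i ∈ Finset.range j, indicator (AA r0 b s i)
            (fun w => ∑ l ∈ Finset.range (i + 1),
              ENNReal.ofReal |Fl f r0 l w - Fl f r0 (l + 1) w|) w :=
          lintegral_mono fun w => ptwise H b hj hs0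
      _ ≤ ∫⁻ w, ∑ i ∈ Finset.range j, indicator (AA r0 b s i)
            (fun w => ∑ l ∈ Finset.range (i + 1),
              ENNReal.ofReal |Fl f r0 l w - Fl f r0 (l + 1) w|) w :=
          setLIntegral_le_lintegral _ _
      _ = _ := by
          rw [lintegral_finsetSum _ (fun i _ => (hmeasD i).indicator (AA_meas b s i))]
          exact Finset.sum_congr rfl fun i _ => lintegral_indicator (AA_meas b s i) _
  -- steps 2 and 3 : bound for one bit
  have hstep2 : ∀ i, ∫⁻ w in AA r0 b s i, ∑ l ∈ Finset.range (i + 1),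
        ENNReal.ofReal |Fl f r0 l w - Fl f r0 (l + 1) w| ≤
      ENNReal.ofReal (1 / (16 * 4 ^ d)) * GT f r0 b i +
        ∑ n ∈ Finset.range i, ENNReal.ofReal ((4 / 3) * rho d r0 (n + 1)) *
          ∫⁻ w in CC r0 b s i, vE f r0 n w := by
    intro i
    refine (one_bit H b hs i).trans ((reorganise hr0 i _ _).trans ?_)
    exact add_le_add (gain_absorb H b hs i) le_rfl
  -- step 4 : summing over the levels
  have hmeasV : ∀ n, Measurable (vE f r0 n) := fun n =>
    ENNReal.measurable_ofReal.comp (vl_cont H n).measurable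
  have hstep3 : ∑ i ∈ Finset.range j, ∑ n ∈ Finset.range i,
        ENNReal.ofReal ((4 / 3) * rho d r0 (n + 1)) * ∫⁻ w in CC r0 b s i, vE f r0 n w ≤
      ENNReal.ofReal (8 / 3) * ∑ l ∈ Finset.range j,
        ENNReal.ofReal (rho d r0 (l + 1)) * ∫⁻ w in b.U, vE f r0 l w := by
    have hswap : ∑ i ∈ Finset.range j, ∑ n ∈ Finset.range i,
          ENNReal.ofReal ((4 / 3) * rho d r0 (n + 1)) * ∫⁻ w in CC r0 b s i, vE f r0 n w =
        ∑ n ∈ Finset.range j, ∑ i ∈ Finset.Ioo n j,
          ENNReal.ofReal ((4 / 3) * rho d r0 (n + 1)) * ∫⁻ w in CC r0 b s i, vE f r0 n w := by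
      refine Finset.sum_comm' ?_
      intro i n
      simp only [Finset.mem_range, Finset.mem_Ioo]
      omega
    rw [hswap, Finset.mul_sum]
    refine Finset.sum_le_sum fun n _ => ?_
    rw [← Finset.mul_sum]
    have hov := overlap hr0 b hs (Finset.Ioo n j) (hmeasV n)
    have hR := rho_pos d hr0 (n + 1)
    calc ENNReal.ofReal ((4 / 3) * rho d r0 (n + 1)) *
          ∑ i ∈ Finset.Ioo n j, ∫⁻ w in CC r0 b s i, vE f r0 n w
        ≤ ENNReal.ofReal ((4 / 3) * rho d r0 (n + 1)) * (2 * ∫⁻ w in b.U, vE f r0 n w) := by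
          gcongr
      _ = ENNReal.ofReal (8 / 3) * (ENNReal.ofReal (rho d r0 (n + 1)) *
            ∫⁻ w in b.U, vE f r0 n w) := by
          rw [← mul_assoc, ← mul_assoc]
          congr 1
          rw [← ENNReal.ofReal_mul (by norm_num)]
          rw [show (2 : ℝ≥0∞) = ENNReal.ofReal 2 by simp]
          rw [← ENNReal.ofReal_mul (by positivity)]
          congr 1
          ring
  calc ∑ i ∈ Finset.range (j + 1), BIT f r0 b s i
      ≤ ∑ i ∈ Finset.range j, ∫⁻ w in AA r0 b s i, ∑ l ∈ Finset.range (i + 1),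
        ENNReal.ofReal |Fl f r0 l w - Fl f r0 (l + 1) w| := hstep1
    _ ≤ ∑ i ∈ Finset.range j, (ENNReal.ofReal (1 / (16 * 4 ^ d)) * GT f r0 b i +
        ∑ n ∈ Finset.range i, ENNReal.ofReal ((4 / 3) * rho d r0 (n + 1)) *
          ∫⁻ w in CC r0 b s i, vE f r0 n w) := Finset.sum_le_sum fun i _ => hstep2 i
    _ = ENNReal.ofReal (1 / (16 * 4 ^ d)) * ∑ i ∈ Finset.range j, GT f r0 b i +
        ∑ i ∈ Finset.range j, ∑ n ∈ Finset.range i,
          ENNReal.ofReal ((4 / 3) * rho d r0 (n + 1)) *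
            ∫⁻ w in CC r0 b s i, vE f r0 n w := by
        rw [Finset.sum_add_distrib, Finset.mul_sum]
    _ ≤ _ := by
        refine add_le_add ?_ hstep3
        gcongr
        exact Nat.le_succ j

theorem GT_lt_top (H : Std f r0) (b : BallData d) (i : ℕ) : GT f r0 b i < ⊤ := by
  have hr0 := H.hr0
  set M : ℝ := b.tau b.y + 8 * b.r with hM
  have hbound : ∀ w, ENNReal.ofReal (b.tau w) * Theta r0 b i w * hE f r0 i w ≤
      (ENNReal.ofReal M * 3) * hE f r0 i w := by
    intro w
    by_cases hw : w ∈ b.U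
    · have hw8 : w ∈ ball b.y (8 * b.r) := b.U_sub hw
      have hτ : b.tau w ≤ M := by
        have h1 := b.tau_lip b.y w
        have h2 : ‖w - b.y‖ < 8 * b.r := by
          simpa [dist_eq_norm] using hw8
        have h3 := (abs_le.1 h1).2
        rw [hM]
        linarith
      gcongr
      exact Theta_le_three hr0 b i w
    · rw [Theta_zero_of_not_mem b i hw]
      simp
  unfold GT
  refine lt_of_le_of_lt (lintegral_mono hbound) ?_
  have hne : ENNReal.ofReal M * 3 ≠ ⊤ := ENNReal.mul_ne_top ENNReal.ofReal_ne_top (by norm_num)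
  rw [lintegral_const_mul' _ _ hne]
  exact ENNReal.mul_lt_top hne.lt_top (hE_lintegral_lt_top H i)

end ValeP137
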