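import Vale.Agent.Lib.P137.MtildeDef

/-!
P137: all definitions for the variation bound of the uncentered ball maximal function.
Blueprint: notes/P137_blueprint.md. Do not change this file without telling helper16.
-/

open MeasureTheory Metric Set Filter Topology
open scoped ENNReal RealInnerProductSpace

noncomputable section

namespace ValeP137

/-- The Euclidean space of dimension `d`. -/
abbrev E (d : ℕ) := EuclideanSpace ℝ (Fin d)

variable {d : ℕ}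

/-- `Aop s g x` is the mean of `g` over the ball of radius `s` around `x`. -/
def Aop {F : Type*} [NormedAddCommGroup F] [NormedSpace ℝ F] (s : ℝ) (g : E d → F) (x : E d) : F :=
  ⨍ z in ball (0 : E d) s, g (x + z)

/-- Scales `r_j = r_0 4^j`. -/
def rj (r0 : ℝ) (j : ℕ) : ℝ := r0 * 4 ^ j

/-- Scales `X_i = 16 r_0 4^i`. -/
def Xs (r0 : ℝ) (i : ℕ) : ℝ := 16 * r0 * 4 ^ i

/-- Ladder radii `rho_i = X_i / 4^m`, with `m = d + 9`. -/
def rho (d : ℕ) (r0 : ℝ) (i : ℕ) : ℝ := Xs r0 i / 4 ^ (d + 9)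

/-- The ladder `F_0 = f`, `F_{i+1} = A_{rho_{i+1}} F_i`. -/
def Fl (f : E d → ℝ) (r0 : ℝ) : ℕ → E d → ℝ
  | 0 => f
  | i + 1 => Aop (rho d r0 (i + 1)) (Fl f r0 i)

/-- The gradients of the ladder: `G_0 = ∇ f`, `G_{i+1} = A_{rho_{i+1}} G_i`. -/
def Gl (f : E d → ℝ) (r0 : ℝ) : ℕ → E d → E d
  | 0 => gradient f
  | i + 1 => Aop (rho d r0 (i + 1)) (Gl f r0 i)

/-- `h_i = |∇ F_i|`. -/
def hl (f : E d → ℝ) (r0 : ℝ) (i : ℕ) (x : E d) : ℝ := ‖Gl f r0 i x‖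

/-- `vl i` is `v_{i+1} = A_{rho_{i+1}} h_i - h_{i+1}` of the blueprint (index shifted by one). -/
def vl (f : E d → ℝ) (r0 : ℝ) (i : ℕ) (x : E d) : ℝ :=
  Aop (rho d r0 (i + 1)) (hl f r0 i) x - hl f r0 (i + 1) x

/-- `D^e_i = h_i - ⟨∇ F_i, e⟩`. -/
def De (f : E d → ℝ) (r0 : ℝ) (e : E d) (i : ℕ) (x : E d) : ℝ :=
  hl f r0 i x - inner ℝ (Gl f r0 i x) e

/-- `h_i` as extended nonnegative function. -/
def hE (f : E d → ℝ) (r0 : ℝ) (i : ℕ) (x : E d) : ℝ≥0∞ := ENNReal.ofReal (hl f r0 i x)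

/-- `v_{i+1}` as extended nonnegative function. -/
def vE (f : E d → ℝ) (r0 : ℝ) (i : ℕ) (x : E d) : ℝ≥0∞ := ENNReal.ofReal (vl f r0 i x)

/-- `D^e_i` as extended nonnegative function. -/
def DE (f : E d → ℝ) (r0 : ℝ) (e : E d) (i : ℕ) (x : E d) : ℝ≥0∞ :=
  ENNReal.ofReal (De f r0 e i x)

/-- Truncated uncentered maximal function: the supremum of the means of `f` over all open balls
of radius at least `ρ` containing `y`. -/
def aM (f : E d → ℝ) (ρ : ℝ) (y : E d) : ℝ :=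
  sSup {A : ℝ | ∃ (c : E d) (r : ℝ), ρ ≤ r ∧ y ∈ ball c r ∧ A = ⨍ x in ball c r, f x}

/-- Data of the main construction: a ball `ball c r` containing `y`, and a unit vector `e`. -/
structure BallData (d : ℕ) where
  y : E d
  c : E d
  e : E d
  r : ℝ
  he : ‖e‖ = 1
  hr : 0 < r
  hy : y ∈ ball c r

namespace BallData

variable (b : BallData d)

/-- `d' = (⟨y - c, e⟩ + r') / 4`. -/
def dl : ℝ := (inner ℝ (b.y - b.c) b.e + b.r) / 4

/-- `L = r' + d'`. -/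
def L : ℝ := b.r + b.dl

/-- `Eps = L^2 - r'^2`. -/
def Eps : ℝ := b.L ^ 2 - b.r ^ 2

/-- The apex `p = c - L e`. -/
def p : E d := b.c - b.L • b.e

/-- The centers `c_t = p + t L e`. -/
def ct (t : ℝ) : E d := b.p + (t * b.L) • b.e

/-- The balls `B_t = ball c_t (t r')`. -/
def Bt (t : ℝ) : Set (E d) := ball (b.ct t) (t * b.r)

/-- The dilations `w_t v = p + t (v - p)` mapping `B_1` to `B_t`. -/
def wt (t : ℝ) (v : E d) : E d := b.p + t • (v - b.p)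

/-- `tau w = ⟨w - p, e⟩`. -/
def tau (w : E d) : ℝ := inner ℝ (w - b.p) b.e

/-- `q_t w = (t r')^2 - |w - c_t|^2`. -/
def q (t : ℝ) (w : E d) : ℝ := (t * b.r) ^ 2 - ‖w - b.ct t‖ ^ 2

/-- `xi_t w = q_t w / (2 t^2 r')`. -/
def xi (t : ℝ) (w : E d) : ℝ := b.q t w / (2 * t ^ 2 * b.r)

/-- The union of the balls `B_t`, `1 ≤ t ≤ 4`. -/
def U : Set (E d) := ⋃ t ∈ Icc (1 : ℝ) 4, b.Bt t

end BallData

/-- The cut-off `Y x = max 0 (min 1 (3 - x))`. -/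
def Yc (x : ℝ) : ℝ := max 0 (min 1 (3 - x))

/-- The partition of unity `th_0 x = Y (x / X_0)`, `th_i x = Y (x / X_i) - Y (x / X_{i-1})`. -/
def thl (r0 : ℝ) : ℕ → ℝ → ℝ
  | 0, x => Yc (x / Xs r0 0)
  | i + 1, x => Yc (x / Xs r0 (i + 1)) - Yc (x / Xs r0 i)

/-- The weight `1_{B_t}(w) th_i(xi_t w)`. -/
def thE (r0 : ℝ) (b : BallData d) (i : ℕ) (t : ℝ) (w : E d) : ℝ≥0∞ :=
  indicator (b.Bt t) (fun w => ENNReal.ofReal (thl r0 i (b.xi t w))) w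

/-- `Theta_i w = ∫_1^4 1_{B_t}(w) th_i(xi_t w) dt`. -/
def Theta (r0 : ℝ) (b : BallData d) (i : ℕ) (w : E d) : ℝ≥0∞ :=
  ∫⁻ t in Icc (1 : ℝ) 4, thE r0 b i t w

/-- `beta x = min 4 (x^(-1/2))`, written so that `beta x = 4` for all `x ≤ 1/16`. -/
def beta (x : ℝ) : ℝ := (√(max x (1 / 16)))⁻¹

/-- The potential `a_0 = 0`, `a_l w = 200 beta (tau w / X_l) 1{dist(w, U) < (4/3) rho_l}`. -/
def apot (r0 : ℝ) (b : BallData d) : ℕ → E d → ℝ≥0∞
  | 0, _ => 0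
  | l + 1, w => indicator (thickening ((4 / 3) * rho d r0 (l + 1)) b.U)
      (fun w => ENNReal.ofReal (200 * beta (b.tau w / Xs r0 (l + 1)))) w

/-- `kmin a z = min 1 (a / |z|)`, written as `a / max a |z|` to avoid a division by zero. -/
def kmin (a : ℝ) (z : E d) : ℝ := a / max a ‖z‖

/-- `bK r0 l j = 35 √(r_j X_{l+1}) = 140 r_0 2^(j + l + 1)`. -/
def bK (r0 : ℝ) (l j : ℕ) : ℝ := 140 * r0 * 2 ^ (j + l + 1)

/-- The kernel `min (1, bK / |z|) 1{|z| ≤ 64 r_j}`. -/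
def kerE (r0 : ℝ) (l j : ℕ) (z : E d) : ℝ≥0∞ :=
  indicator (closedBall (0 : E d) (64 * rj r0 j)) (fun z => ENNReal.ofReal (kmin (bK r0 l j) z)) z

/-- The volume of the unit ball, as a real number. -/
def omega (d : ℕ) : ℝ := (volume (ball (0 : E d) 1)).toReal

/-- Standing hypotheses: `f` is a nonnegative `C^1` function with compact support. -/
structure Std (f : E d → ℝ) (r0 : ℝ) : Prop where
  hd : 1 ≤ d
  cd : ContDiff ℝ 1 f
  cs : HasCompactSupport f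
  nn : ∀ x, 0 ≤ f x
  hr0 : 0 < r0

/-- Gain term `∫ tau Theta_i h_i`. -/
def GT (f : E d → ℝ) (r0 : ℝ) (b : BallData d) (i : ℕ) : ℝ≥0∞ :=
  ∫⁻ w, ENNReal.ofReal (b.tau w) * Theta r0 b i w * hE f r0 i w

/-- Cost term `∫ Theta_i D^e_i`. -/
def CT (f : E d → ℝ) (r0 : ℝ) (b : BallData d) (i : ℕ) : ℝ≥0∞ :=
  ∫⁻ w, Theta r0 b i w * DE f r0 b.e i w

/-- Bit term `∫_{B_s} th_i(xi_s) |f - F_i|`. -/
def BIT (f : E d → ℝ) (r0 : ℝ) (b : BallData d) (s : ℝ) (i : ℕ) : ℝ≥0∞ :=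
  ∫⁻ w in b.Bt s, ENNReal.ofReal (thl r0 i (b.xi s w)) * ENNReal.ofReal |f w - Fl f r0 i w|

end ValeP137
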