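import Vale.Agent.Lib.P137.MaxBasic
import Vale.Agent.Lib.P137A.A3

/-! P137 module PartA (from `iota_j` to difference quotients): instance of the abstract
`Vale.Agent.Lib.P137A.partA` (shell lemma by homothety, chain, layer cake). -/

open MeasureTheory Metric Set Filter Topology
open scoped ENNReal

noncomputable section

namespace ValeP137

variable {d : ℕ} {f : E d → ℝ} {r0 : ℝ}

/-- The means over large balls become small, uniformly. -/
theorem exists_rj_aM_le (hd : 1 ≤ d) (hf : Continuous f) (hfc : HasCompactSupport f)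
    (hf0 : ∀ x, 0 ≤ f x) (hr0 : 0 < r0) {l : ℝ} (hl : 0 < l) :
    ∃ J, ∀ x, aM f (rj r0 J) x ≤ l := by
  set I := ∫ x, f x with hI
  set ω := (volume (ball (0 : E d) 1)).toReal with hω
  have hω0 : 0 < ω := by
    apply ENNReal.toReal_pos
    · exact (measure_ball_pos volume _ one_pos).ne'
    · exact measure_ball_lt_top.ne
  -- choose a large scale
  have htend : Tendsto (fun J : ℕ => r0 * (4 : ℝ) ^ J) atTop atTop :=
    (tendsto_pow_atTop_atTop_of_one_lt (by norm_num : (1 : ℝ) < 4)).const_mul_atTop hr0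
  obtain ⟨J, hJ⟩ := (htend.eventually (eventually_ge_atTop (max 1 (I / (ω * l))))).exists
  refine ⟨J, fun x => ?_⟩
  have hρ : 0 < rj r0 J := rj_pos hr0 J
  have hJ' : max 1 (I / (ω * l)) ≤ rj r0 J := hJ
  have h1 : 1 ≤ rj r0 J := le_trans (le_max_left _ _) hJ'
  have h2 : I / (ω * l) ≤ rj r0 J := le_trans (le_max_right _ _) hJ'
  refine (aM_le_large hf hfc hf0 hρ x).trans ?_
  have hvol : (volume (ball (0 : E d) (rj r0 J))).toReal = (rj r0 J) ^ d * ω := by
    rw [Measure.addHaar_ball_of_pos volume (0 : E d) hρ, finrank_euclideanSpace_fin,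
      ENNReal.toReal_mul, ENNReal.toReal_ofReal (by positivity)]
  rw [hvol]
  have h3 : rj r0 J ≤ (rj r0 J) ^ d := by
    calc rj r0 J = (rj r0 J) ^ 1 := (pow_one _).symm
      _ ≤ (rj r0 J) ^ d := pow_le_pow_right₀ h1 hd
  have hpos : 0 < (rj r0 J) ^ d * ω := by positivity
  rw [div_le_iff₀ hpos]
  rw [div_le_iff₀ (by positivity)] at h2
  have h4 : 0 ≤ ω * l := by positivity
  calc I ≤ rj r0 J * (ω * l) := h2
    _ ≤ (rj r0 J) ^ d * (ω * l) := by gcongr
    _ = l * ((rj r0 J) ^ d * ω) := by ring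

/-- The level data of the truncated maximal functions. -/
theorem levelData_aM (hd : 1 ≤ d) (hf : Continuous f) (hfc : HasCompactSupport f)
    (hf0 : ∀ x, 0 ≤ f x) (hr0 : 0 < r0) :
    Vale.Agent.Lib.P137A.LevelData (fun j => aM f (rj r0 j)) (rj r0) where
  meas j := aM_measurable hf hfc (rj_pos hr0 j)
  nonneg j x := aM_nonneg hf hfc hf0 (rj_pos hr0 j) x
  rpos j := rj_pos hr0 j
  isOpen j l _ := isOpen_aM_gt hf hfc (rj_pos hr0 j) l
  balls j l _ := by
    refine ⟨{p : E d × ℝ | rj r0 j ≤ p.2 ∧ l < ⨍ x in ball p.1 p.2, f x}, fun p hp => hp.1, ?_⟩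
    have hle : rj r0 j ≤ rj r0 (j + 1) := by
      rw [rj_succ]
      nlinarith [rj_pos hr0 j]
    ext y
    simp only [mem_setOf_eq, mem_union, mem_iUnion, exists_prop]
    constructor
    · intro hy
      right
      by_contra hno
      push Not at hno
      have : aM f (rj r0 j) y ≤ l := by
        apply aM_le (rj_pos hr0 j)
        intro c r hr hyc
        by_contra hlt
        exact hno (c, r) ⟨hr, not_le.1 hlt⟩ hyc
      linarith
    · rintro (hy | ⟨p, ⟨hp1, hp2⟩, hy⟩)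
      · exact lt_of_lt_of_le hy (aM_antitone hf hfc (rj_pos hr0 j) hle y)
      · exact lt_of_lt_of_le hp2 (le_aM hf hfc hp1 hy)
  top l hl := exists_rj_aM_le hd hf hfc hf0 hr0 hl

/-- RESULT of PART A of the blueprint (with the constants of `A1`). -/
theorem partA (hd : 1 ≤ d) (hf : Continuous f) (hfc : HasCompactSupport f) (hf0 : ∀ x, 0 ≤ f x)
    (hr0 : 0 < r0) (h : E d) :
    ∫⁻ x, ‖aM f r0 (x + h) - aM f r0 x‖ₑ ≤
      ENNReal.ofReal (16 * d ^ 2 * ‖h‖) *
        ∑' j, ENNReal.ofReal (rj r0 j)⁻¹ *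
          ∫⁻ y, ENNReal.ofReal (aM f (rj r0 j) y - aM f (rj r0 (j + 1)) y) := by
  have H := levelData_aM hd hf hfc hf0 hr0
  have hr : ∀ j, r0 ≤ rj r0 j := by
    intro j
    unfold rj
    have : (1 : ℝ) ≤ 4 ^ j := one_le_pow₀ (by norm_num)
    nlinarith
  have key := Vale.Agent.Lib.P137A.partA (volume : Measure (E d)) H hr0 hr h
  simp only [finrank_euclideanSpace_fin, rj, pow_zero, mul_one] at key
  have hnorm : ∀ x, ‖aM f r0 (x + h) - aM f r0 x‖ₑ = ENNReal.ofReal |aM f r0 (x + h) - aM f r0 x| :=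
    fun x => Real.enorm_eq_ofReal_abs _
  simp_rw [hnorm]
  refine key.trans ?_
  have hd' : (1 : ℝ) ≤ d := by exact_mod_cast hd
  have hconst : ENNReal.ofReal (8 * (d : ℝ) * ‖h‖) ≤ ENNReal.ofReal (16 * (d : ℝ) ^ 2 * ‖h‖) := by
    apply ENNReal.ofReal_le_ofReal
    have : 0 ≤ ‖h‖ := norm_nonneg h
    nlinarith [mul_nonneg (sub_nonneg.2 hd') this, mul_nonneg (mul_nonneg (sub_nonneg.2 hd') (sub_nonneg.2 hd')) this]
  simp only [rj, one_div]
  gcongr

end ValeP137
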