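import Vale.Agent.Lib.P137.Ball
import Vale.Agent.Lib.P137.PartA

/-! P137 module Final: the variation bound for `C^1_c` functions. -/

open MeasureTheory Metric Set Filter Topology
open scoped ENNReal

noncomputable section

namespace ValeP137

variable {d : ℕ} {f : E d → ℝ} {r0 : ℝ}

/-- Truncated maximal function, uniform in the truncation. -/
theorem aM_bound (H : Std f r0) (h : E d) :
    ∫⁻ x, ‖aM f r0 (x + h) - aM f r0 x‖ₑ ≤
      ENNReal.ofReal (16 * d ^ 2 * CB d * ‖h‖) * ∫⁻ w, ENNReal.ofReal ‖gradient f w‖ := by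
  have h1 := partA H.hd H.cd.continuous H.cs H.nn H.hr0 h
  have h2 := partB H
  have hG : ∀ w, hE f r0 0 w = ENNReal.ofReal ‖gradient f w‖ := fun w => rfl
  simp only [hG] at h2
  calc _ ≤ _ := h1
    _ ≤ ENNReal.ofReal (16 * d ^ 2 * ‖h‖) *
        (ENNReal.ofReal (CB d) * ∫⁻ w, ENNReal.ofReal ‖gradient f w‖) := by gcongr
    _ = _ := by
      rw [← mul_assoc, ← ENNReal.ofReal_mul (by positivity)]
      congr 2
      ring

/-- Fatou for difference quotients. -/
theorem fatou_diff {u : ℕ → E d → ℝ} {w : E d → ℝ} (hu : ∀ n, Measurable (u n))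
    (hlim : ∀ x, Tendsto (fun n => u n x) atTop (𝓝 (w x))) (h : E d) {B : ℝ≥0∞}
    (hB : ∀ n, ∫⁻ x, ‖u n (x + h) - u n x‖ₑ ≤ B) :
    ∫⁻ x, ‖w (x + h) - w x‖ₑ ≤ B := by
  have hpt : ∀ x, ‖w (x + h) - w x‖ₑ = liminf (fun n => ‖u n (x + h) - u n x‖ₑ) atTop := by
    intro x
    have h1 : Tendsto (fun n => ‖u n (x + h) - u n x‖ₑ) atTop (𝓝 ‖w (x + h) - w x‖ₑ) :=
      ((hlim (x + h)).sub (hlim x)).enorm
    exact h1.liminf_eq.symm
  simp_rw [hpt]
  have hmeas : ∀ n, Measurable fun x => ‖u n (x + h) - u n x‖ₑ := by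
    intro n
    exact (((hu n).comp (measurable_add_const h)).sub (hu n)).enorm
  calc _ ≤ liminf (fun n => ∫⁻ x, ‖u n (x + h) - u n x‖ₑ) atTop := lintegral_liminf_le hmeas
    _ ≤ B := by
      refine liminf_le_of_frequently_le' (Frequently.of_forall hB)

theorem Mtilde_bdd (hf : Continuous f) (hfc : HasCompactSupport f) (y : E d) :
    BddAbove {A : ℝ | ∃ (c : E d) (r : ℝ), 0 < r ∧ y ∈ ball c r ∧ A = ⨍ x in ball c r, |f x|} := by
  obtain ⟨K, hK⟩ := aM_bdd (f := fun x => |f x|) hf.abs hfc.abs 0 y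
  exact ⟨K, fun A ⟨c, r, hr, hy, hA⟩ => hK ⟨c, r, hr.le, hy, hA⟩⟩

theorem le_Mtilde (hf : Continuous f) (hfc : HasCompactSupport f) {c y : E d} {r : ℝ} (hr : 0 < r)
    (hy : y ∈ ball c r) : (⨍ x in ball c r, |f x|) ≤ Mtilde f y :=
  le_csSup (Mtilde_bdd hf hfc y) ⟨c, r, hr, hy, rfl⟩

theorem Mtilde_le {y : E d} {A : ℝ}
    (h : ∀ (c : E d) (r : ℝ), 0 < r → y ∈ ball c r → (⨍ x in ball c r, |f x|) ≤ A) :
    Mtilde f y ≤ A := by
  refine csSup_le ⟨_, y, 1, one_pos, mem_ball_self one_pos, rfl⟩ ?_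
  rintro _ ⟨c, r, hr, hy, rfl⟩
  exact h c r hr hy

/-- For nonnegative `f`, `aM f (1/(n+1))` converges to the maximal function. -/
theorem aM_tendsto_Mtilde (hf : Continuous f) (hfc : HasCompactSupport f) (hf0 : ∀ x, 0 ≤ f x)
    (y : E d) :
    Tendsto (fun n : ℕ => aM f (1 / ((n : ℝ) + 1)) y) atTop (𝓝 (Mtilde f y)) := by
  have habs : ∀ x, |f x| = f x := fun x => abs_of_nonneg (hf0 x)
  have hpos : ∀ n : ℕ, (0 : ℝ) < 1 / ((n : ℝ) + 1) := fun n => by positivity
  have hmono : Monotone fun n : ℕ => aM f (1 / ((n : ℝ) + 1)) y := by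
    intro n k hnk
    refine aM_antitone hf hfc (hpos k) ?_ y
    have : (n : ℝ) ≤ k := by exact_mod_cast hnk
    exact one_div_le_one_div_of_le (by positivity) (by linarith)
  have hle : ∀ n : ℕ, aM f (1 / ((n : ℝ) + 1)) y ≤ Mtilde f y := by
    intro n
    refine aM_le (hpos n) fun c r hr hy => ?_
    have h1 := le_Mtilde hf hfc (lt_of_lt_of_le (hpos n) hr) hy
    simpa [habs] using h1
  have hbdd : BddAbove (range fun n : ℕ => aM f (1 / ((n : ℝ) + 1)) y) :=
    ⟨Mtilde f y, by rintro _ ⟨n, rfl⟩; exact hle n⟩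
  have hsup : (⨆ n : ℕ, aM f (1 / ((n : ℝ) + 1)) y) = Mtilde f y := by
    refine le_antisymm (ciSup_le hle) ?_
    refine Mtilde_le fun c r hr hy => ?_
    obtain ⟨n, hn⟩ := exists_nat_one_div_lt hr
    have h1 := le_aM hf hfc hn.le hy
    have h2 : (⨍ x in ball c r, |f x|) = ⨍ x in ball c r, f x := by simp only [habs]
    rw [h2]
    exact h1.trans (le_ciSup hbdd n)
  rw [← hsup]
  exact tendsto_atTop_ciSup hmono hbdd

theorem Mtilde_measurable_of_nonneg (hf : Continuous f) (hfc : HasCompactSupport f)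
    (hf0 : ∀ x, 0 ≤ f x) : Measurable (Mtilde f : E d → ℝ) :=
  measurable_of_tendsto_metrizable (fun n : ℕ => aM_measurable hf hfc (by positivity))
    (tendsto_pi_nhds.2 (aM_tendsto_Mtilde hf hfc hf0))

/-- The bound for nonnegative `f`. -/
theorem Mtilde_bound_nonneg (hd : 1 ≤ d) (hf : ContDiff ℝ 1 f) (hfc : HasCompactSupport f)
    (hf0 : ∀ x, 0 ≤ f x) (h : E d) :
    ∫⁻ x, ‖Mtilde f (x + h) - Mtilde f x‖ₑ ≤
      ENNReal.ofReal (16 * d ^ 2 * CB d * ‖h‖) * ∫⁻ w, ENNReal.ofReal ‖gradient f w‖ := by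
  refine fatou_diff (u := fun n : ℕ => aM f (1 / ((n : ℝ) + 1)))
    (fun n => aM_measurable hf.continuous hfc (by positivity))
    (aM_tendsto_Mtilde hf.continuous hfc hf0) h (fun n => ?_)
  exact aM_bound (r0 := 1 / ((n : ℝ) + 1)) ⟨hd, hf, hfc, hf0, by positivity⟩ h

/-- The smooth approximation of `|f|`. -/
def gabs (f : E d → ℝ) (ε : ℝ) (x : E d) : ℝ := √(f x ^ 2 + ε ^ 2) - ε

theorem gabs_nonneg {ε : ℝ} (hε : 0 < ε) (x : E d) : 0 ≤ gabs f ε x := by
  unfold gabs
  have : ε ≤ √(f x ^ 2 + ε ^ 2) := Real.le_sqrt_of_sq_le (by nlinarith [sq_nonneg (f x)])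
  linarith

theorem gabs_le {ε : ℝ} (hε : 0 < ε) (x : E d) : gabs f ε x ≤ |f x| := by
  unfold gabs
  have : √(f x ^ 2 + ε ^ 2) ≤ |f x| + ε := by
    rw [Real.sqrt_le_left (by positivity)]
    nlinarith [abs_nonneg (f x), sq_abs (f x)]
  linarith

theorem abs_le_gabs {ε : ℝ} (hε : 0 < ε) (x : E d) : |f x| - ε ≤ gabs f ε x := by
  unfold gabs
  have : |f x| ≤ √(f x ^ 2 + ε ^ 2) :=
    Real.le_sqrt_of_sq_le (by nlinarith [sq_nonneg ε, sq_abs (f x)])
  linarith

theorem gabs_contDiff (hf : ContDiff ℝ 1 f) {ε : ℝ} (hε : 0 < ε) : ContDiff ℝ 1 (gabs f ε) := by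
  unfold gabs
  refine ContDiff.sub (ContDiff.sqrt ((hf.pow 2).add contDiff_const) fun x => ?_) contDiff_const
  positivity

theorem gabs_cs (hfc : HasCompactSupport f) {ε : ℝ} (hε : 0 < ε) : HasCompactSupport (gabs f ε) := by
  refine hfc.mono fun x hx hx0 => ?_
  apply hx
  have := gabs_le (f := f) hε x
  have h0 := gabs_nonneg (f := f) hε x
  have hfx : f x = 0 := hx0
  rw [hfx, abs_zero] at this
  linarith

theorem norm_gradient_eq (g : E d → ℝ) (x : E d) : ‖gradient g x‖ = ‖fderiv ℝ g x‖ := by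
  unfold gradient
  simp

theorem gabs_fderiv_le (hf : ContDiff ℝ 1 f) {ε : ℝ} (hε : 0 < ε) (x : E d) :
    ‖fderiv ℝ (gabs f ε) x‖ ≤ ‖fderiv ℝ f x‖ := by
  have hd : DifferentiableAt ℝ f x := hf.differentiable one_ne_zero x
  have hq : f x ^ 2 + ε ^ 2 ≠ 0 := by positivity
  have h1 : HasFDerivAt (fun y => f y ^ 2 + ε ^ 2) ((2 * f x ^ 1) • fderiv ℝ f x) x := by
    have := (hd.hasFDerivAt.pow 2).add_const (ε ^ 2)
    simpa using this
  have h2 := (h1.sqrt hq).sub_const ε
  have h3 : fderiv ℝ (gabs f ε) x = _ := h2.fderiv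
  rw [h3, norm_smul, norm_smul, ← mul_assoc]
  set s := √(f x ^ 2 + ε ^ 2) with hs
  have hspos : 0 < s := Real.sqrt_pos.mpr (by positivity)
  have hfs : |f x| ≤ s := Real.le_sqrt_of_sq_le (by nlinarith [sq_nonneg ε, sq_abs (f x)])
  have hc : ‖1 / (2 * s)‖ * ‖2 * f x ^ 1‖ ≤ 1 := by
    rw [Real.norm_eq_abs, Real.norm_eq_abs, abs_of_pos (by positivity), abs_mul, abs_two, pow_one,
      div_mul_eq_mul_div, one_mul, div_le_one (by positivity)]
    linarith
  exact mul_le_of_le_one_left (norm_nonneg _) hc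

theorem avg_mono {g k : E d → ℝ} (hg : Continuous g) (hk : Continuous k) (hgk : ∀ x, g x ≤ k x)
    (c : E d) {r : ℝ} (hr : 0 < r) : (⨍ x in ball c r, g x) ≤ ⨍ x in ball c r, k x := by
  have hb : IsCompact (closedBall c r) := isCompact_closedBall c r
  have hi : ∀ {u : E d → ℝ}, Continuous u → IntegrableOn u (ball c r) := fun hu =>
    (hu.continuousOn.integrableOn_compact hb).mono_set ball_subset_closedBall
  rw [setAverage_eq, setAverage_eq, smul_eq_mul, smul_eq_mul]
  refine mul_le_mul_of_nonneg_left ?_ (by positivity)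
  exact setIntegral_mono (hi hg) (hi hk) hgk

theorem avg_add_const {g : E d → ℝ} (hg : Continuous g) (ε : ℝ) (c : E d) {r : ℝ} (hr : 0 < r) :
    (⨍ x in ball c r, (g x + ε)) = (⨍ x in ball c r, g x) + ε := by
  have hb : IsCompact (closedBall c r) := isCompact_closedBall c r
  have hi : ∀ {u : E d → ℝ}, Continuous u → IntegrableOn u (ball c r) := fun hu =>
    (hu.continuousOn.integrableOn_compact hb).mono_set ball_subset_closedBall
  have hv : (volume (ball c r)).toReal ≠ 0 :=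
    (ENNReal.toReal_pos (measure_ball_pos volume _ hr).ne' measure_ball_lt_top.ne).ne'
  rw [setAverage_eq, setAverage_eq, smul_eq_mul, smul_eq_mul,
    integral_add (hi hg) (hi continuous_const), setIntegral_const, smul_eq_mul, mul_add,
    Measure.real]
  field_simp

/-- Convergence of the maximal functions of the approximations. -/
theorem Mtilde_gabs_tendsto (hf : Continuous f) (hfc : HasCompactSupport f) (y : E d) :
    Tendsto (fun n : ℕ => Mtilde (gabs f (1 / ((n : ℝ) + 1))) y) atTop (𝓝 (Mtilde f y)) := by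
  have hpos : ∀ n : ℕ, (0 : ℝ) < 1 / ((n : ℝ) + 1) := fun n => by positivity
  have hgc : ∀ {ε : ℝ}, 0 < ε → Continuous (gabs f ε) := by
    intro ε _
    unfold gabs
    exact ((hf.pow 2).add continuous_const).sqrt.sub continuous_const
  have hup : ∀ n : ℕ, Mtilde (gabs f (1 / ((n : ℝ) + 1))) y ≤ Mtilde f y := by
    intro n
    refine Mtilde_le fun c r hr hy => le_trans ?_ (le_Mtilde hf hfc hr hy)
    refine avg_mono (hgc (hpos n)).abs hf.abs (fun x => ?_) c hr
    rw [abs_of_nonneg (gabs_nonneg (hpos n) x)]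
    exact gabs_le (hpos n) x
  have hlo : ∀ n : ℕ, Mtilde f y - 1 / ((n : ℝ) + 1) ≤ Mtilde (gabs f (1 / ((n : ℝ) + 1))) y := by
    intro n
    rw [sub_le_iff_le_add]
    refine Mtilde_le fun c r hr hy => ?_
    have hgcs : HasCompactSupport (gabs f (1 / ((n : ℝ) + 1))) := gabs_cs hfc (hpos n)
    have h1 := le_Mtilde (hgc (hpos n)) hgcs hr hy
    have h2 := avg_add_const (hgc (hpos n)).abs (1 / ((n : ℝ) + 1)) c hr
    have h3 : (⨍ x in ball c r, |f x|) ≤
        ⨍ x in ball c r, (|gabs f (1 / ((n : ℝ) + 1)) x| + 1 / ((n : ℝ) + 1)) := by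
      refine avg_mono hf.abs ((hgc (hpos n)).abs.add continuous_const) (fun x => ?_) c hr
      show |f x| ≤ |gabs f (1 / ((n : ℝ) + 1)) x| + 1 / ((n : ℝ) + 1)
      have := abs_le_gabs (f := f) (hpos n) x
      have h4 := le_abs_self (gabs f (1 / ((n : ℝ) + 1)) x)
      linarith
    linarith
  refine tendsto_of_tendsto_of_tendsto_of_le_of_le ?_ tendsto_const_nhds hlo hup
  have h0 : Tendsto (fun n : ℕ => (1 : ℝ) / ((n : ℝ) + 1)) atTop (𝓝 0) :=
    tendsto_one_div_add_atTop_nhds_zero_nat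
  simpa using (tendsto_const_nhds (x := Mtilde f y)).sub h0

/-- The variation bound for all `C^1_c` functions. -/
theorem Mtilde_bound (hd : 1 ≤ d) (hf : ContDiff ℝ 1 f) (hfc : HasCompactSupport f) (h : E d) :
    ∫⁻ x, ‖Mtilde f (x + h) - Mtilde f x‖ₑ ≤
      ENNReal.ofReal (16 * d ^ 2 * CB d * ‖h‖) * ∫⁻ w, ENNReal.ofReal ‖fderiv ℝ f w‖ := by
  have hpos : ∀ n : ℕ, (0 : ℝ) < 1 / ((n : ℝ) + 1) := fun n => by positivity
  refine fatou_diff (u := fun n : ℕ => Mtilde (gabs f (1 / ((n : ℝ) + 1))))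
    (fun n => Mtilde_measurable_of_nonneg (gabs_contDiff hf (hpos n)).continuous
      (gabs_cs hfc (hpos n)) (gabs_nonneg (hpos n)))
    (Mtilde_gabs_tendsto hf.continuous hfc) h (fun n => ?_)
  refine (Mtilde_bound_nonneg hd (gabs_contDiff hf (hpos n)) (gabs_cs hfc (hpos n))
    (gabs_nonneg (hpos n)) h).trans ?_
  gcongr with w
  rw [norm_gradient_eq]
  exact gabs_fderiv_le hf (hpos n) w

theorem setAverage_translate (g : E d → ℝ) (c h : E d) (r : ℝ) :
    (⨍ x in ball (c + h) r, g x) = ⨍ x in ball c r, g (x + h) := by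
  have hpre : (fun x => x + h) ⁻¹' ball (c + h) r = ball c r := by
    ext x
    simp [mem_ball, dist_eq_norm]
  have hint : ∫ x in ball (c + h) r, g x = ∫ x in ball c r, g (x + h) := by
    have := (measurePreserving_add_right (volume : Measure (E d)) h).setIntegral_preimage_emb
      (measurableEmbedding_addRight h) g (ball (c + h) r)
    rw [hpre] at this
    exact this.symm
  have hvol : volume (ball (c + h) r) = volume (ball c r) := by
    have := (measurePreserving_add_right (volume : Measure (E d)) h).measure_preimage_emb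
      (measurableEmbedding_addRight h) (ball (c + h) r)
    rw [hpre] at this
    exact this.symm
  rw [setAverage_eq, setAverage_eq, hint, Measure.real, Measure.real, hvol]

/-- The maximal function of a Lipschitz function with compact support is Lipschitz. -/
theorem Mtilde_lipschitz (hf : ContDiff ℝ 1 f) (hfc : HasCompactSupport f) :
    ∃ K, LipschitzWith K (Mtilde f) := by
  obtain ⟨K, hK⟩ := hf.lipschitzWith_of_hasCompactSupport hfc (by norm_num)
  refine ⟨K, LipschitzWith.of_le_add_mul K fun x y => ?_⟩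
  refine Mtilde_le fun c r hr hx => ?_
  have hy : y ∈ ball (c + (y - x)) r := by
    simp only [mem_ball, dist_eq_norm] at hx ⊢
    convert hx using 2
    abel
  have h1 := le_Mtilde hf.continuous hfc hr hy
  rw [setAverage_translate] at h1
  have hdist : ∀ z, |f z| ≤ |f (z + (y - x))| + K * dist x y := by
    intro z
    have h2 := hK.dist_le_mul z (z + (y - x))
    have h3 : dist z (z + (y - x)) = dist x y := by
      rw [dist_eq_norm, dist_eq_norm, sub_add_cancel_left, norm_neg, norm_sub_rev]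
    rw [h3, Real.dist_eq] at h2
    have h4 := abs_sub_abs_le_abs_sub (f z) (f (z + (y - x)))
    linarith
  have hcont : Continuous fun z => |f (z + (y - x))| :=
    (hf.continuous.comp (continuous_id.add continuous_const)).abs
  have h5 := avg_mono hf.continuous.abs (hcont.add continuous_const) hdist c hr
  have h6 := avg_add_const hcont (K * dist x y) c hr
  simp only [Pi.add_apply] at h5
  rw [h6] at h5
  linarith

theorem Mtilde_continuous (hf : ContDiff ℝ 1 f) (hfc : HasCompactSupport f) :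
    Continuous (Mtilde f) := by
  obtain ⟨K, hK⟩ := Mtilde_lipschitz hf hfc
  exact hK.continuous

/-- The operator norm of a functional is at most the sum over the coordinate vectors. -/
theorem norm_le_sum_single (L : E d →L[ℝ] ℝ) :
    ‖L‖ ≤ ∑ i, ‖L (EuclideanSpace.single i 1)‖ := by
  refine L.opNorm_le_bound (Finset.sum_nonneg fun _ _ => norm_nonneg _) fun v => ?_
  have hv : v = ∑ i, (v i) • EuclideanSpace.single i (1 : ℝ) := by
    ext j
    simp [Finset.sum_apply, Pi.single_apply]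
  calc ‖L v‖ = ‖∑ i, (v i) * L (EuclideanSpace.single i 1)‖ := by
        conv_lhs => rw [hv, map_sum]
        simp
    _ ≤ ∑ i, ‖(v i) * L (EuclideanSpace.single i 1)‖ := norm_sum_le _ _
    _ ≤ ∑ i, ‖v‖ * ‖L (EuclideanSpace.single i 1)‖ := by
        refine Finset.sum_le_sum fun i _ => ?_
        rw [norm_mul]
        gcongr
        exact PiLp.norm_apply_le v i
    _ = _ := by rw [← Finset.mul_sum, mul_comm]

/-- Directional derivative bound. -/
theorem Mtilde_dir_bound (hd : 1 ≤ d) (hf : ContDiff ℝ 1 f) (hfc : HasCompactSupport f) (v : E d)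
    (hv : ‖v‖ = 1) :
    ∫⁻ x, ‖fderiv ℝ (Mtilde f) x v‖ₑ ≤
      ENNReal.ofReal (16 * d ^ 2 * CB d) * ∫⁻ w, ENNReal.ofReal ‖fderiv ℝ f w‖ := by
  obtain ⟨K, hK⟩ := Mtilde_lipschitz hf hfc
  set u := Mtilde f with hu
  have hucont : Continuous u := hK.continuous
  have hdiff : ∀ᵐ x, DifferentiableAt ℝ u x := hK.ae_differentiableAt
  set s : ℕ → ℝ := fun n => 1 / ((n : ℝ) + 1) with hs
  have hspos : ∀ n, 0 < s n := fun n => by simp only [hs]; positivity
  have hs0 : Tendsto s atTop (𝓝 0) := tendsto_one_div_add_atTop_nhds_zero_nat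
  -- the difference quotients
  set Q : ℕ → E d → ℝ≥0∞ := fun n x => ENNReal.ofReal (s n)⁻¹ * ‖u (x + s n • v) - u x‖ₑ with hQ
  have hlim : ∀ᵐ x, ‖fderiv ℝ u x v‖ₑ = liminf (fun n => Q n x) atTop := by
    filter_upwards [hdiff] with x hx
    have h1 : Tendsto (fun n => (s n)⁻¹ • (u (x + s n • v) - u x)) atTop (𝓝 (fderiv ℝ u x v)) := by
      have h2 := (hx.hasFDerivAt.hasLineDerivAt v).tendsto_slope_zero_right
      have h3 : Tendsto s atTop (𝓝[>] 0) :=
        tendsto_nhdsWithin_iff.mpr ⟨hs0, Eventually.of_forall hspos⟩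
      have h4 := h2.comp h3
      refine h4.congr fun n => ?_
      simp only [Function.comp, smul_eq_mul]
    have h5 : Tendsto (fun n => Q n x) atTop (𝓝 ‖fderiv ℝ u x v‖ₑ) := by
      refine (h1.enorm).congr fun n => ?_
      simp only [hQ]
      rw [enorm_smul, Real.enorm_eq_ofReal (by have := hspos n; positivity)]
    exact h5.liminf_eq.symm
  have hQm : ∀ n, Measurable (Q n) := by
    intro n
    have : Measurable fun x => u (x + s n • v) - u x :=
      (hucont.comp (continuous_id.add continuous_const)).measurable.sub hucont.measurable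
    exact this.enorm.const_mul _
  have hQb : ∀ n, ∫⁻ x, Q n x ≤
      ENNReal.ofReal (16 * d ^ 2 * CB d) * ∫⁻ w, ENNReal.ofReal ‖fderiv ℝ f w‖ := by
    intro n
    have hsn := hspos n
    have h1 := Mtilde_bound hd hf hfc (s n • v)
    rw [norm_smul, hv, mul_one, Real.norm_of_nonneg hsn.le] at h1
    simp only [hQ]
    rw [lintegral_const_mul _ (by
      have : Measurable fun x => u (x + s n • v) - u x :=
        (hucont.comp (continuous_id.add continuous_const)).measurable.sub hucont.measurable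
      exact this.enorm)]
    calc _ ≤ ENNReal.ofReal (s n)⁻¹ *
          (ENNReal.ofReal (16 * d ^ 2 * CB d * s n) * ∫⁻ w, ENNReal.ofReal ‖fderiv ℝ f w‖) := by
          gcongr
      _ = _ := by
          rw [← mul_assoc, ← ENNReal.ofReal_mul (by positivity)]
          congr 2
          field_simp
  calc _ = ∫⁻ x, liminf (fun n => Q n x) atTop := lintegral_congr_ae hlim
    _ ≤ liminf (fun n => ∫⁻ x, Q n x) atTop := lintegral_liminf_le hQm
    _ ≤ _ := liminf_le_of_frequently_le' (Frequently.of_forall hQb)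

/-- The gradient form of the bound: `Mtilde f` is Lipschitz, and its a.e. gradient is integrable. -/
theorem Mtilde_fderiv_bound (hd : 1 ≤ d) (hf : ContDiff ℝ 1 f) (hfc : HasCompactSupport f) :
    ∫⁻ x, ‖fderiv ℝ (Mtilde f) x‖ₑ ≤
      ENNReal.ofReal (d * (16 * d ^ 2 * CB d)) * ∫⁻ w, ENNReal.ofReal ‖fderiv ℝ f w‖ := by
  obtain ⟨K, hK⟩ := Mtilde_lipschitz hf hfc
  set u := Mtilde f with hu
  have h1 : ∀ x, ‖fderiv ℝ u x‖ₑ ≤ ∑ i, ‖fderiv ℝ u x (EuclideanSpace.single i 1)‖ₑ := by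
    intro x
    have h2 := norm_le_sum_single (fderiv ℝ u x)
    rw [← ofReal_norm, ]
    calc _ ≤ ENNReal.ofReal (∑ i, ‖fderiv ℝ u x (EuclideanSpace.single i 1)‖) :=
          ENNReal.ofReal_le_ofReal h2
      _ = _ := by
          rw [ENNReal.ofReal_sum_of_nonneg fun _ _ => norm_nonneg _]
          simp only [ofReal_norm]
  have hmeas : ∀ i : Fin d, Measurable fun x => ‖fderiv ℝ u x (EuclideanSpace.single i 1)‖ₑ := by
    intro i
    exact ((measurable_fderiv_apply_const ℝ u _).enorm)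
  calc _ ≤ ∫⁻ x, ∑ i, ‖fderiv ℝ u x (EuclideanSpace.single i 1)‖ₑ := lintegral_mono h1
    _ = ∑ i : Fin d, ∫⁻ x, ‖fderiv ℝ u x (EuclideanSpace.single i 1)‖ₑ :=
        lintegral_finsetSum _ fun i _ => hmeas i
    _ ≤ ∑ _i : Fin d, ENNReal.ofReal (16 * d ^ 2 * CB d) * ∫⁻ w, ENNReal.ofReal ‖fderiv ℝ f w‖ := by
        refine Finset.sum_le_sum fun i _ => ?_
        exact Mtilde_dir_bound hd hf hfc _ (by simp)
    _ = _ := by
        rw [Finset.sum_const, Finset.card_univ, Fintype.card_fin, nsmul_eq_mul, ← mul_assoc]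
        congr 1
        rw [ENNReal.ofReal_mul (Nat.cast_nonneg d), ENNReal.ofReal_natCast]

end ValeP137
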