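import Vale.Agent.Lib.P137.Scales

/-! P137 module Geom (facts G0, G1, G2, G4, G5 of the blueprint: algebra of the family of balls). -/

open MeasureTheory Metric Set Filter Topology
open scoped ENNReal

noncomputable section

namespace ValeP137

namespace BallData

variable {d : ℕ} (b : BallData d)

/-- The inner product of `y - c` with `e` is strictly bounded by `r`. -/
theorem abs_inner_lt : |inner ℝ (b.y - b.c) b.e| < b.r := by
  have h1 : |inner ℝ (b.y - b.c) b.e| ≤ ‖b.y - b.c‖ * ‖b.e‖ := abs_real_inner_le_norm _ _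
  rw [b.he, mul_one] at h1
  have h2 : ‖b.y - b.c‖ < b.r := by
    have := b.hy
    rwa [mem_ball, dist_eq_norm] at this
  linarith

theorem dl_pos : 0 < b.dl := by
  have := abs_lt.1 b.abs_inner_lt
  unfold dl
  linarith [this.1]

theorem dl_lt : b.dl < b.r / 2 := by
  have := abs_lt.1 b.abs_inner_lt
  unfold dl
  linarith [this.2]

theorem r_lt_L : b.r < b.L := by
  unfold L
  linarith [b.dl_pos]

theorem L_le : b.L ≤ (3 / 2) * b.r := by
  unfold L
  linarith [b.dl_lt]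

theorem L_pos : 0 < b.L := lt_trans b.hr b.r_lt_L

theorem Eps_eq : b.Eps = b.dl * (2 * b.r + b.dl) := by
  unfold Eps L
  ring

theorem Eps_pos : 0 < b.Eps := by
  rw [Eps_eq]
  have := b.dl_pos
  have := b.hr
  positivity

/-- `‖w - c_t‖^2` in terms of `u = w - p`. -/
theorem norm_sub_ct_sq (t : ℝ) (w : E d) :
    ‖w - b.ct t‖ ^ 2 = ‖w - b.p‖ ^ 2 - 2 * (t * b.L) * b.tau w + (t * b.L) ^ 2 := by
  have h : w - b.ct t = (w - b.p) - (t * b.L) • b.e := by
    unfold ct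
    abel
  rw [h, @norm_sub_sq_real]
  rw [inner_smul_right, norm_smul, mul_pow, b.he]
  unfold tau
  simp only [Real.norm_eq_abs, sq_abs, one_pow, mul_one]
  ring_nf

theorem q_formula (t : ℝ) (w : E d) :
    b.q t w = 2 * t * b.L * b.tau w - ‖w - b.p‖ ^ 2 - t ^ 2 * b.Eps := by
  unfold q
  rw [norm_sub_ct_sq]
  unfold Eps
  ring

theorem mem_Bt_iff {t : ℝ} (ht : 0 < t) {w : E d} : w ∈ b.Bt t ↔ 0 < b.q t w := by
  unfold Bt q
  rw [mem_ball, dist_eq_norm]
  have hR : 0 < t * b.r := mul_pos ht b.hr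
  constructor
  · intro h
    have := norm_nonneg (w - b.ct t)
    nlinarith
  · intro h
    have := norm_nonneg (w - b.ct t)
    by_contra hc
    have hc := not_lt.1 hc
    nlinarith

theorem ct_one : b.ct 1 = b.c := by
  unfold ct p
  simp

theorem Bt_one : b.Bt 1 = ball b.c b.r := by
  unfold Bt
  rw [ct_one, one_mul]

theorem wt_sub_p (t : ℝ) (v : E d) : b.wt t v - b.p = t • (v - b.p) := by
  unfold wt
  abel

theorem tau_wt (t : ℝ) (v : E d) : b.tau (b.wt t v) = t * b.tau v := by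
  unfold tau
  rw [wt_sub_p, inner_smul_left]
  simp

theorem wt_sub_ct (t : ℝ) (v : E d) : b.wt t v - b.ct t = t • (v - b.c) := by
  unfold wt ct
  have hc : b.c = b.p + b.L • b.e := by
    unfold p
    abel
  rw [hc, smul_sub, smul_sub, smul_add, mul_smul]
  abel

theorem wt_mem_iff {t : ℝ} (ht : 0 < t) {v : E d} : b.wt t v ∈ b.Bt t ↔ v ∈ ball b.c b.r := by
  unfold Bt
  rw [mem_ball, mem_ball, dist_eq_norm, dist_eq_norm, wt_sub_ct, norm_smul, Real.norm_eq_abs,
    abs_of_pos ht]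
  exact mul_lt_mul_iff_right₀ ht

theorem wt_one (v : E d) : b.wt 1 v = v := by
  unfold wt
  simp

theorem xi_wt {t : ℝ} (ht : 0 < t) (v : E d) : b.xi t (b.wt t v) = b.xi 1 v := by
  unfold xi q
  rw [wt_sub_ct, norm_smul, Real.norm_eq_abs, abs_of_pos ht, ct_one]
  have := b.hr
  field_simp

/-- (G0) -/
theorem tau_y : b.tau b.y = 5 * b.dl := by
  unfold tau
  have h : b.y - b.p = (b.y - b.c) + b.L • b.e := by
    unfold p
    abel
  rw [h, inner_add_left, inner_smul_left]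
  simp only [real_inner_self_eq_norm_sq, b.he]
  have h2 : inner ℝ (b.y - b.c) b.e = 4 * b.dl - b.r := by
    unfold dl
    ring
  rw [h2]
  unfold L
  simp
  ring

theorem q_one_y_pos : 0 < b.q 1 b.y := by
  have h : b.y ∈ b.Bt 1 := by
    rw [Bt_one]
    exact b.hy
  exact (b.mem_Bt_iff one_pos).1 h

/-- (G0)+(G5): `y` lies in all the balls `B_t`. -/
theorem y_mem {t : ℝ} (ht : t ∈ Icc (1 : ℝ) 4) : b.y ∈ b.Bt t := by
  have ht0 : 0 < t := by linarith [ht.1]
  rw [b.mem_Bt_iff ht0]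
  have h1 := b.q_one_y_pos
  rw [q_formula] at h1 ⊢
  rw [tau_y] at h1 ⊢
  rw [Eps_eq] at h1 ⊢
  have hd := b.dl_pos
  have hr := b.hr
  have hL : b.L = b.r + b.dl := rfl
  rw [hL] at h1 ⊢
  have ht1 := ht.1
  have ht2 := ht.2
  have key : 0 ≤ (t - 1) * (10 * (b.r + b.dl) * b.dl - (t + 1) * (b.dl * (2 * b.r + b.dl))) := by
    apply mul_nonneg (by linarith)
    have : (t + 1) * (b.dl * (2 * b.r + b.dl)) ≤ 5 * (b.dl * (2 * b.r + b.dl)) := by
      apply mul_le_mul_of_nonneg_right (by linarith)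
      positivity
    nlinarith
  nlinarith

theorem inner_sq_le (w : E d) : b.tau w ^ 2 ≤ ‖w - b.p‖ ^ 2 := by
  have h1 : |b.tau w| ≤ ‖w - b.p‖ * ‖b.e‖ := abs_real_inner_le_norm _ _
  rw [b.he, mul_one] at h1
  calc b.tau w ^ 2 = |b.tau w| ^ 2 := (sq_abs _).symm
    _ ≤ _ := by
      apply pow_le_pow_left₀ (abs_nonneg _) h1

/-- The formula for `t xi_t w`. -/
theorem mul_xi (t : ℝ) (ht : 0 < t) (w : E d) : t * b.xi t w = b.q t w / (2 * t * b.r) := by
  unfold xi
  have := b.hr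
  field_simp

/-- (G1) -/
theorem tau_ge_xi {t : ℝ} (ht : 0 < t) (w : E d) : t * b.xi t w ≤ b.tau w := by
  rw [mul_xi b t ht, div_le_iff₀ (by have := b.hr; positivity)]
  rw [q_formula, Eps_eq]
  have h := b.inner_sq_le w
  have hd := b.dl_pos
  have hr := b.hr
  have hL : b.L = b.r + b.dl := rfl
  rw [hL]
  have h3 : 0 ≤ 2 * t ^ 2 * b.r * b.dl := by positivity
  nlinarith [sq_nonneg (b.tau w - t * b.dl)]

/-- (G1) -/
theorem tau_gt_of_mem {t : ℝ} (ht : 0 < t) {w : E d} (hw : w ∈ b.Bt t) : t * b.dl < b.tau w := by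
  have hq := (b.mem_Bt_iff ht).1 hw
  rw [q_formula] at hq
  have h := b.inner_sq_le w
  have h2 : (b.tau w - t * b.L) ^ 2 < (t * b.r) ^ 2 := by
    have hE : b.Eps = b.L ^ 2 - b.r ^ 2 := rfl
    rw [hE] at hq
    nlinarith
  have hR : 0 < t * b.r := mul_pos ht b.hr
  have h3 := abs_lt_of_sq_lt_sq h2 hR.le
  have h4 := (abs_lt.1 h3).1
  have hL : b.L = b.r + b.dl := rfl
  rw [hL] at h4
  nlinarith

theorem tau_pos_of_mem {t : ℝ} (ht : 0 < t) {w : E d} (hw : w ∈ b.Bt t) : 0 < b.tau w := by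
  have := b.tau_gt_of_mem ht hw
  have h2 : 0 < t * b.dl := mul_pos ht b.dl_pos
  linarith

/-- (G1) -/
theorem norm_sq_lt_of_mem {t : ℝ} (ht : 0 < t) {w : E d} (hw : w ∈ b.Bt t) :
    ‖w - b.p‖ ^ 2 < 2 * t * b.L * b.tau w := by
  have hq := (b.mem_Bt_iff ht).1 hw
  rw [q_formula] at hq
  have h : 0 < t ^ 2 * b.Eps := by
    have := b.Eps_pos
    positivity
  linarith

/-- (G2), without derivatives. -/
theorem xi_lip_t {s t : ℝ} (hs : s ∈ Icc (1 : ℝ) 4) (ht : t ∈ Icc (1 : ℝ) 4) {w : E d}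
    (hw : w ∈ b.Bt s) : |b.xi t w - b.xi s w| ≤ 14 * b.tau w * |t - s| := by
  have hs0 : 0 < s := by linarith [hs.1]
  have ht0 : 0 < t := by linarith [ht.1]
  have hr := b.hr
  have htau := b.tau_pos_of_mem hs0 hw
  have hu := b.norm_sq_lt_of_mem hs0 hw
  have hL1 := b.L_le
  have hL0 := b.L_pos
  -- the closed form
  have hxi : ∀ x : ℝ, 0 < x → b.xi x w
      = b.L * b.tau w / (x * b.r) - ‖w - b.p‖ ^ 2 / (2 * x ^ 2 * b.r) - b.Eps / (2 * b.r) := by
    intro x hx
    unfold xi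
    rw [q_formula]
    field_simp
  rw [hxi t ht0, hxi s hs0]
  set u2 := ‖w - b.p‖ ^ 2 with hu2
  have hu20 : 0 ≤ u2 := by positivity
  set T := b.tau w with hT
  set L := b.L with hLdef
  set r := b.r with hrdef
  have e1 : L * T / (t * r) - u2 / (2 * t ^ 2 * r) - b.Eps / (2 * r)
      - (L * T / (s * r) - u2 / (2 * s ^ 2 * r) - b.Eps / (2 * r))
      = (s - t) * (L * T / (t * s * r) - u2 * (s + t) / (2 * t ^ 2 * s ^ 2 * r)) := by
    field_simp
    ring
  rw [e1, abs_mul, abs_sub_comm s t, mul_comm]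
  apply mul_le_mul_of_nonneg_right _ (abs_nonneg _)
  have hs1 := hs.1
  have ht1 := ht.1
  have hts : 1 ≤ t * s := by nlinarith
  -- first term
  have h1 : L * T / (t * s * r) ≤ (3 / 2) * T := by
    rw [div_le_iff₀ (by positivity)]
    have : L * T ≤ (3 / 2) * r * T := by
      apply mul_le_mul_of_nonneg_right hL1 htau.le
    have h3 : r * T ≤ (t * s) * (r * T) := by
      have : 0 < r * T := by positivity
      nlinarith
    nlinarith
  have h1' : 0 ≤ L * T / (t * s * r) := by positivity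
  -- second term
  have h2 : u2 * (s + t) / (2 * t ^ 2 * s ^ 2 * r) ≤ 6 * T := by
    rw [div_le_iff₀ (by positivity)]
    have h4 : u2 ≤ 2 * s * ((3 / 2) * r) * T := by
      have : 2 * s * L * T ≤ 2 * s * ((3 / 2) * r) * T := by
        apply mul_le_mul_of_nonneg_right _ htau.le
        apply mul_le_mul_of_nonneg_left hL1 (by positivity)
      linarith
    have h5 : u2 * (s + t) ≤ (2 * s * ((3 / 2) * r) * T) * (s + t) :=
      mul_le_mul_of_nonneg_right h4 (by positivity)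
    have h6 : (2 * s * ((3 / 2) * r) * T) * (s + t) ≤ 6 * T * (2 * t ^ 2 * s ^ 2 * r) := by
      have h7 : s * (s + t) ≤ 4 * (t ^ 2 * s ^ 2) := by
        have hs2 : s ≤ s ^ 2 := by nlinarith
        have ht2 : 1 ≤ t ^ 2 := by nlinarith
        have h8 : s ^ 2 ≤ t ^ 2 * s ^ 2 := by nlinarith [sq_nonneg s]
        have h9 : s * t ≤ t ^ 2 * s ^ 2 := by nlinarith
        nlinarith
      have hrT : 0 < r * T := by positivity
      nlinarith
    linarith
  have h2' : 0 ≤ u2 * (s + t) / (2 * t ^ 2 * s ^ 2 * r) := by positivity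
  rw [abs_le]
  constructor <;> nlinarith

theorem xi_le {t : ℝ} (ht : 0 < t) (w : E d) : b.xi t w ≤ b.r / 2 := by
  unfold xi q
  have hr := b.hr
  rw [div_le_iff₀ (by positivity)]
  have := sq_nonneg ‖w - b.ct t‖
  have e : b.r / 2 * (2 * t ^ 2 * b.r) = (t * b.r) ^ 2 := by ring
  rw [e]
  linarith

theorem xi_pos_iff {t : ℝ} (ht : 0 < t) {w : E d} : 0 < b.xi t w ↔ w ∈ b.Bt t := by
  rw [b.mem_Bt_iff ht]
  unfold xi
  have hr := b.hr
  have : 0 < 2 * t ^ 2 * b.r := by positivity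
  exact div_pos_iff_of_pos_right this

/-- (G4) -/
theorem ball_sub {s x : ℝ} (hs : 0 < s) {w w' : E d} (hw : w ∈ b.Bt s) (hx : x ≤ s * b.xi s w)
    (hww' : ‖w' - w‖ < x) : w' ∈ b.Bt s := by
  have hR : 0 < s * b.r := mul_pos hs b.hr
  have hwn : ‖w - b.ct s‖ < s * b.r := by
    have := hw
    unfold Bt at this
    rwa [mem_ball, dist_eq_norm] at this
  rw [mul_xi b s hs] at hx
  have hq : b.q s w = (s * b.r) ^ 2 - ‖w - b.ct s‖ ^ 2 := rfl
  rw [hq] at hx
  have h2 : ((s * b.r) ^ 2 - ‖w - b.ct s‖ ^ 2) / (2 * s * b.r) ≤ s * b.r - ‖w - b.ct s‖ := by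
    rw [div_le_iff₀ (by have := b.hr; positivity)]
    have := norm_nonneg (w - b.ct s)
    nlinarith
  unfold Bt
  rw [mem_ball, dist_eq_norm]
  have h3 : ‖w' - b.ct s‖ ≤ ‖w' - w‖ + ‖w - b.ct s‖ := by
    have : w' - b.ct s = (w' - w) + (w - b.ct s) := by abel
    rw [this]
    exact norm_add_le _ _
  linarith

/-- (G4) -/
theorem xi_lip_w {s : ℝ} (hs : 0 < s) {w w' : E d} (hw : w ∈ b.Bt s) (hw' : w' ∈ b.Bt s) :
    |b.xi s w' - b.xi s w| ≤ ‖w' - w‖ / s := by
  have hr := b.hr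
  have hR : 0 < s * b.r := mul_pos hs b.hr
  have hwn : ‖w - b.ct s‖ < s * b.r := by
    have := hw
    unfold Bt at this
    rwa [mem_ball, dist_eq_norm] at this
  have hwn' : ‖w' - b.ct s‖ < s * b.r := by
    have := hw'
    unfold Bt at this
    rwa [mem_ball, dist_eq_norm] at this
  set A := ‖w - b.ct s‖ with hA
  set B := ‖w' - b.ct s‖ with hB
  have hA0 : 0 ≤ A := norm_nonneg _
  have hB0 : 0 ≤ B := norm_nonneg _
  have hAB : |B - A| ≤ ‖w' - w‖ := by
    have := abs_norm_sub_norm_le (w' - b.ct s) (w - b.ct s)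
    have h2 : (w' - b.ct s) - (w - b.ct s) = w' - w := by abel
    rwa [h2] at this
  have e : b.xi s w' - b.xi s w = (A - B) * (A + B) / (2 * s ^ 2 * b.r) := by
    unfold xi q
    rw [← hA, ← hB]
    field_simp
    ring
  rw [e, abs_div, abs_mul, abs_of_pos (by positivity : 0 < 2 * s ^ 2 * b.r),
    abs_of_nonneg (by positivity : 0 ≤ A + B), abs_sub_comm A B, div_le_div_iff₀ (by positivity) hs]
  have h3 : |B - A| * (A + B) ≤ ‖w' - w‖ * (2 * (s * b.r)) := by
    apply mul_le_mul hAB (by linarith) (by positivity) (norm_nonneg _)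
  have : |B - A| * (A + B) * s ≤ ‖w' - w‖ * (2 * (s * b.r)) * s :=
    mul_le_mul_of_nonneg_right h3 hs.le
  calc |B - A| * (A + B) * s ≤ ‖w' - w‖ * (2 * (s * b.r)) * s := this
    _ = ‖w' - w‖ * (2 * s ^ 2 * b.r) := by ring

/-- (G5) -/
theorem U_sub : b.U ⊆ ball b.y (8 * b.r) := by
  intro w hw
  unfold U at hw
  simp only [mem_iUnion, exists_prop] at hw
  obtain ⟨t, ht, hwt⟩ := hw
  have hy := b.y_mem ht
  unfold Bt at hy hwt
  rw [mem_ball, dist_eq_norm] at hy hwt ⊢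
  have h3 : ‖w - b.y‖ ≤ ‖w - b.ct t‖ + ‖b.y - b.ct t‖ := by
    have : w - b.y = (w - b.ct t) - (b.y - b.ct t) := by abel
    rw [this]
    exact norm_sub_le _ _
  have := b.hr
  have h4 : t * b.r ≤ 4 * b.r := mul_le_mul_of_nonneg_right ht.2 this.le
  linarith

theorem Bt_sub_U {t : ℝ} (ht : t ∈ Icc (1 : ℝ) 4) : b.Bt t ⊆ b.U := by
  intro w hw
  unfold U
  simp only [mem_iUnion, exists_prop]
  exact ⟨t, ht, hw⟩

theorem isOpen_Bt (t : ℝ) : IsOpen (b.Bt t) := isOpen_ball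

theorem isOpen_U : IsOpen b.U := by
  unfold U
  exact isOpen_biUnion fun t _ => b.isOpen_Bt t

/-- `tau` is 1-Lipschitz. -/
theorem tau_lip (w w' : E d) : |b.tau w' - b.tau w| ≤ ‖w' - w‖ := by
  unfold tau
  rw [← inner_sub_left]
  have h : w' - b.p - (w - b.p) = w' - w := by abel
  rw [h]
  have := abs_real_inner_le_norm (w' - w) b.e
  rwa [b.he, mul_one] at this

theorem tau_continuous : Continuous b.tau := by
  unfold tau
  fun_prop

end BallData

end ValeP137
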