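import Vale.Agent.Lib.P137.Scales

/-! P137 module Ladder (regularity of the ladder). -/

open MeasureTheory Metric Set Filter Topology
open scoped ENNReal Pointwise

noncomputable section

namespace ValeP137

variable {d : ℕ} {f : E d → ℝ} {r0 : ℝ}

section generic

variable {F : Type*} [NormedAddCommGroup F] [NormedSpace ℝ F]

theorem ball_ae_eq_closedBall_P137 (s : ℝ) (hs : 0 < s) :
    (ball (0 : E d) s : Set (E d)) =ᵐ[volume] closedBall (0 : E d) s := by
  have h : volume (closedBall (0 : E d) s \ ball (0 : E d) s) = 0 := by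
    rw [closedBall_sdiff_ball]
    exact Measure.addHaar_sphere_of_ne_zero _ _ hs.ne'
  have hsub : (ball (0 : E d) s : Set (E d)) ⊆ closedBall (0 : E d) s := ball_subset_closedBall
  exact (LE.le.eventuallyLE hsub).antisymm (ae_le_set.2 h)

omit [NormedSpace ℝ F] in
theorem aop_integrableOn {g : E d → F} (hg : Continuous g) (s : ℝ) (x : E d) :
    IntegrableOn (fun z => g (x + z)) (ball (0 : E d) s) := by
  have hc : Continuous (fun z => g (x + z)) := hg.comp (continuous_const.add continuous_id)
  exact (hc.continuousOn.integrableOn_compact (isCompact_closedBall (0 : E d) s)).mono_set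
    ball_subset_closedBall

theorem Aop_eq (s : ℝ) (g : E d → F) (x : E d) :
    Aop s g x = (volume.real (ball (0 : E d) s))⁻¹ • ∫ z in ball (0 : E d) s, g (x + z) := by
  unfold Aop
  rw [setAverage_eq]

theorem vol_real_pos {s : ℝ} (hs : 0 < s) : 0 < volume.real (ball (0 : E d) s) := by
  unfold Measure.real
  exact ENNReal.toReal_pos (measure_ball_pos _ _ hs).ne' measure_ball_lt_top.ne

/-- Average of a continuous function is continuous (`s > 0`). -/
theorem Aop_cont {F : Type*} [NormedAddCommGroup F] [NormedSpace ℝ F] {s : ℝ} (hs : 0 < s)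
    {g : E d → F} (hg : Continuous g) : Continuous (Aop s g) := by
  by_cases hF : CompleteSpace F
  · have h1 : Continuous (fun x : E d => ∫ z in closedBall (0 : E d) s, g (x + z)) := by
      apply continuous_parametric_integral_of_continuous (μ := volume)
      · exact hg.comp ((continuous_fst).add (continuous_snd))
      · exact isCompact_closedBall _ _
    have h2 : Aop s g = fun x : E d => (volume.real (ball (0 : E d) s))⁻¹ •
        ∫ z in closedBall (0 : E d) s, g (x + z) := by
      funext x
      rw [Aop_eq]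
      congr 1
      exact setIntegral_congr_set (ball_ae_eq_closedBall_P137 s hs)
    rw [h2]
    exact h1.const_smul _
  · have h2 : Aop s g = fun _ => 0 := by
      funext x
      unfold Aop
      rw [setAverage_eq, integral, dif_neg hF, smul_zero]
    rw [h2]
    exact continuous_const

theorem Aop_cs {s : ℝ} (_hs : 0 < s) {g : E d → F} (hg : HasCompactSupport g) :
    HasCompactSupport (Aop s g) := by
  have hK : IsCompact (tsupport g + closedBall (0 : E d) s) :=
    hg.isCompact.add (isCompact_closedBall _ _)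
  refine HasCompactSupport.intro hK ?_
  intro x hx
  have h0 : ∀ z ∈ ball (0 : E d) s, g (x + z) = 0 := by
    intro z hz
    by_contra hne
    apply hx
    refine ⟨x + z, subset_tsupport _ hne, -z, ?_, by simp⟩
    simpa using (ball_subset_closedBall hz)
  rw [Aop_eq, setIntegral_congr_fun measurableSet_ball h0]
  simp

end generic

/-- Differentiation under the mean. -/
theorem hasGradientAt_Aop {s : ℝ} (_hs : 0 < s) {F : E d → ℝ} {G : E d → E d}
    (hF : ∀ x, HasGradientAt F (G x) x) (hG : Continuous G) (hGc : HasCompactSupport G) (x : E d) :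
    HasGradientAt (Aop s F) (Aop s G x) x := by
  classical
  have hFc : Continuous F := continuous_iff_continuousAt.2 fun x => (hF x).continuousAt
  obtain ⟨C, hC⟩ := hG.bounded_above_of_compact_support hGc
  set T : E d ≃ₗᵢ[ℝ] (StrongDual ℝ (E d)) := InnerProductSpace.toDual ℝ (E d) with hT
  have hmeas : ∀ᶠ x' in 𝓝 x, AEStronglyMeasurable (fun z => F (x' + z))
      (volume.restrict (ball (0 : E d) s)) :=
    Eventually.of_forall fun x' => (hFc.comp (continuous_const.add continuous_id)).aestronglyMeasurable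
  have hint : Integrable (fun z => F (x + z)) (volume.restrict (ball (0 : E d) s)) :=
    aop_integrableOn hFc s x
  have hTc : Continuous (fun x' : E d => (T (G x') : StrongDual ℝ (E d))) :=
    T.continuous.comp hG
  have hmeas' : AEStronglyMeasurable (fun z => (T (G (x + z)) : StrongDual ℝ (E d)))
      (volume.restrict (ball (0 : E d) s)) :=
    (hTc.comp (continuous_const.add continuous_id)).aestronglyMeasurable
  have hbound : ∀ᵐ z ∂(volume.restrict (ball (0 : E d) s)), ∀ x' ∈ ball x 1,
      ‖(T (G (x' + z)) : StrongDual ℝ (E d))‖ ≤ C := by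
    refine Eventually.of_forall fun z x' _ => ?_
    rw [hT, LinearIsometryEquiv.norm_map]
    exact hC _
  have hbint : Integrable (fun _ : E d => C) (volume.restrict (ball (0 : E d) s)) :=
    integrable_const_iff.2 (Or.inr (by
      rw [isFiniteMeasure_restrict]; exact measure_ball_lt_top.ne))
  have hder : ∀ᵐ z ∂(volume.restrict (ball (0 : E d) s)), ∀ x' ∈ ball x 1,
      HasFDerivAt (fun x'' => F (x'' + z)) (T (G (x' + z)) : StrongDual ℝ (E d)) x' := by
    refine Eventually.of_forall fun z x' _ => ?_
    have h1 : HasFDerivAt F (T (G (x' + z)) : StrongDual ℝ (E d)) (x' + z) :=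
      (hF (x' + z)).hasFDerivAt
    have h2 : HasFDerivAt (fun x'' => F (x'' + z))
        ((T (G (x' + z)) : StrongDual ℝ (E d)).comp (ContinuousLinearMap.id ℝ (E d))) x' :=
      HasFDerivAt.comp x' h1 ((hasFDerivAt_id x').add_const z)
    rwa [ContinuousLinearMap.comp_id] at h2
  have key := hasFDerivAt_integral_of_dominated_of_fderiv_le (μ := volume.restrict (ball (0 : E d) s))
    (F := fun x' z => F (x' + z)) (F' := fun x' z => (T (G (x' + z)) : StrongDual ℝ (E d)))
    (bound := fun _ => C) (s := ball x 1) (ball_mem_nhds x one_pos) hmeas hint hmeas' hbound hbint hder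
  have hcomp : (∫ z in ball (0 : E d) s, (T (G (x + z)) : StrongDual ℝ (E d))) =
      T (∫ z in ball (0 : E d) s, G (x + z)) :=
    T.toLinearIsometry.integral_comp_comm _
  rw [hcomp] at key
  have key2 := key.const_smul ((volume.real (ball (0 : E d) s))⁻¹)
  have hfun : Aop s F = fun x' => (volume.real (ball (0 : E d) s))⁻¹ •
      ∫ z in ball (0 : E d) s, F (x' + z) := by
    funext x'; exact Aop_eq s F x'
  have hval : (T (Aop s G x) : StrongDual ℝ (E d)) = (volume.real (ball (0 : E d) s))⁻¹ •
      T (∫ z in ball (0 : E d) s, G (x + z)) := by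
    rw [Aop_eq, map_smul]
  rw [hfun]
  rw [hasGradientAt_iff_hasFDerivAt, show (InnerProductSpace.toDual ℝ (E d)) (Aop s G x) = T (Aop s G x) from rfl, hval]
  exact key2

/-! ### The ladder -/

theorem rho_succ_pos (H : Std f r0) (i : ℕ) : 0 < rho d r0 (i + 1) := rho_pos d H.hr0 _

theorem Fl_cs (H : Std f r0) (i : ℕ) : HasCompactSupport (Fl f r0 i) := by
  induction i with
  | zero => exact H.cs
  | succ n ih => exact Aop_cs (rho_succ_pos H n) ih

theorem Gl_cont_cs (H : Std f r0) (i : ℕ) :
    Continuous (Gl f r0 i) ∧ HasCompactSupport (Gl f r0 i) := by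
  induction i with
  | zero =>
    constructor
    · have h1 : Continuous (fderiv ℝ f) := H.cd.continuous_fderiv (by norm_num)
      have h2 : gradient f = fun x => (InnerProductSpace.toDual ℝ (E d)).symm (fderiv ℝ f x) := rfl
      change Continuous (gradient f)
      rw [h2]
      exact (InnerProductSpace.toDual ℝ (E d)).symm.continuous.comp h1
    · have h1 : HasCompactSupport (fderiv ℝ f) := H.cs.fderiv (𝕜 := ℝ)
      have h2 : gradient f = fun x => (InnerProductSpace.toDual ℝ (E d)).symm (fderiv ℝ f x) := rfl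
      change HasCompactSupport (gradient f)
      rw [h2]
      exact h1.comp_left (g := fun y => (InnerProductSpace.toDual ℝ (E d)).symm y) (map_zero _)
  | succ n ih => exact ⟨Aop_cont (rho_succ_pos H n) ih.1, Aop_cs (rho_succ_pos H n) ih.2⟩

theorem Gl_cont (H : Std f r0) (i : ℕ) : Continuous (Gl f r0 i) := (Gl_cont_cs H i).1

theorem Gl_cs (H : Std f r0) (i : ℕ) : HasCompactSupport (Gl f r0 i) := (Gl_cont_cs H i).2

/-- The key regularity statement: `Gl i` is the gradient of `Fl i`. -/
theorem Fl_grad (H : Std f r0) (i : ℕ) (x : E d) :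
    HasGradientAt (Fl f r0 i) (Gl f r0 i x) x := by
  induction i generalizing x with
  | zero =>
    exact (H.cd.differentiable (by norm_num) x).hasGradientAt
  | succ n ih =>
    exact hasGradientAt_Aop (rho_succ_pos H n) ih (Gl_cont H n) (Gl_cs H n) x

theorem Fl_contDiff (H : Std f r0) (i : ℕ) : ContDiff ℝ 1 (Fl f r0 i) := by
  rw [contDiff_one_iff_fderiv]
  refine ⟨fun x => (Fl_grad H i x).hasFDerivAt.differentiableAt, ?_⟩
  have h : fderiv ℝ (Fl f r0 i) = fun x => InnerProductSpace.toDual ℝ (E d) (Gl f r0 i x) := by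
    funext x
    exact (Fl_grad H i x).hasFDerivAt.fderiv
  rw [h]
  exact (InnerProductSpace.toDual ℝ (E d)).continuous.comp (Gl_cont H i)

theorem hl_cont (H : Std f r0) (i : ℕ) : Continuous (hl f r0 i) := (Gl_cont H i).norm

theorem hl_cs (H : Std f r0) (i : ℕ) : HasCompactSupport (hl f r0 i) := (Gl_cs H i).norm

theorem hl_nonneg (i : ℕ) (x : E d) : 0 ≤ hl f r0 i x := norm_nonneg _

theorem vl_cont (H : Std f r0) (i : ℕ) : Continuous (vl f r0 i) :=
  (Aop_cont (rho_succ_pos H i) (hl_cont H i)).sub (hl_cont H (i + 1))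

/-- `v_{i+1} ≥ 0`: the norm of a mean is at most the mean of the norm. -/
theorem vl_nonneg (H : Std f r0) (i : ℕ) (x : E d) : 0 ≤ vl f r0 i x := by
  unfold vl
  rw [sub_nonneg]
  have hpos := vol_real_pos (d := d) (rho_succ_pos H i)
  change ‖Aop (rho d r0 (i + 1)) (Gl f r0 i) x‖ ≤ Aop (rho d r0 (i + 1)) (fun x => ‖Gl f r0 i x‖) x
  rw [Aop_eq, Aop_eq, norm_smul, smul_eq_mul, Real.norm_of_nonneg (inv_nonneg.2 hpos.le)]
  exact mul_le_mul_of_nonneg_left (norm_integral_le_integral_norm _) (inv_nonneg.2 hpos.le)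

theorem vl_add (i : ℕ) (x : E d) :
    hl f r0 (i + 1) x + vl f r0 i x = Aop (rho d r0 (i + 1)) (hl f r0 i) x := by
  unfold vl; ring

theorem De_cont (H : Std f r0) (e : E d) (i : ℕ) : Continuous (De f r0 e i) := by
  unfold De
  exact (hl_cont H i).sub ((Gl_cont H i).inner continuous_const)

theorem De_nonneg {e : E d} (he : ‖e‖ = 1) (i : ℕ) (x : E d) : 0 ≤ De f r0 e i x := by
  unfold De hl
  have := real_inner_le_norm (Gl f r0 i x) e
  rw [he, mul_one] at this
  linarith

/-- `A_{rho_{i+1}} D^e_i = D^e_{i+1} + v_{i+1}`. -/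
theorem Aop_De (H : Std f r0) (e : E d) (i : ℕ) (x : E d) :
    Aop (rho d r0 (i + 1)) (De f r0 e i) x = De f r0 e (i + 1) x + vl f r0 i x := by
  have h1 := aop_integrableOn (hl_cont H i) (rho d r0 (i + 1)) x
  have h2 := aop_integrableOn (Gl_cont H i) (rho d r0 (i + 1)) x
  have h3 : (∫ z in ball (0 : E d) (rho d r0 (i + 1)), De f r0 e i (x + z)) =
      (∫ z in ball (0 : E d) (rho d r0 (i + 1)), hl f r0 i (x + z)) -
        inner ℝ (∫ z in ball (0 : E d) (rho d r0 (i + 1)), Gl f r0 i (x + z)) e := by
    unfold De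
    rw [integral_sub h1 (h2.inner_const e |>.congr (ae_of_all _ fun _ => rfl))]
    congr 1
    have h6 := integral_inner (𝕜 := ℝ) h2 e
    calc _ = ∫ a in ball (0 : E d) (rho d r0 (i + 1)), inner ℝ e (Gl f r0 i (x + a)) :=
          integral_congr_ae (ae_of_all _ fun a => real_inner_comm _ _)
      _ = inner ℝ e (∫ a in ball (0 : E d) (rho d r0 (i + 1)), Gl f r0 i (x + a)) := h6
      _ = _ := real_inner_comm _ _
  have h4 : inner ℝ (Gl f r0 (i + 1) x) e = (volume.real (ball (0 : E d) (rho d r0 (i + 1))))⁻¹ *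
      inner ℝ (∫ z in ball (0 : E d) (rho d r0 (i + 1)), Gl f r0 i (x + z)) e := by
    change inner ℝ (Aop (rho d r0 (i + 1)) (Gl f r0 i) x) e = _
    rw [Aop_eq, real_inner_smul_left]
  unfold vl
  rw [De, h4, Aop_eq, Aop_eq, h3, smul_eq_mul, smul_eq_mul]
  ring

/-- Lintegral form of the mean of a nonnegative continuous function. -/
theorem setLIntegral_ball_eq {s : ℝ} (hs : 0 < s) {g : E d → ℝ} (hg : Continuous g)
    (hg0 : ∀ x, 0 ≤ g x) (y : E d) :
    ∫⁻ w in ball y s, ENNReal.ofReal (g w) =
      volume (ball (0 : E d) s) * ENNReal.ofReal (Aop s g y) := by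
  have hmp := measurePreserving_add_left (volume : Measure (E d)) y
  have hpre : (fun z => y + z) ⁻¹' ball y s = ball (0 : E d) s := by
    ext z; simp [mem_ball, dist_eq_norm]
  have h1 : ∫⁻ w in ball y s, ENNReal.ofReal (g w) =
      ∫⁻ z in ball (0 : E d) s, ENNReal.ofReal (g (y + z)) := by
    rw [← hpre]
    exact (hmp.setLIntegral_comp_preimage measurableSet_ball
      (hg.measurable.ennreal_ofReal)).symm
  have h2 : ∫⁻ z in ball (0 : E d) s, ENNReal.ofReal (g (y + z)) =
      ENNReal.ofReal (∫ z in ball (0 : E d) s, g (y + z)) :=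
    (ofReal_integral_eq_lintegral_ofReal (aop_integrableOn hg s y)
      (ae_of_all _ fun z => hg0 _)).symm
  have hpos := vol_real_pos (d := d) hs
  have h3 : volume (ball (0 : E d) s) = ENNReal.ofReal (volume.real (ball (0 : E d) s)) := by
    rw [ofReal_measureReal]
  rw [h1, h2, Aop_eq, h3, smul_eq_mul, ← ENNReal.ofReal_mul hpos.le, ← mul_assoc,
    mul_inv_cancel₀ hpos.ne', one_mul]

end ValeP137
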