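import Mathlib

/-! The uncentered Hardy Littlewood maximal function over open Euclidean balls. -/

open MeasureTheory Metric

noncomputable section

namespace ValeP137

/-- The uncentered Hardy Littlewood maximal function over open balls, real valued version:
the supremum of the means of `|f|` over all open balls containing `y`. -/
def Mtilde {d : ℕ} (f : EuclideanSpace ℝ (Fin d) → ℝ) (y : EuclideanSpace ℝ (Fin d)) : ℝ :=
  sSup {A : ℝ | ∃ (c : EuclideanSpace ℝ (Fin d)) (r : ℝ),
    0 < r ∧ y ∈ ball c r ∧ A = ⨍ x in ball c r, |f x|}

end ValeP137
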