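import Vale.Agent.Lib.P137.Defs

/-! P137 module RayA1 (Lemma A1 of the blueprint, polar coordinates). -/

open MeasureTheory Metric Set Filter Topology
open scoped ENNReal

noncomputable section

namespace ValeP137

/-- The radial measure `∫_S s^n ds`. -/
def nuR (n : ℕ) (S : Set ℝ) : ℝ≥0∞ := ∫⁻ s in S, ENNReal.ofReal (s ^ n)

theorem nuR_mono (n : ℕ) {S T : Set ℝ} (h : S ⊆ T) : nuR n S ≤ nuR n T :=
  lintegral_mono_set h

theorem nuR_Ico_le (n : ℕ) {a b : ℝ} (ha : 0 ≤ a) (hab : a ≤ b) :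
    nuR n (Ico a b) ≤ ENNReal.ofReal ((b - a) * b ^ n) := by
  have h1 : nuR n (Ico a b) ≤ ∫⁻ _ in Ico a b, ENNReal.ofReal (b ^ n) := by
    refine setLIntegral_mono' measurableSet_Ico fun s hs => ?_
    exact ENNReal.ofReal_le_ofReal (pow_le_pow_left₀ (ha.trans hs.1) hs.2.le n)
  refine h1.trans (le_of_eq ?_)
  rw [setLIntegral_const, Real.volume_Ico, mul_comm,
    ENNReal.ofReal_mul (sub_nonneg.2 hab)]

theorem nuR_Ioo_ge (n : ℕ) {a b : ℝ} (ha : 0 ≤ a) :
    ENNReal.ofReal ((b - a) * a ^ n) ≤ nuR n (Ioo a b) := by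
  have h1 : ∫⁻ _ in Ioo a b, ENNReal.ofReal (a ^ n) ≤ nuR n (Ioo a b) := by
    refine setLIntegral_mono' measurableSet_Ioo fun s hs => ?_
    exact ENNReal.ofReal_le_ofReal (pow_le_pow_left₀ ha hs.1.le n)
  refine le_trans (le_of_eq ?_) h1
  rw [setLIntegral_const, Real.volume_Ioo, mul_comm (b - a), ENNReal.ofReal_mul (pow_nonneg ha n)]

theorem nuR_Ioo_eq (n : ℕ) {a b : ℝ} (ha : 0 ≤ a) (hab : a ≤ b) :
    nuR n (Ioo a b) = ENNReal.ofReal ((b ^ (n + 1) - a ^ (n + 1)) / (n + 1)) := by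
  unfold nuR
  rw [Measure.restrict_congr_set Ioo_ae_eq_Ioc,
    ← ofReal_integral_eq_lintegral_ofReal (intervalIntegral.intervalIntegrable_pow _).1,
    ← intervalIntegral.integral_of_le hab]
  · simp [integral_pow]
  · filter_upwards [ae_restrict_mem measurableSet_Ioc] with y hy
    exact pow_nonneg (ha.trans hy.1.le) _

/-- `b (b^n - a^n) ≤ n (b - a) b^n`. -/
theorem pow_diff_le (n : ℕ) {a b : ℝ} (ha : 0 ≤ a) (hab : a ≤ b) :
    b * (b ^ n - a ^ n) ≤ n * (b - a) * b ^ n := by
  induction n with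
  | zero => simp
  | succ n ih =>
    have hb : 0 ≤ b := ha.trans hab
    have h1 : a ^ n ≤ b ^ n := pow_le_pow_left₀ ha hab n
    have h2 : 0 ≤ b - a := sub_nonneg.2 hab
    have e1 : b * (b ^ (n + 1) - a ^ (n + 1)) =
        b * (b * (b ^ n - a ^ n)) + b * ((b - a) * a ^ n) := by ring
    have e2 : ((n + 1 : ℕ) : ℝ) * (b - a) * b ^ (n + 1) =
        b * (n * (b - a) * b ^ n) + b * ((b - a) * b ^ n) := by push_cast; ring
    rw [e1, e2]
    have h3 : (b - a) * a ^ n ≤ (b - a) * b ^ n := mul_le_mul_of_nonneg_left h1 h2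
    exact add_le_add (mul_le_mul_of_nonneg_left ih hb) (mul_le_mul_of_nonneg_left h3 hb)

/-- `(1 + x)^n ≤ 1 + 2 n x` if `2 n x ≤ 1`. -/
theorem one_add_pow_le (n : ℕ) {x : ℝ} (hx : 0 ≤ x) (h : 2 * n * x ≤ 1) :
    (1 + x) ^ n ≤ 1 + 2 * n * x := by
  induction n with
  | zero => simp
  | succ n ih =>
    have h' : 2 * (n : ℝ) * x ≤ 1 := by
      push_cast at h
      nlinarith
    have := ih h'
    rw [pow_succ]
    push_cast
    have h4 : (1 + x) ^ n * (1 + x) ≤ (1 + 2 * n * x) * (1 + x) :=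
      mul_le_mul_of_nonneg_right this (by linarith)
    nlinarith

/-- `(r + e)^n ≤ 2 r^n` if `2 n e ≤ r`. -/
theorem add_pow_le_two (n : ℕ) {r e : ℝ} (hr : 0 < r) (he : 0 ≤ e) (h : 2 * n * e ≤ r) :
    (r + e) ^ n ≤ 2 * r ^ n := by
  have hx : 0 ≤ e / r := div_nonneg he hr.le
  have hx2 : 2 * (n : ℝ) * (e / r) ≤ 1 := by
    rw [← mul_div_assoc, div_le_one hr]; exact h
  have h1 := one_add_pow_le n hx hx2
  have h2 : r + e = r * (1 + e / r) := by field_simp
  rw [h2, mul_pow, mul_comm]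
  have h3 : (1 + e / r) ^ n ≤ 2 := by linarith
  exact mul_le_mul_of_nonneg_right h3 (pow_nonneg hr.le n)

/-- The real inequality of the ray lemma. -/
theorem ray_real (n : ℕ) {a r e l : ℝ} (ha : 0 ≤ a) (har : a ≤ r) (hr : 0 < r) (he : 0 < e)
    (her : 8 * (n + 1) * e ≤ r) (hl0 : 0 ≤ l) (hle : l ≤ e) (hlr : l ≤ r - a) :
    l * (r + e) ^ n ≤ l * a ^ n +
      8 * ((n : ℝ) + 1) ^ 2 * e / r * ((r - a) * r ^ n / (n + 1)) := by
  have hn : (0 : ℝ) ≤ n := Nat.cast_nonneg n
  have hn1 : (0 : ℝ) < (n : ℝ) + 1 := by linarith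
  set b := r + e with hb
  have hbr : r ≤ b := by rw [hb]; linarith
  have hb0 : 0 < b := by linarith
  have h1 := pow_diff_le n ha (har.trans hbr)
  have h2 : b ^ n ≤ 2 * r ^ n := add_pow_le_two n hr he.le (by nlinarith)
  have hrn : 0 ≤ r ^ n := pow_nonneg hr.le n
  have hra : 0 ≤ r - a := sub_nonneg.2 har
  -- simplify the right term
  have e1 : 8 * ((n : ℝ) + 1) ^ 2 * e / r * ((r - a) * r ^ n / (n + 1)) =
      8 * ((n : ℝ) + 1) * e * ((r - a) * r ^ n) / r := by
    field_simp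
  rw [e1]
  -- multiply through by `r`
  have hkey : l * (b * (b ^ n - a ^ n)) ≤ 8 * ((n : ℝ) + 1) * e * ((r - a) * r ^ n) := by
    have s1 : l * (b * (b ^ n - a ^ n)) ≤ l * (n * (b - a) * b ^ n) :=
      mul_le_mul_of_nonneg_left h1 hl0
    have s2 : l * (b - a) ≤ 2 * e * (r - a) := by
      rw [hb]; nlinarith
    have s3 : l * (n * (b - a) * b ^ n) = n * (l * (b - a)) * b ^ n := by ring
    have s4 : n * (l * (b - a)) * b ^ n ≤ n * (2 * e * (r - a)) * (2 * r ^ n) := by
      have hnn : 0 ≤ (l * (b - a)) := mul_nonneg hl0 (by rw [hb]; linarith)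
      have hb' : 0 ≤ b ^ n := pow_nonneg hb0.le n
      exact mul_le_mul (mul_le_mul_of_nonneg_left s2 hn) h2 hb'
        (mul_nonneg hn (by positivity))
    have s5 : n * (2 * e * (r - a)) * (2 * r ^ n) ≤ 8 * ((n : ℝ) + 1) * e * ((r - a) * r ^ n) := by
      have hq : 0 ≤ e * ((r - a) * r ^ n) := by positivity
      nlinarith
    linarith
  have hkey2 : l * (b ^ n - a ^ n) ≤ 8 * ((n : ℝ) + 1) * e * ((r - a) * r ^ n) / r := by
    rw [le_div_iff₀ hr]
    have hdiff : 0 ≤ b ^ n - a ^ n :=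
      sub_nonneg.2 (pow_le_pow_left₀ ha (har.trans hbr) n)
    have : l * (b ^ n - a ^ n) * r ≤ l * (b * (b ^ n - a ^ n)) := by
      have : l * (b ^ n - a ^ n) * r = l * (r * (b ^ n - a ^ n)) := by ring
      rw [this]
      exact mul_le_mul_of_nonneg_left (mul_le_mul_of_nonneg_right hbr hdiff) hl0
    linarith
  linarith

/-- The real inequality in the case without a point of `U`. -/
theorem ray_real_zero (n : ℕ) {r e : ℝ} (hr : 0 < r) (he : 0 < e)
    (her : 8 * (n + 1) * e ≤ r) :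
    e * (r + e) ^ n ≤ 8 * ((n : ℝ) + 1) ^ 2 * e / r * ((r ^ (n + 1) - 0 ^ (n + 1)) / (n + 1)) := by
  have hn : (0 : ℝ) ≤ n := Nat.cast_nonneg n
  have hn1 : (0 : ℝ) < (n : ℝ) + 1 := by linarith
  have h2 : (r + e) ^ n ≤ 2 * r ^ n := add_pow_le_two n hr he.le (by nlinarith)
  have e1 : 8 * ((n : ℝ) + 1) ^ 2 * e / r * ((r ^ (n + 1) - 0 ^ (n + 1)) / (n + 1)) =
      8 * ((n : ℝ) + 1) * e * r ^ n := by
    rw [zero_pow (Nat.succ_ne_zero n), sub_zero]
    field_simp
    ring
  rw [e1]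
  have h3 : e * (r + e) ^ n ≤ e * (2 * r ^ n) := mul_le_mul_of_nonneg_left h2 he.le
  have hq : 0 ≤ e * r ^ n := by positivity
  nlinarith

/-- The ray lemma: `U` is the ray of an open set, `V` the ray of its `e` neighbourhood. -/
theorem ray_lemma (n : ℕ) {r e : ℝ} (hr : 0 < r) (he : 0 < e) (her : 8 * (n + 1) * e ≤ r)
    {U V : Set ℝ} (hUV : ∀ u ∈ U, ∀ s, 0 < s → |s - u| < e → s ∈ V) :
    nuR n (Ico r (r + e) \ V) ≤ nuR n (Ioo 0 r ∩ (V \ U)) +
      ENNReal.ofReal (8 * ((n : ℝ) + 1) ^ 2 * e / r) * nuR n (Ioo 0 r \ U) := by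
  have hn : (0 : ℝ) ≤ n := Nat.cast_nonneg n
  have hn1 : (0 : ℝ) < (n : ℝ) + 1 := by linarith
  have hKnn : 0 ≤ 8 * ((n : ℝ) + 1) ^ 2 * e / r := by positivity
  by_cases hne : (U ∩ Ioo 0 r).Nonempty
  · -- the supremum `a`
    have hbdd : BddAbove (U ∩ Ioo 0 r) := ⟨r, fun x hx => hx.2.2.le⟩
    set a := sSup (U ∩ Ioo 0 r) with ha_def
    have hu_le : ∀ u ∈ U ∩ Ioo 0 r, u ≤ a := fun u hu => le_csSup hbdd hu
    obtain ⟨u0, hu0⟩ := hne
    have ha0 : 0 < a := hu0.2.1.trans_le (hu_le u0 hu0)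
    have har : a ≤ r := csSup_le ⟨u0, hu0⟩ fun x hx => hx.2.2.le
    have hclose : ∀ t, t < a → ∃ u ∈ U ∩ Ioo 0 r, t < u := fun t ht =>
      exists_lt_of_lt_csSup ⟨u0, hu0⟩ ht
    set l := min e (r - a) with hl_def
    have hl0 : 0 ≤ l := le_min he.le (sub_nonneg.2 har)
    have hle : l ≤ e := min_le_left _ _
    have hlr : l ≤ r - a := min_le_right _ _
    -- the left set
    have hL : Ico r (r + e) \ V ⊆ Ico (r + e - l) (r + e) := by
      rintro s ⟨⟨hs1, hs2⟩, hsV⟩
      refine ⟨?_, hs2⟩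
      -- `s ≥ a + e`
      have hsa : a + e ≤ s := by
        by_contra hlt
        rw [not_le] at hlt
        obtain ⟨u, hu, hus⟩ := hclose (s - e) (by linarith)
        apply hsV
        refine hUV u hu.1 s (by linarith) ?_
        rw [abs_of_nonneg (by linarith [hu.2.2])]
        linarith
      rcases le_total e (r - a) with h | h
      · rw [hl_def, min_eq_left h]; linarith
      · rw [hl_def, min_eq_right h]; linarith
    have hZ : Ioo a (a + l) ⊆ Ioo 0 r ∩ (V \ U) := by
      rintro t ⟨ht1, ht2⟩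
      have htr : t < r := by linarith
      have ht0 : 0 < t := ha0.trans ht1
      refine ⟨⟨ht0, htr⟩, ?_, fun htU => ?_⟩
      · obtain ⟨u, hu, hus⟩ := hclose (t - e) (by linarith)
        refine hUV u hu.1 t ht0 ?_
        have huA := hu_le u hu
        rw [abs_of_nonneg (by linarith)]
        linarith
      · have := hu_le t ⟨htU, ht0, htr⟩
        linarith
    have hE : Ioo a r ⊆ Ioo 0 r \ U := by
      rintro t ⟨ht1, ht2⟩
      have ht0 : 0 < t := ha0.trans ht1
      refine ⟨⟨ht0, ht2⟩, fun htU => ?_⟩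
      have := hu_le t ⟨htU, ht0, ht2⟩
      linarith
    have hr1 : r + e - l ≤ r + e := by linarith
    have hr0 : 0 ≤ r + e - l := by linarith
    have step1 : nuR n (Ico r (r + e) \ V) ≤ ENNReal.ofReal (l * (r + e) ^ n) := by
      refine (nuR_mono n hL).trans ?_
      have := nuR_Ico_le n hr0 hr1
      have e1 : r + e - (r + e - l) = l := by ring
      rwa [e1] at this
    have step2 : ENNReal.ofReal (l * a ^ n) ≤ nuR n (Ioo 0 r ∩ (V \ U)) := by
      refine le_trans ?_ (nuR_mono n hZ)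
      have := nuR_Ioo_ge n (b := a + l) ha0.le
      have e1 : a + l - a = l := by ring
      rwa [e1] at this
    have step3 : ENNReal.ofReal ((r - a) * r ^ n / (n + 1)) ≤ nuR n (Ioo 0 r \ U) := by
      refine le_trans ?_ (nuR_mono n hE)
      rw [nuR_Ioo_eq n ha0.le har]
      apply ENNReal.ofReal_le_ofReal
      apply div_le_div_of_nonneg_right _ hn1.le
      have h1 := pow_diff_le (n + 1) ha0.le har
      have h3 : a ^ (n + 1) ≤ a * r ^ n := by
        rw [pow_succ, mul_comm]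
        exact mul_le_mul_of_nonneg_left (pow_le_pow_left₀ ha0.le har n) ha0.le
      have h4 : r ^ (n + 1) = r * r ^ n := by rw [pow_succ, mul_comm]
      rw [h4]
      nlinarith
    have hreal := ray_real n ha0.le har hr he her hl0 hle hlr
    have hEnn : 0 ≤ (r - a) * r ^ n / ((n : ℝ) + 1) := by
      apply div_nonneg (mul_nonneg (sub_nonneg.2 har) (pow_nonneg hr.le n)) hn1.le
    calc nuR n (Ico r (r + e) \ V) ≤ ENNReal.ofReal (l * (r + e) ^ n) := step1
      _ ≤ ENNReal.ofReal (l * a ^ n +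
            8 * ((n : ℝ) + 1) ^ 2 * e / r * ((r - a) * r ^ n / (n + 1))) :=
          ENNReal.ofReal_le_ofReal hreal
      _ = ENNReal.ofReal (l * a ^ n) + ENNReal.ofReal (8 * ((n : ℝ) + 1) ^ 2 * e / r) *
            ENNReal.ofReal ((r - a) * r ^ n / (n + 1)) := by
          rw [ENNReal.ofReal_add (mul_nonneg hl0 (pow_nonneg ha0.le n))
            (mul_nonneg hKnn hEnn), ENNReal.ofReal_mul hKnn]
      _ ≤ _ := add_le_add step2 (mul_le_mul_right step3 _)
  · -- no point of `U` below `r`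
    have hE : Ioo 0 r ⊆ Ioo 0 r \ U := by
      intro t ht
      refine ⟨ht, fun htU => hne ⟨t, htU, ht⟩⟩
    have step1 : nuR n (Ico r (r + e) \ V) ≤ ENNReal.ofReal (e * (r + e) ^ n) := by
      refine (nuR_mono n sdiff_subset).trans ?_
      have := nuR_Ico_le n hr.le (by linarith : r ≤ r + e)
      have e1 : r + e - r = e := by ring
      rwa [e1] at this
    have step3 : ENNReal.ofReal ((r ^ (n + 1) - 0 ^ (n + 1)) / (n + 1)) ≤ nuR n (Ioo 0 r \ U) := by
      refine le_trans ?_ (nuR_mono n hE)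
      rw [nuR_Ioo_eq n le_rfl hr.le]
    have hreal := ray_real_zero n hr he her
    calc nuR n (Ico r (r + e) \ V) ≤ ENNReal.ofReal (e * (r + e) ^ n) := step1
      _ ≤ ENNReal.ofReal (8 * ((n : ℝ) + 1) ^ 2 * e / r *
            ((r ^ (n + 1) - 0 ^ (n + 1)) / (n + 1))) := ENNReal.ofReal_le_ofReal hreal
      _ = ENNReal.ofReal (8 * ((n : ℝ) + 1) ^ 2 * e / r) *
            ENNReal.ofReal ((r ^ (n + 1) - 0 ^ (n + 1)) / (n + 1)) :=
          ENNReal.ofReal_mul hKnn
      _ ≤ ENNReal.ofReal (8 * ((n : ℝ) + 1) ^ 2 * e / r) * nuR n (Ioo 0 r \ U) :=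
          mul_le_mul_right step3 _
      _ ≤ _ := le_add_self


section Polar

variable {d : ℕ}

open Measure in
/-- The slice of the product set is a radial measure. -/
theorem slice_eq (n : ℕ) {R : Set (Ioi (0 : ℝ))} (hR : MeasurableSet R) :
    volumeIoiPow n R = nuR n (Subtype.val '' R) := by
  rw [volumeIoiPow, withDensity_apply _ hR,
    setLIntegral_subtype measurableSet_Ioi _ fun a : ℝ => ENNReal.ofReal (a ^ n)]
  rfl

/-- The set of radii in the ray from `c` in direction `θ` that lie in `S`. -/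
def raySet (c : E d) (S : Set (E d)) (θ : sphere (0 : E d) 1) : Set ℝ :=
  {s | 0 < s ∧ c + s • (θ : E d) ∈ S}

open Measure in
theorem polar_prod_set (c : E d) {S : Set (E d)} (hS : MeasurableSet S) :
    MeasurableSet {p : sphere (0 : E d) 1 × Ioi (0 : ℝ) | c + (p.2 : ℝ) • (p.1 : E d) ∈ S} := by
  have hc : Continuous fun p : sphere (0 : E d) 1 × Ioi (0 : ℝ) =>
      c + (p.2 : ℝ) • (p.1 : E d) := by fun_prop
  exact hc.measurable hS

open Measure in
theorem polar_slice (c : E d) (n : ℕ) {S : Set (E d)} (hS : MeasurableSet S)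
    (θ : sphere (0 : E d) 1) :
    volumeIoiPow n (Prod.mk θ ⁻¹'
        {p : sphere (0 : E d) 1 × Ioi (0 : ℝ) | c + (p.2 : ℝ) • (p.1 : E d) ∈ S}) =
      nuR n (raySet c S θ) := by
  have hm := (polar_prod_set c hS).preimage (measurable_prodMk_left (x := θ))
  rw [slice_eq n hm]
  congr 1
  ext s
  constructor
  · rintro ⟨r, hr, rfl⟩
    exact ⟨r.2, hr⟩
  · rintro ⟨hs, hsS⟩
    exact ⟨⟨s, hs⟩, hsS, rfl⟩

open Measure in
/-- Polar coordinates around `c`. -/
theorem polar_vol (hd : 1 ≤ d) (c : E d) {S : Set (E d)} (hS : MeasurableSet S) :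
    volume S = ∫⁻ θ, nuR (d - 1) (raySet c S θ) ∂(volume.toSphere) := by
  have : Nontrivial (E d) := by
    apply Module.nontrivial_of_finrank_pos (R := ℝ)
    rw [finrank_euclideanSpace_fin]
    omega
  set S' : Set (E d) := (fun z => c + z) ⁻¹' S with hS'
  have hS'm : MeasurableSet S' := (measurable_const_add c) hS
  have h1 : volume S' = volume S := measure_preimage_add volume c S
  rw [← h1]
  have h2 : volume S' = volume (S' \ {0}) := (measure_sdiff_null (measure_singleton 0)).symm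
  rw [h2]
  have hmP := measurePreserving_homeomorphUnitSphereProd (volume : Measure (E d))
  have hset := polar_prod_set c hS
  have h3 := hmP.measure_preimage hset.nullMeasurableSet
  have hfin : Module.finrank ℝ (E d) = d := finrank_euclideanSpace_fin
  rw [hfin, Measure.prod_apply hset] at h3
  simp_rw [polar_slice c (d - 1) hS] at h3
  rw [← h3, comap_subtype_coe_apply (isOpen_compl_singleton.measurableSet)]
  congr 1
  ext x
  simp only [Set.mem_sdiff, mem_image, mem_preimage, mem_ofPred_eq, Subtype.exists, exists_and_right,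
    exists_eq_right]
  constructor
  · rintro ⟨hx, hx0⟩
    have hx0' : x ∈ ({0}ᶜ : Set (E d)) := hx0
    refine ⟨hx0', ?_⟩
    have := (homeomorphUnitSphereProd (E d)).symm_apply_apply ⟨x, hx0'⟩
    have h4 := congrArg Subtype.val this
    rw [homeomorphUnitSphereProd_symm_apply_coe] at h4
    rw [h4]
    exact hx
  · rintro ⟨hx0, hx⟩
    refine ⟨?_, hx0⟩
    have := (homeomorphUnitSphereProd (E d)).symm_apply_apply ⟨x, hx0⟩
    have h4 := congrArg Subtype.val this
    rw [homeomorphUnitSphereProd_symm_apply_coe] at h4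
    rw [h4] at hx
    exact hx

open Measure in
theorem polar_measurable (c : E d) (n : ℕ) {S : Set (E d)} (hS : MeasurableSet S) :
    Measurable fun θ : sphere (0 : E d) 1 => nuR n (raySet c S θ) := by
  have h := measurable_measure_prodMk_left (ν := volumeIoiPow n) (polar_prod_set c hS)
  simpa only [polar_slice c n hS] using h

end Polar

section Main

variable {d : ℕ}

theorem norm_ray (c : E d) (θ : sphere (0 : E d) 1) (s u : ℝ) :
    dist (c + s • (θ : E d)) (c + u • (θ : E d)) = |s - u| := by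
  have hθ : ‖(θ : E d)‖ = 1 := by simp
  rw [dist_add_left, dist_eq_norm, ← sub_smul, norm_smul, hθ, mul_one, Real.norm_eq_abs]

theorem dist_ray (c : E d) (θ : sphere (0 : E d) 1) {s : ℝ} (hs : 0 < s) :
    dist (c + s • (θ : E d)) c = s := by
  have hθ : ‖(θ : E d)‖ = 1 := by simp
  rw [dist_eq_norm, add_sub_cancel_left, norm_smul, hθ, mul_one, Real.norm_eq_abs, abs_of_pos hs]

/-- Lemma A1: adding a ball to an open set `W` increases the volume of the `e` collar by at most
`8 d^2 e / r` times the volume of the part of the ball outside `W`. -/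
theorem A1 (hd : 1 ≤ d) {W : Set (E d)} (hW : IsOpen W) (c : E d) {r e : ℝ} (he : 0 < e)
    (her : 8 * d * e ≤ r) :
    volume (thickening e (W ∪ ball c r) \ (W ∪ ball c r)) ≤
      volume (thickening e W \ W) + ENNReal.ofReal (8 * d ^ 2 * e / r) * volume (ball c r \ W) := by
  have hd0 : (1 : ℝ) ≤ d := by exact_mod_cast hd
  have hr : 0 < r := lt_of_lt_of_le (by positivity) her
  set K : ℝ≥0∞ := ENNReal.ofReal (8 * d ^ 2 * e / r) with hK
  set T := thickening e W with hT
  have hTo : IsOpen T := isOpen_thickening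
  set B := ball c r with hB
  set A := (ball c (r + e) \ B) \ T with hA
  set Z := (T \ W) ∩ B with hZ
  set Eb := B \ W with hEb
  have hAm : MeasurableSet A :=
    (isOpen_ball.measurableSet.diff isOpen_ball.measurableSet).diff hTo.measurableSet
  have hZm : MeasurableSet Z :=
    (hTo.measurableSet.diff hW.measurableSet).inter isOpen_ball.measurableSet
  have hEbm : MeasurableSet Eb := isOpen_ball.measurableSet.diff hW.measurableSet
  -- the slice inequality
  have hslice : ∀ θ : sphere (0 : E d) 1, nuR (d - 1) (raySet c A θ) ≤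
      nuR (d - 1) (raySet c Z θ) + K * nuR (d - 1) (raySet c Eb θ) := by
    intro θ
    set n := d - 1 with hn
    have hnd : ((n : ℝ) + 1) = d := by
      rw [hn, Nat.cast_sub hd]; simp
    set U : Set ℝ := raySet c W θ with hU
    set V : Set ℝ := raySet c T θ with hV
    have hUV : ∀ u ∈ U, ∀ s, 0 < s → |s - u| < e → s ∈ V := by
      intro u hu s hs hsu
      refine ⟨hs, ?_⟩
      rw [hT, mem_thickening_iff]
      refine ⟨_, hu.2, ?_⟩
      rw [norm_ray]; exact hsu
    have her' : 8 * ((n : ℝ) + 1) * e ≤ r := by rw [hnd]; exact her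
    have hray := ray_lemma n hr he her' hUV
    rw [hnd] at hray
    have hA' : raySet c A θ ⊆ Ico r (r + e) \ V := by
      rintro s ⟨hs, ⟨⟨h1, h2⟩, h3⟩⟩
      refine ⟨⟨?_, ?_⟩, fun hsV => h3 hsV.2⟩
      · have : ¬ dist (c + s • (θ : E d)) c < r := h2
        rw [dist_ray c θ hs] at this
        linarith
      · have : dist (c + s • (θ : E d)) c < r + e := h1
        rwa [dist_ray c θ hs] at this
    have hZ' : Ioo 0 r ∩ (V \ U) ⊆ raySet c Z θ := by
      rintro s ⟨⟨hs0, hsr⟩, hsV, hsU⟩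
      refine ⟨hs0, ⟨hsV.2, fun hW' => hsU ⟨hs0, hW'⟩⟩, ?_⟩
      show dist (c + s • (θ : E d)) c < r
      rwa [dist_ray c θ hs0]
    have hE' : Ioo 0 r \ U ⊆ raySet c Eb θ := by
      rintro s ⟨⟨hs0, hsr⟩, hsU⟩
      refine ⟨hs0, ?_, fun hW' => hsU ⟨hs0, hW'⟩⟩
      show dist (c + s • (θ : E d)) c < r
      rwa [dist_ray c θ hs0]
    calc nuR n (raySet c A θ) ≤ nuR n (Ico r (r + e) \ V) := nuR_mono n hA'
      _ ≤ _ := hray
      _ ≤ _ := add_le_add (nuR_mono n hZ') (mul_le_mul_right (nuR_mono n hE') _)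
  -- integrate
  have hAvol : volume A ≤ volume Z + K * volume Eb := by
    rw [polar_vol hd c hAm, polar_vol hd c hZm, polar_vol hd c hEbm,
      ← lintegral_const_mul _ (polar_measurable c _ hEbm),
      ← lintegral_add_left (polar_measurable c _ hZm)]
    exact lintegral_mono hslice
  -- set inclusion
  have hsub : thickening e (W ∪ B) \ (W ∪ B) ⊆ ((T \ W) \ B) ∪ A := by
    rintro x ⟨hx, hxn⟩
    have hxW : x ∉ W := fun h => hxn (Or.inl h)
    have hxB : x ∉ B := fun h => hxn (Or.inr h)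
    by_cases hxT : x ∈ T
    · exact Or.inl ⟨⟨hxT, hxW⟩, hxB⟩
    · right
      refine ⟨⟨?_, hxB⟩, hxT⟩
      rw [mem_thickening_iff] at hx
      obtain ⟨z, hz, hxz⟩ := hx
      rcases hz with hz | hz
      · exact absurd (mem_thickening_iff.2 ⟨z, hz, hxz⟩) hxT
      · have hzc : dist z c < r := hz
        have := dist_triangle x z c
        show dist x c < r + e
        linarith
  have hsplit : volume ((T \ W) \ B) + volume Z = volume (T \ W) :=
    measure_sdiff_add_inter _ isOpen_ball.measurableSet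
  calc volume (thickening e (W ∪ B) \ (W ∪ B)) ≤ volume (((T \ W) \ B) ∪ A) := measure_mono hsub
    _ ≤ volume ((T \ W) \ B) + volume A := measure_union_le _ _
    _ ≤ volume ((T \ W) \ B) + (volume Z + K * volume Eb) := by gcongr
    _ = volume (T \ W) + K * volume Eb := by rw [← add_assoc, hsplit]

end Main

end ValeP137
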