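import Mathlib

/-!
Part A1 of the P137 blueprint: adding a ball of radius `r` to an open set `W` increases the
`e`-neighbourhood measure by at most `(2 d^2 e / r) |B \ W|`.
-/

open MeasureTheory Measure Metric Set Filter
open scoped ENNReal Topology

namespace Vale.Agent.Lib.P137

/-- The radial measure with density `s^n` on the line. -/
noncomputable def rho (n : ℕ) : Measure ℝ :=
  volume.withDensity fun s => ENNReal.ofReal (s ^ n)

/-- Antiderivative of `s^n`. -/
noncomputable def Vn (n : ℕ) (x : ℝ) : ℝ := x ^ (n + 1) / (n + 1)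

lemma Vn_sub_nonneg (n : ℕ) {x y : ℝ} (hx : 0 ≤ x) (hxy : x ≤ y) : 0 ≤ Vn n y - Vn n x := by
  unfold Vn
  have := pow_le_pow_left₀ hx hxy (n + 1)
  have h : (0 : ℝ) < n + 1 := by positivity
  rw [← sub_div]
  exact div_nonneg (by linarith) h.le

lemma rho_Ioc (n : ℕ) {x y : ℝ} (hx : 0 ≤ x) (hxy : x ≤ y) :
    rho n (Ioc x y) = ENNReal.ofReal (Vn n y - Vn n x) := by
  unfold rho
  rw [withDensity_apply _ measurableSet_Ioc]
  rw [← ofReal_integral_eq_lintegral_ofReal (intervalIntegral.intervalIntegrable_pow (μ := volume) _).1]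
  · rw [← intervalIntegral.integral_of_le hxy, integral_pow]
    congr 1
    unfold Vn
    ring
  · filter_upwards [ae_restrict_mem measurableSet_Ioc] with s hs
    exact pow_nonneg (hx.trans hs.1.le) _

lemma rho_singleton (n : ℕ) (x : ℝ) : rho n {x} = 0 := by
  unfold rho
  exact withDensity_absolutelyContinuous _ _ (by simp)

lemma rho_Ioo_ge (n : ℕ) {x y : ℝ} (hx : 0 ≤ x) (hxy : x ≤ y) :
    ENNReal.ofReal (Vn n y - Vn n x) ≤ rho n (Ioo x y) := by
  rw [← rho_Ioc n hx hxy]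
  have h : Ioc x y ⊆ Ioo x y ∪ {y} := by
    intro s hs
    rcases eq_or_lt_of_le hs.2 with h | h
    · right; exact h
    · left; exact ⟨hs.1, h⟩
  refine (measure_mono h).trans ((measure_union_le _ _).trans ?_)
  simp [rho_singleton]

lemma rho_Ico_le (n : ℕ) {x y : ℝ} (hx : 0 ≤ x) (hxy : x ≤ y) :
    rho n (Ico x y) ≤ ENNReal.ofReal (Vn n y - Vn n x) := by
  rw [← rho_Ioc n hx hxy]
  have h : Ico x y ⊆ Ioc x y ∪ {x} := by
    intro s hs
    rcases eq_or_lt_of_le hs.1 with h | h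
    · right; exact h.symm
    · left; exact ⟨h, hs.2.le⟩
  refine (measure_mono h).trans ((measure_union_le _ _).trans ?_)
  simp [rho_singleton]

lemma Vn_tangent (n : ℕ) {x y : ℝ} (hx : 0 ≤ x) (hxy : x ≤ y) :
    (y - x) * x ^ n ≤ Vn n y - Vn n x ∧ Vn n y - Vn n x ≤ (y - x) * y ^ n := by
  have hy : 0 ≤ y := hx.trans hxy
  -- two tangent inequalities by induction
  have h1 : ∀ m : ℕ, x ^ (m + 1) + (m + 1) * x ^ m * (y - x) ≤ y ^ (m + 1) := by
    intro m
    induction m with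
    | zero => simp
    | succ m ih =>
      have hxm : 0 ≤ x ^ m := pow_nonneg hx m
      have hsub : 0 ≤ y - x := sub_nonneg.2 hxy
      have e : y ^ (m + 1 + 1) = y * y ^ (m + 1) := by ring
      rw [e]
      have h2 := mul_le_mul_of_nonneg_left ih hy
      refine le_trans ?_ h2
      push_cast
      have h3 : 0 ≤ (m + 1 : ℝ) * x ^ m * (y - x) * (y - x) := by positivity
      have key : y * (x ^ (m + 1) + (m + 1) * x ^ m * (y - x))
          - (x ^ (m + 1 + 1) + (m + 1 + 1) * x ^ (m + 1) * (y - x))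
          = (m + 1 : ℝ) * x ^ m * (y - x) * (y - x) := by ring
      linarith
  have h2 : ∀ m : ℕ, y ^ (m + 1) ≤ x ^ (m + 1) + (m + 1) * y ^ m * (y - x) := by
    intro m
    induction m with
    | zero => simp
    | succ m ih =>
      have hym : 0 ≤ y ^ m := pow_nonneg hy m
      have hsub : 0 ≤ y - x := sub_nonneg.2 hxy
      have e : x ^ (m + 1 + 1) = x * x ^ (m + 1) := by ring
      have e2 : y ^ (m + 1 + 1) = y * y ^ (m + 1) := by ring
      have h5 : x * y ^ (m + 1) ≤ x * (x ^ (m + 1) + (m + 1) * y ^ m * (y - x)) :=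
        mul_le_mul_of_nonneg_left ih hx
      rw [e, e2]
      push_cast
      have h6 : 0 ≤ (m + 1 : ℝ) * y ^ m * (y - x) * (y - x) := by positivity
      have key : x * x ^ (m + 1) + (m + 1 + 1) * (y * y ^ m) * (y - x) - y * (y * y ^ m)
          - (x * x ^ (m + 1) - x * (y * y ^ m) + (m + 1) * x * y ^ m * (y - x))
          = (m + 1 : ℝ) * y ^ m * (y - x) * (y - x) := by ring
      have k2 : x * (x ^ (m + 1) + (m + 1) * y ^ m * (y - x))
          = x * x ^ (m + 1) + (m + 1) * x * y ^ m * (y - x) := by ring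
      have k3 : y ^ (m + 1) = y * y ^ m := by ring
      rw [k2, k3] at h5
      rw [k3]
      linarith
  have hn : (0 : ℝ) < n + 1 := by positivity
  unfold Vn
  rw [← sub_div, le_div_iff₀ hn, div_le_iff₀ hn]
  constructor
  · have := h1 n
    nlinarith
  · have := h2 n
    nlinarith

lemma one_add_pow_le {x : ℝ} (hx : 0 ≤ x) : ∀ n : ℕ, n * x ≤ 1 / 2 →
    (1 + x) ^ n ≤ 1 + 2 * n * x := by
  intro n
  induction n with
  | zero => simp
  | succ n ih =>
    intro h
    push_cast at h ⊢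
    have h1 : (n : ℝ) * x ≤ 1 / 2 := by nlinarith
    have h2 := ih h1
    rw [pow_succ]
    have h3 : (1 + x) ^ n * (1 + x) ≤ (1 + 2 * n * x) * (1 + x) :=
      mul_le_mul_of_nonneg_right h2 (by linarith)
    refine h3.trans ?_
    have h4 : 0 ≤ x * (1 - 2 * n * x) := mul_nonneg hx (by linarith)
    nlinarith

/-- Bernoulli. -/
lemma one_sub_pow_ge {x : ℝ} (hx : x ≤ 1) (n : ℕ) :
    1 - n * x ≤ (1 - x) ^ n := by
  have := one_add_mul_le_pow (a := -x) (by linarith) n
  have e : (1 : ℝ) + -x = 1 - x := by ring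
  rw [e] at this
  linarith

section ray

variable {n : ℕ} {r e : ℝ}

lemma R0 (hr : 0 < r) (he : 0 < e) (hle : e * (2 * (n + 1)) ≤ r) :
    Vn n (r + e) - Vn n r ≤ (2 * (n + 1) ^ 2 * e / r) * (Vn n r - Vn n 0) := by
  have ht := (Vn_tangent n (x := r) (y := r + e) hr.le (by linarith)).2
  have hx0 : 0 ≤ e / r := by positivity
  have hnx : n * (e / r) ≤ 1 / 2 := by
    rw [mul_div_assoc', div_le_iff₀ hr]
    nlinarith
  have h1 := one_add_pow_le hx0 n hnx
  have e1 : (r + e) ^ n = r ^ n * (1 + e / r) ^ n := by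
    rw [← mul_pow]; congr 1; field_simp
  have hrn : 0 ≤ r ^ n := pow_nonneg hr.le n
  have h2 : (r + e) ^ n ≤ 2 * r ^ n := by
    rw [e1]
    have : (1 + e / r) ^ n ≤ 2 := by nlinarith
    nlinarith
  have e2 : Vn n r - Vn n 0 = r ^ (n + 1) / (n + 1) := by
    unfold Vn; simp
  rw [e2]
  have e3 : (2 * ((n : ℝ) + 1) ^ 2 * e / r) * (r ^ (n + 1) / (n + 1)) = 2 * (n + 1) * e * r ^ n := by
    rw [pow_succ]; field_simp; ring
  rw [e3]
  have e4 : r + e - r = e := by ring
  rw [e4] at ht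
  have h5 : e * (r + e) ^ n ≤ e * (2 * r ^ n) := mul_le_mul_of_nonneg_left h2 he.le
  have h6 : 0 ≤ (n : ℝ) * e * r ^ n := by positivity
  nlinarith

lemma R1 (hr : 0 < r) (he : 0 < e) (hle : e * (2 * (n + 1)) ≤ r) {a : ℝ} (ha : 0 < a) (har : a < r)
    (hae : r ≤ a + e) :
    Vn n (r + e) - Vn n (a + e) ≤ (1 + 2 * (n + 1) ^ 2 * e / r) * (Vn n r - Vn n a) := by
  have h1 := (Vn_tangent n (x := a + e) (y := r + e) (by linarith) (by linarith)).2
  have h2 := (Vn_tangent n (x := a) (y := r) ha.le har.le).1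
  set x := e / r with hxdef
  have hx0 : 0 ≤ x := by positivity
  have hn1 : (0 : ℝ) < n + 1 := by positivity
  have hx1 : x * (2 * (n + 1)) ≤ 1 := by
    rw [hxdef, div_mul_eq_mul_div, div_le_iff₀ hr]; linarith
  have hnx : n * x ≤ 1 / 2 := by nlinarith
  have hx2 : x ≤ 1 := by nlinarith
  have e1 : (r + e) ^ n = r ^ n * (1 + x) ^ n := by
    rw [← mul_pow]; congr 1; rw [hxdef]; field_simp
  have e2 : (r - e) ^ n = r ^ n * (1 - x) ^ n := by
    rw [← mul_pow]; congr 1; rw [hxdef]; field_simp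
  have hrn : 0 < r ^ n := pow_pos hr n
  have h3 := one_add_pow_le hx0 n hnx
  have h4 := one_sub_pow_ge hx2 n
  have hκ : 2 * ((n : ℝ) + 1) ^ 2 * e / r = 2 * (n + 1) ^ 2 * x := by rw [hxdef]; ring
  rw [hκ]
  -- the key ratio
  have hkey : (1 + x) ^ n ≤ (1 + 2 * (n + 1) ^ 2 * x) * (1 - x) ^ n := by
    have h5 : 1 + 2 * (n : ℝ) * x ≤ (1 + 2 * (n + 1) ^ 2 * x) * (1 - n * x) := by
      have h6 : (2 * ((n : ℝ) + 1) * x) ≤ 1 := by linarith
      have h7 : 0 ≤ (n : ℝ) * x := by positivity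
      have h8 : 0 ≤ (n : ℝ) := by positivity
      nlinarith [mul_nonneg h8 hx0, mul_nonneg h7 (sub_nonneg.2 h6), mul_nonneg hx0 h8,
        mul_nonneg (mul_nonneg hx0 h8) h8, mul_nonneg (mul_nonneg hx0 hx0) h8,
        mul_nonneg (mul_nonneg hx0 h8) (sub_nonneg.2 h6)]
    refine h3.trans (h5.trans ?_)
    exact mul_le_mul_of_nonneg_left h4 (by positivity)
  have h9 : (r + e) ^ n ≤ (1 + 2 * (n + 1) ^ 2 * x) * (r - e) ^ n := by
    rw [e1, e2]
    calc r ^ n * (1 + x) ^ n ≤ r ^ n * ((1 + 2 * (n + 1) ^ 2 * x) * (1 - x) ^ n) :=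
          mul_le_mul_of_nonneg_left hkey hrn.le
      _ = _ := by ring
  have h10 : (r - e) ^ n ≤ a ^ n := by
    refine pow_le_pow_left₀ ?_ (by linarith) n
    nlinarith
  have hpos : 0 ≤ r - a := by linarith
  have hκ0 : 0 ≤ 1 + 2 * ((n : ℝ) + 1) ^ 2 * x := by positivity
  calc Vn n (r + e) - Vn n (a + e) ≤ (r + e - (a + e)) * (r + e) ^ n := h1
    _ = (r - a) * (r + e) ^ n := by ring
    _ ≤ (r - a) * ((1 + 2 * (n + 1) ^ 2 * x) * a ^ n) := by
        refine mul_le_mul_of_nonneg_left (h9.trans ?_) hpos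
        exact mul_le_mul_of_nonneg_left h10 hκ0
    _ = (1 + 2 * (n + 1) ^ 2 * x) * ((r - a) * a ^ n) := by ring
    _ ≤ _ := mul_le_mul_of_nonneg_left h2 hκ0

lemma R2 (hr : 0 < r) (he : 0 < e) (hle : e * (2 * (n + 1)) ≤ r) {a : ℝ} (ha : 0 < a)
    (hae : a + e < r) :
    Vn n (r + e) - Vn n r ≤ (Vn n (a + e) - Vn n a) +
      (2 * (n + 1) ^ 2 * e / r) * (Vn n r - Vn n a) := by
  have h1 := (Vn_tangent n (x := r) (y := r + e) hr.le (by linarith)).2
  have h2 := (Vn_tangent n (x := a) (y := a + e) ha.le (by linarith)).1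
  have har : a < r := by linarith
  set x := e / r with hxdef
  have hx0 : 0 ≤ x := by positivity
  have hx1 : x * (2 * (n + 1)) ≤ 1 := by
    rw [hxdef, div_mul_eq_mul_div, div_le_iff₀ hr]; linarith
  have hnx : n * x ≤ 1 / 2 := by nlinarith
  have e1 : (r + e) ^ n = r ^ n * (1 + x) ^ n := by
    rw [← mul_pow]; congr 1; rw [hxdef]; field_simp
  have hrn : 0 < r ^ n := pow_pos hr n
  have h3 := one_add_pow_le hx0 n hnx
  have e5 : Vn n r - Vn n a = (r ^ (n + 1) - a ^ (n + 1)) / (n + 1) := by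
    unfold Vn; ring
  have hn1 : (0 : ℝ) < n + 1 := by positivity
  have ean : a ^ n ≤ r ^ n := pow_le_pow_left₀ ha.le har.le n
  set D := r ^ (n + 1) - a ^ (n + 1) with hD
  have hD1 : (r - a) * r ^ n ≤ D := by
    rw [hD, pow_succ r n, pow_succ a n]
    nlinarith [mul_nonneg ha.le (sub_nonneg.2 ean)]
  have hD2 : r * (r ^ n - a ^ n) ≤ D := by
    rw [hD, pow_succ r n, pow_succ a n]
    nlinarith [mul_nonneg (pow_nonneg ha.le n) (sub_nonneg.2 har.le)]
  have hκ : (2 * ((n : ℝ) + 1) ^ 2 * e / r) * (D / (n + 1)) = 2 * (n + 1) * e * D / r := by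
    field_simp
  rw [e5, hκ]
  have e6 : r + e - r = e := by ring
  have e7 : a + e - a = e := by ring
  rw [e6] at h1
  rw [e7] at h2
  -- it suffices to bound the powers
  have hkey : (r + e) ^ n - a ^ n ≤ 2 * (n + 1) * D / r := by
    have h4 : (r + e) ^ n - r ^ n ≤ 2 * n * x * r ^ n := by
      rw [e1]
      nlinarith
    have h5 : 2 * n * x * r ^ n ≤ 2 * n * D / r := by
      rw [le_div_iff₀ hr]
      have : x * r = e := by rw [hxdef]; field_simp
      have h6 : e * r ^ n ≤ D := by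
        refine le_trans (mul_le_mul_of_nonneg_right (by linarith) hrn.le) hD1
      have hn0 : (0 : ℝ) ≤ 2 * n := by positivity
      calc 2 * n * x * r ^ n * r = 2 * n * (x * r * r ^ n) := by ring
        _ = 2 * n * (e * r ^ n) := by rw [this]
        _ ≤ 2 * n * D := mul_le_mul_of_nonneg_left h6 hn0
    have h6 : r ^ n - a ^ n ≤ D / r := by
      rw [le_div_iff₀ hr]; linarith
    have h7 : 2 * ((n : ℝ) + 1) * D / r = 2 * n * D / r + 2 * (D / r) := by ring
    have h8 : 0 ≤ D / r := by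
      refine div_nonneg ?_ hr.le
      have := mul_nonneg hr.le (sub_nonneg.2 ean)
      linarith
    rw [h7]
    linarith
  have h9 : e * ((r + e) ^ n - a ^ n) ≤ e * (2 * (n + 1) * D / r) :=
    mul_le_mul_of_nonneg_left hkey he.le
  have e8 : 2 * ((n : ℝ) + 1) * e * D / r = e * (2 * (n + 1) * D / r) := by ring
  rw [e8]
  linarith

/-- The one-dimensional ray inequality. -/
theorem ray_ineq (hr : 0 < r) (he : 0 < e) (hle : e * (2 * (n + 1)) ≤ r)
    (W₁ A₁ Z₁ E₁ : Set ℝ)
    (hA : ∀ s ∈ A₁, r ≤ s ∧ s < r + e ∧ ∀ t ∈ W₁, e ≤ |s - t|)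
    (hZ : ∀ s, 0 < s → s < r → s ∉ W₁ → (∃ t ∈ W₁, |s - t| < e) → s ∈ Z₁)
    (hE : ∀ s, 0 < s → s < r → s ∉ W₁ → s ∈ E₁) :
    rho n A₁ ≤ rho n Z₁ + ENNReal.ofReal (2 * (n + 1) ^ 2 * e / r) * rho n E₁ := by
  by_cases hA0 : A₁ = ∅
  · simp [hA0]
  obtain ⟨s₀, hs₀⟩ := Set.nonempty_iff_ne_empty.2 hA0
  have hκ0 : 0 ≤ 2 * ((n : ℝ) + 1) ^ 2 * e / r := by positivity
  by_cases hS : (W₁ ∩ Ioo 0 r).Nonempty
  · set a := sSup (W₁ ∩ Ioo 0 r) with ha
    have hbdd : BddAbove (W₁ ∩ Ioo 0 r) := ⟨r, fun t ht => ht.2.2.le⟩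
    obtain ⟨t₀, ht₀⟩ := hS
    have ha0 : 0 < a := lt_of_lt_of_le ht₀.2.1 (le_csSup hbdd ht₀)
    have hsup : ∀ s ∈ A₁, a + e ≤ s := by
      intro s hs
      have : a ≤ s - e := by
        refine csSup_le ⟨t₀, ht₀⟩ fun t ht => ?_
        have h1 := (hA s hs).2.2 t ht.1
        have h2 : t < s := lt_of_lt_of_le ht.2.2 (hA s hs).1
        rw [abs_of_pos (sub_pos.2 h2)] at h1
        linarith
      linarith
    have har : a < r := by
      have h1 := hsup s₀ hs₀
      have h2 := (hA s₀ hs₀).2.1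
      linarith
    have hnot : ∀ s, a < s → s < r → s ∉ W₁ := by
      intro s h1 h2 h3
      have : s ≤ a := le_csSup hbdd ⟨h3, ha0.trans h1, h2⟩
      linarith
    have hEsub : Ioo a r ⊆ E₁ := fun s hs => hE s (ha0.trans hs.1) hs.2 (hnot s hs.1 hs.2)
    have hZsub : ∀ s, a < s → s < r → s < a + e → s ∈ Z₁ := by
      intro s h1 h2 h3
      refine hZ s (ha0.trans h1) h2 (hnot s h1 h2) ?_
      obtain ⟨t, ht, hlt⟩ := exists_lt_of_lt_csSup ⟨t₀, ht₀⟩ (show s - e < a by linarith)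
      refine ⟨t, ht.1, ?_⟩
      have h4 : t ≤ a := le_csSup hbdd ht
      rw [abs_of_pos (by linarith)]
      linarith
    by_cases hae : r ≤ a + e
    · -- case R1
      have hA1 : A₁ ⊆ Ico (a + e) (r + e) := fun s hs => ⟨hsup s hs, (hA s hs).2.1⟩
      have hZ1 : Ioo a r ⊆ Z₁ := fun s hs => hZsub s hs.1 hs.2 (lt_of_lt_of_le hs.2 hae)
      have h1 : rho n A₁ ≤ ENNReal.ofReal (Vn n (r + e) - Vn n (a + e)) :=
        (measure_mono hA1).trans (rho_Ico_le n (by linarith) (by linarith))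
      have h2 : ENNReal.ofReal (Vn n r - Vn n a) ≤ rho n Z₁ :=
        (rho_Ioo_ge n ha0.le har.le).trans (measure_mono hZ1)
      have h3 : ENNReal.ofReal (Vn n r - Vn n a) ≤ rho n E₁ :=
        (rho_Ioo_ge n ha0.le har.le).trans (measure_mono hEsub)
      have hV : 0 ≤ Vn n r - Vn n a := Vn_sub_nonneg n ha0.le har.le
      refine h1.trans ?_
      refine (ENNReal.ofReal_le_ofReal (R1 hr he hle ha0 har hae)).trans ?_
      rw [add_mul, one_mul, ENNReal.ofReal_add hV (mul_nonneg hκ0 hV), ENNReal.ofReal_mul hκ0]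
      gcongr
    · -- case R2
      push Not at hae
      have hA1 : A₁ ⊆ Ico r (r + e) := fun s hs => ⟨(hA s hs).1, (hA s hs).2.1⟩
      have hZ1 : Ioo a (a + e) ⊆ Z₁ := fun s hs => hZsub s hs.1 (hs.2.trans hae) hs.2
      have h1 : rho n A₁ ≤ ENNReal.ofReal (Vn n (r + e) - Vn n r) :=
        (measure_mono hA1).trans (rho_Ico_le n hr.le (by linarith))
      have h2 : ENNReal.ofReal (Vn n (a + e) - Vn n a) ≤ rho n Z₁ :=
        (rho_Ioo_ge n ha0.le (by linarith)).trans (measure_mono hZ1)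
      have h3 : ENNReal.ofReal (Vn n r - Vn n a) ≤ rho n E₁ :=
        (rho_Ioo_ge n ha0.le har.le).trans (measure_mono hEsub)
      have hV : 0 ≤ Vn n r - Vn n a := Vn_sub_nonneg n ha0.le har.le
      have hV2 : 0 ≤ Vn n (a + e) - Vn n a := Vn_sub_nonneg n ha0.le (by linarith)
      refine h1.trans ?_
      refine (ENNReal.ofReal_le_ofReal (R2 hr he hle ha0 hae)).trans ?_
      rw [ENNReal.ofReal_add hV2 (mul_nonneg hκ0 hV), ENNReal.ofReal_mul hκ0]
      gcongr
  · -- case R0: no point of W₁ in (0,r)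
    have hEsub : Ioo 0 r ⊆ E₁ := by
      intro s hs
      exact hE s hs.1 hs.2 fun h => hS ⟨s, h, hs⟩
    have hA1 : A₁ ⊆ Ico r (r + e) := fun s hs => ⟨(hA s hs).1, (hA s hs).2.1⟩
    have h1 : rho n A₁ ≤ ENNReal.ofReal (Vn n (r + e) - Vn n r) :=
      (measure_mono hA1).trans (rho_Ico_le n hr.le (by linarith))
    have h3 : ENNReal.ofReal (Vn n r - Vn n 0) ≤ rho n E₁ :=
      (rho_Ioo_ge n le_rfl hr.le).trans (measure_mono hEsub)
    refine h1.trans ?_
    refine (ENNReal.ofReal_le_ofReal (R0 hr he hle)).trans ?_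
    rw [ENNReal.ofReal_mul hκ0]
    refine le_trans ?_ (le_add_self)
    gcongr

end ray

end Vale.Agent.Lib.P137

namespace Vale.Agent.Lib.P137

variable {E : Type*} [NormedAddCommGroup E] [NormedSpace ℝ E] [FiniteDimensional ℝ E]
  [MeasurableSpace E] [BorelSpace E] (μ : Measure E) [μ.IsAddHaarMeasure]

lemma volumeIoiPow_eq_rho (n : ℕ) {W : Set (Ioi (0 : ℝ))} (hW : MeasurableSet W) :
    volumeIoiPow n W = rho n (Subtype.val '' W) := by
  rw [volumeIoiPow, withDensity_apply _ hW,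
    setLIntegral_subtype measurableSet_Ioi _ fun a : ℝ => ENNReal.ofReal (a ^ n)]
  unfold rho
  rw [withDensity_apply _ (measurableSet_Ioi.subtype_image hW)]

/-- Polar coordinates for measures of sets. -/
theorem polar [Nontrivial E] {S : Set E} (hS : MeasurableSet S) :
    μ S = ∫⁻ θ : sphere (0 : E) 1,
      rho (Module.finrank ℝ E - 1) {s : ℝ | 0 < s ∧ s • (θ : E) ∈ S} ∂μ.toSphere := by
  set n := Module.finrank ℝ E - 1
  have hmp := μ.measurePreserving_homeomorphUnitSphereProd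
  set Φ := homeomorphUnitSphereProd E
  set T' : Set (sphere (0 : E) 1 × Ioi (0 : ℝ)) := {p | (p.2 : ℝ) • (p.1 : E) ∈ S} with hT'
  have hcont : Continuous fun p : sphere (0 : E) 1 × Ioi (0 : ℝ) => (p.2 : ℝ) • (p.1 : E) :=
    (continuous_subtype_val.comp continuous_snd).smul (continuous_subtype_val.comp continuous_fst)
  have hT'm : MeasurableSet T' := hcont.measurable hS
  have h1 : μ S = (μ.comap (↑)) (Φ ⁻¹' T') := by
    have hpre : Φ ⁻¹' T' = (Subtype.val : ({0}ᶜ : Set E) → E) ⁻¹' S := by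
      ext x
      simp only [hT', mem_preimage, mem_ofPred_eq]
      have hx : (x : E) ≠ 0 := x.2
      have : (((Φ x).2 : ℝ)) • ((Φ x).1 : E) = x := by
        simp [Φ, homeomorphUnitSphereProd, smul_smul, hx]
      rw [this]
    rw [hpre, comap_subtype_coe_apply (measurableSet_singleton _).compl]
    have : Subtype.val '' ((Subtype.val : ({0}ᶜ : Set E) → E) ⁻¹' S) = S \ {0} := by
      rw [Subtype.image_preimage_coe]
      ext x; simp [and_comm]
    rw [this, measure_sdiff_null (measure_singleton _)]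
  rw [h1, hmp.measure_preimage hT'm.nullMeasurableSet, Measure.prod_apply hT'm]
  refine lintegral_congr fun θ => ?_
  have hW : MeasurableSet (Prod.mk θ ⁻¹' T') := measurable_prodMk_left hT'm
  rw [volumeIoiPow_eq_rho _ hW]
  congr 1
  ext s
  simp only [mem_image, mem_preimage, hT', mem_ofPred_eq, Subtype.exists, exists_and_right,
    exists_eq_right, mem_Ioi]
  constructor
  · rintro ⟨h0, h⟩; exact ⟨h0, h⟩
  · rintro ⟨h0, h⟩; exact ⟨h0, h⟩

/-- Comparison of measures of three sets from a comparison along all rays from `c`. -/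
theorem measure_le_of_rays [Nontrivial E] (c : E) {A Z F : Set E} (hA : MeasurableSet A)
    (hZ : MeasurableSet Z) (hF : MeasurableSet F) (κ : ℝ≥0∞) 
    (hray : ∀ θ : sphere (0 : E) 1,
      rho (Module.finrank ℝ E - 1) {s : ℝ | 0 < s ∧ s • (θ : E) + c ∈ A} ≤
        rho (Module.finrank ℝ E - 1) {s : ℝ | 0 < s ∧ s • (θ : E) + c ∈ Z} +
        κ * rho (Module.finrank ℝ E - 1) {s : ℝ | 0 < s ∧ s • (θ : E) + c ∈ F}) :
    μ A ≤ μ Z + κ * μ F := by
  have htr : ∀ S : Set E, μ S = μ ((fun x => x + c) ⁻¹' S) := fun S =>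
    (measure_preimage_add_right μ c S).symm
  have hm : ∀ {S : Set E}, MeasurableSet S → MeasurableSet ((fun x => x + c) ⁻¹' S) := fun hS =>
    (measurable_add_const c) hS
  rw [htr A, htr Z, htr F, polar μ (hm hA), polar μ (hm hZ), polar μ (hm hF)]
  have hmeas : ∀ {S : Set E}, MeasurableSet S → Measurable fun θ : sphere (0 : E) 1 =>
      rho (Module.finrank ℝ E - 1) {s : ℝ | 0 < s ∧ s • (θ : E) ∈ (fun x => x + c) ⁻¹' S} := by
    intro S hS
    set T' : Set (sphere (0 : E) 1 × ℝ) := {p | 0 < p.2 ∧ p.2 • (p.1 : E) ∈ (fun x => x + c) ⁻¹' S}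
      with hT'
    have hT'm : MeasurableSet T' := by
      refine (measurableSet_lt measurable_const measurable_snd).inter ?_
      have hcont : Continuous fun p : sphere (0 : E) 1 × ℝ => p.2 • (p.1 : E) :=
        continuous_snd.smul (continuous_subtype_val.comp continuous_fst)
      exact hcont.measurable (hm hS)
    have : SFinite (rho (Module.finrank ℝ E - 1)) := by
      unfold rho
      infer_instance
    exact measurable_measure_prodMk_left hT'm
  rw [← lintegral_const_mul _ (hmeas hF), ← lintegral_add_left (hmeas hZ)]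
  refine lintegral_mono fun θ => ?_
  simpa using hray θ

/-- Part A1. -/
theorem partA1 {n : ℕ} (hd : Module.finrank ℝ E = n + 1) {W : Set E} (hW : IsOpen W) (c : E)
    {r e : ℝ} (hr : 0 < r) (he : 0 < e) (hle : e * (2 * (n + 1)) ≤ r) :
    μ (thickening e (W ∪ ball c r) \ (W ∪ ball c r)) ≤
      μ (thickening e W \ W) + ENNReal.ofReal (2 * (n + 1) ^ 2 * e / r) * μ (ball c r \ W) := by
  have : Nontrivial E := Module.nontrivial_of_finrank_pos (R := ℝ) (by omega)
  set T := thickening e W with hT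
  set B := ball c r with hB
  have hTo : IsOpen T := isOpen_thickening
  have hBo : IsOpen B := isOpen_ball
  have hthB : thickening e B = ball c (e + r) := thickening_ball he hr c
  set A := (ball c (e + r) \ B) \ T with hA
  set Z := (T \ W) ∩ B with hZ
  set F := B \ W with hF
  have hAm : MeasurableSet A :=
    (isOpen_ball.measurableSet.diff hBo.measurableSet).diff hTo.measurableSet
  have hZm : MeasurableSet Z := (hTo.measurableSet.diff hW.measurableSet).inter hBo.measurableSet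
  have hFm : MeasurableSet F := hBo.measurableSet.diff hW.measurableSet
  have hsplit : thickening e (W ∪ B) \ (W ∪ B) ⊆ ((T \ W) \ B) ∪ A := by
    rw [thickening_union, hthB]
    intro x hx
    have hxW : x ∉ W := fun h => hx.2 (Or.inl h)
    have hxB : x ∉ B := fun h => hx.2 (Or.inr h)
    rcases hx.1 with h | h
    · exact Or.inl ⟨⟨h, hxW⟩, hxB⟩
    · by_cases hxT : x ∈ T
      · exact Or.inl ⟨⟨hxT, hxW⟩, hxB⟩
      · exact Or.inr ⟨⟨h, hxB⟩, hxT⟩
  have hkey : μ A ≤ μ Z + ENNReal.ofReal (2 * (n + 1) ^ 2 * e / r) * μ F := by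
    refine measure_le_of_rays μ c hAm hZm hFm _ fun θ => ?_
    rw [hd, Nat.add_sub_cancel]
    have hnorm : ∀ s : ℝ, 0 < s → dist (s • (θ : E) + c) c = s := by
      intro s hs
      rw [dist_eq_norm, add_sub_cancel_right, norm_smul, Real.norm_eq_abs, abs_of_pos hs]
      have : ‖(θ : E)‖ = 1 := by simp
      rw [this, mul_one]
    have hdist : ∀ s t : ℝ, dist (s • (θ : E) + c) (t • (θ : E) + c) = |s - t| := by
      intro s t
      rw [dist_add_right, dist_eq_norm, ← sub_smul, norm_smul, Real.norm_eq_abs]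
      have : ‖(θ : E)‖ = 1 := by simp
      rw [this, mul_one]
    refine ray_ineq hr he hle {s : ℝ | 0 < s ∧ s • (θ : E) + c ∈ W} _ _ _ ?_ ?_ ?_
    · rintro s ⟨hs0, hsA⟩
      obtain ⟨⟨h1, h2⟩, h3⟩ := hsA
      refine ⟨?_, ?_, ?_⟩
      · by_contra h
        exact h2 (by rw [hB, mem_ball, hnorm s hs0]; linarith)
      · have := mem_ball.1 h1
        rw [hnorm s hs0] at this
        linarith
      · rintro t ⟨_, htW⟩
        by_contra h
        push Not at h
        refine h3 (mem_thickening_iff.2 ⟨_, htW, ?_⟩)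
        rw [hdist]; exact h
    · intro s hs0 hsr hsW ⟨t, ⟨_, htW⟩, hst⟩
      refine ⟨hs0, ⟨?_, ?_⟩, ?_⟩
      · refine mem_thickening_iff.2 ⟨_, htW, ?_⟩
        rw [hdist]; exact hst
      · exact fun h => hsW ⟨hs0, h⟩
      · rw [hB, mem_ball, hnorm s hs0]; exact hsr
    · intro s hs0 hsr hsW
      refine ⟨hs0, ?_, ?_⟩
      · rw [hB, mem_ball, hnorm s hs0]; exact hsr
      · exact fun h => hsW ⟨hs0, h⟩
  calc μ (thickening e (W ∪ B) \ (W ∪ B)) ≤ μ (((T \ W) \ B) ∪ A) := measure_mono hsplit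
    _ ≤ μ ((T \ W) \ B) + μ A := measure_union_le _ _
    _ ≤ μ ((T \ W) \ B) + (μ Z + ENNReal.ofReal (2 * (n + 1) ^ 2 * e / r) * μ F) := by gcongr
    _ = (μ Z + μ ((T \ W) \ B)) + ENNReal.ofReal (2 * (n + 1) ^ 2 * e / r) * μ F := by
        ring
    _ = μ (T \ W) + ENNReal.ofReal (2 * (n + 1) ^ 2 * e / r) * μ F := by
        rw [hZ, measure_inter_add_sdiff _ hBo.measurableSet]

end Vale.Agent.Lib.P137
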