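import Vale.Agent.Lib.P137.Defs

/-! P137: arithmetic of the scales `rj`, `Xs`, `rho`. -/

noncomputable section

namespace ValeP137

theorem Xs_pos {r0 : ℝ} (hr0 : 0 < r0) (i : ℕ) : 0 < Xs r0 i := by
  unfold Xs; positivity

theorem rj_pos {r0 : ℝ} (hr0 : 0 < r0) (j : ℕ) : 0 < rj r0 j := by
  unfold rj; positivity

theorem rho_pos (d : ℕ) {r0 : ℝ} (hr0 : 0 < r0) (i : ℕ) : 0 < rho d r0 i := by
  unfold rho; exact div_pos (Xs_pos hr0 i) (by positivity)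

theorem Xs_succ (r0 : ℝ) (i : ℕ) : Xs r0 (i + 1) = 4 * Xs r0 i := by
  unfold Xs; ring

theorem rj_succ (r0 : ℝ) (j : ℕ) : rj r0 (j + 1) = 4 * rj r0 j := by
  unfold rj; ring

theorem rho_succ (d : ℕ) (r0 : ℝ) (i : ℕ) : rho d r0 (i + 1) = 4 * rho d r0 i := by
  unfold rho; rw [Xs_succ]; ring

theorem Xs_eq_rj (r0 : ℝ) (j : ℕ) : Xs r0 j = 16 * rj r0 j := by
  unfold Xs rj; ring

/-- `rho_{j+m} = X_j = 16 r_j`. -/
theorem rho_top (d : ℕ) (r0 : ℝ) (j : ℕ) : rho d r0 (j + d + 9) = 16 * rj r0 j := by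
  unfold rho Xs rj
  have : (4 : ℝ) ^ (j + d + 9) = 4 ^ j * 4 ^ (d + 9) := by ring
  rw [this]
  field_simp

/-- Sum of the lower ladder radii. -/
theorem sum_rho_le (d : ℕ) {r0 : ℝ} (hr0 : 0 < r0) (i : ℕ) :
    ∑ l ∈ Finset.range (i + 1), rho d r0 (l + 1) ≤ (4 / 3) * rho d r0 (i + 1) := by
  have hpos := rho_pos d hr0
  induction i with
  | zero =>
    simp only [zero_add, Finset.sum_range_one]
    nlinarith [hpos 1]
  | succ n ih =>
    rw [Finset.sum_range_succ, rho_succ d r0 (n + 1)]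
    nlinarith [hpos (n + 1)]

theorem rho_mono (d : ℕ) {r0 : ℝ} (hr0 : 0 < r0) {i k : ℕ} (h : i ≤ k) :
    rho d r0 i ≤ rho d r0 k := by
  induction h with
  | refl => exact le_rfl
  | @step n _ ih =>
    rw [rho_succ]
    nlinarith [rho_pos d hr0 n]

end ValeP137
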