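import Vale.Agent.Lib.P137.Geom
import Vale.Agent.Lib.P137.Ladder
import Vale.Agent.Lib.P137.Levels
import Vale.Agent.Lib.P137.ThetaBounds

/-! P137 module Segment (pointwise inequality P, FTC on a segment, convex combination). -/

open MeasureTheory Metric Set Filter Topology
open scoped ENNReal

noncomputable section

namespace ValeP137

variable {d : ℕ} {f : E d → ℝ} {r0 : ℝ}

/-- (P) -/
theorem pointP (a u e : E d) (he : ‖e‖ = 1) (hτ : 0 < inner ℝ u e) :
    (inner ℝ u e / 2) * ‖a‖ - (‖u‖ ^ 2 / inner ℝ u e) * (‖a‖ - inner ℝ a e) ≤ inner ℝ a u := by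
  set τ : ℝ := inner ℝ u e with hτdef
  set s : ℝ := inner ℝ a e with hsdef
  set α : ℝ := ‖a‖ with hαdef
  set x : ℝ := inner ℝ a u with hxdef
  have hα0 : 0 ≤ α := norm_nonneg _
  have hee : inner ℝ e e = (1 : ℝ) := by
    rw [real_inner_self_eq_norm_sq, he]; norm_num
  -- orthogonal parts
  set a' : E d := a - s • e with ha'
  set u' : E d := u - τ • e with hu'
  have heu : inner ℝ e u = τ := real_inner_comm u e
  have h1 : inner ℝ a' u' = x - s * τ := by
    simp only [ha', hu', inner_sub_left, inner_sub_right, real_inner_smul_left,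
      real_inner_smul_right, hee, heu, ← hxdef, ← hsdef]
    ring
  have h2 : ‖a'‖ ^ 2 = α ^ 2 - s ^ 2 := by
    rw [ha', norm_sub_sq_real, real_inner_smul_right, norm_smul, he, mul_one, Real.norm_eq_abs,
      sq_abs, ← hsdef]
    ring
  have h3 : ‖u'‖ ^ 2 = ‖u‖ ^ 2 - τ ^ 2 := by
    rw [hu', norm_sub_sq_real, real_inner_smul_right, norm_smul, he, mul_one, Real.norm_eq_abs,
      sq_abs, ← hτdef]
    ring
  have hD : 0 ≤ α - s := by
    have := real_inner_le_norm a e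
    rw [he, mul_one] at this
    linarith
  have hs : -α ≤ s := by
    have := abs_real_inner_le_norm a e
    rw [he, mul_one] at this
    exact (abs_le.mp this).1
  set w : ℝ := ‖u'‖ ^ 2 with hw
  have hw0 : 0 ≤ w := by positivity
  have hCS : (x - s * τ) ^ 2 ≤ (α ^ 2 - s ^ 2) * w := by
    rw [← h1, ← h2, hw]
    have := abs_real_inner_le_norm a' u'
    have h4 : inner ℝ a' u' ^ 2 ≤ (‖a'‖ * ‖u'‖) ^ 2 := by
      rw [← sq_abs (inner ℝ a' u')]
      exact pow_le_pow_left₀ (abs_nonneg _) this 2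
    calc inner ℝ a' u' ^ 2 ≤ (‖a'‖ * ‖u'‖) ^ 2 := h4
      _ = ‖a'‖ ^ 2 * ‖u'‖ ^ 2 := by ring
  set D : ℝ := α - s with hDdef
  set T : ℝ := τ / 2 * α + D * w / τ with hT
  have hT0 : 0 ≤ T := by positivity
  have hTsq : (x - s * τ) ^ 2 ≤ T ^ 2 := by
    have h5 : (α ^ 2 - s ^ 2) * w ≤ 2 * α * D * w := by
      have : α ^ 2 - s ^ 2 ≤ 2 * α * D := by
        rw [hDdef]; nlinarith [sq_nonneg (α - s)]
      exact mul_le_mul_of_nonneg_right this hw0
    have h6 : T ^ 2 - 2 * α * D * w = (τ / 2 * α - D * w / τ) ^ 2 := by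
      rw [hT]
      field_simp
      ring
    nlinarith [sq_nonneg (τ / 2 * α - D * w / τ)]
  have hab := abs_le_of_sq_le_sq hTsq hT0
  have hx : s * τ - T ≤ x := by linarith [(abs_le.mp hab).1]
  have hu2 : ‖u‖ ^ 2 = τ ^ 2 + w := by linarith [h3]
  have hfin : τ / 2 * α - ‖u‖ ^ 2 / τ * D = s * τ - T := by
    rw [hu2, hT, hDdef]
    field_simp
    ring
  calc τ / 2 * α - ‖u‖ ^ 2 / τ * (α - s) = s * τ - T := hfin
    _ ≤ x := hx

/-- Integrated form of (P) along the segment `t ↦ w_t v`. -/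
theorem segment_ineq (b : BallData d) {F : E d → ℝ} {G : E d → E d}
    (hF : ∀ x, HasGradientAt F (G x) x) (hG : Continuous G) {v : E d} (hv : v ∈ ball b.c b.r) :
    F v + ∫ t in (1 : ℝ)..4, (b.tau (b.wt t v) / (2 * t)) * ‖G (b.wt t v)‖ ≤
      F (b.wt 4 v) + 2 * b.L * ∫ t in (1 : ℝ)..4,
        (‖G (b.wt t v)‖ - inner ℝ (G (b.wt t v)) b.e) := by
  have hL : 0 < b.L := lt_trans b.hr b.r_lt_L
  have hv1 : v ∈ b.Bt 1 := by rw [b.Bt_one]; exact hv
  have hτv : 0 < b.tau v := by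
    have h := b.tau_gt_of_mem (t := 1) one_pos hv1
    have h' := b.dl_pos
    linarith
  have hnv : ‖v - b.p‖ ^ 2 < 2 * 1 * b.L * b.tau v := b.norm_sq_lt_of_mem one_pos hv1
  have hwc : Continuous fun t : ℝ => b.wt t v := by
    unfold BallData.wt
    fun_prop
  have hGc : Continuous fun t : ℝ => G (b.wt t v) := hG.comp hwc
  have hle14 : (1 : ℝ) ≤ 4 := by norm_num
  have hu14 : uIcc (1 : ℝ) 4 = Icc 1 4 := uIcc_of_le hle14
  -- integrands
  have hcA : Continuous fun t : ℝ => inner ℝ (G (b.wt t v)) (v - b.p) := by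
    fun_prop
  have hcD : Continuous fun t : ℝ => ‖G (b.wt t v)‖ - inner ℝ (G (b.wt t v)) b.e := by
    fun_prop
  have hcT : ContinuousOn (fun t : ℝ => (b.tau (b.wt t v) / (2 * t)) * ‖G (b.wt t v)‖) (Icc 1 4) := by
    have htau : Continuous fun t : ℝ => b.tau (b.wt t v) := b.tau_continuous.comp hwc
    refine ContinuousOn.mul (ContinuousOn.div htau.continuousOn (by fun_prop) ?_)
      (hGc.norm.continuousOn)
    intro t ht
    have : 0 < t := lt_of_lt_of_le one_pos ht.1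
    positivity
  -- FTC
  have hderiv : ∀ t ∈ uIcc (1 : ℝ) 4, HasDerivAt (fun t : ℝ => F (b.wt t v))
      (inner ℝ (G (b.wt t v)) (v - b.p)) t := by
    intro t _
    have h1 : HasDerivAt (fun t : ℝ => b.wt t v) (v - b.p) t := by
      unfold BallData.wt
      have := ((hasDerivAt_id t).smul_const (v - b.p)).const_add b.p
      simpa using this
    have h2 := (hF (b.wt t v)).hasFDerivAt
    have h3 := h2.comp_hasDerivAt t h1
    simp only [InnerProductSpace.toDual_apply_apply] at h3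
    exact h3
  have hFTC : ∫ t in (1 : ℝ)..4, inner ℝ (G (b.wt t v)) (v - b.p) = F (b.wt 4 v) - F (b.wt 1 v) :=
    intervalIntegral.integral_eq_sub_of_hasDerivAt hderiv (hcA.intervalIntegrable _ _)
  rw [b.wt_one] at hFTC
  -- pointwise bound
  have hpt : ∀ t ∈ Icc (1 : ℝ) 4,
      (b.tau (b.wt t v) / (2 * t)) * ‖G (b.wt t v)‖ -
        2 * b.L * (‖G (b.wt t v)‖ - inner ℝ (G (b.wt t v)) b.e) ≤
      inner ℝ (G (b.wt t v)) (v - b.p) := by
    intro t ht
    have ht0 : 0 < t := lt_of_lt_of_le one_pos ht.1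
    set a := G (b.wt t v) with ha
    have hτt : b.tau (b.wt t v) = t * b.tau v := b.tau_wt t v
    have hinner : inner ℝ (t • (v - b.p)) b.e = t * b.tau v := by
      rw [real_inner_smul_left]
      rfl
    have hpos : 0 < inner ℝ (t • (v - b.p)) b.e := by
      rw [hinner]; positivity
    have hP := pointP a (t • (v - b.p)) b.e b.he hpos
    rw [hinner, real_inner_smul_right, norm_smul, Real.norm_eq_abs, abs_of_pos ht0] at hP
    have hDn : 0 ≤ ‖a‖ - inner ℝ a b.e := by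
      have := real_inner_le_norm a b.e
      rw [b.he, mul_one] at this
      linarith
    rw [hτt]
    have e1 : t * b.tau v / (2 * t) = b.tau v / 2 := by field_simp
    rw [e1]
    have e2 : (t * ‖v - b.p‖) ^ 2 / (t * b.tau v) = t * (‖v - b.p‖ ^ 2 / b.tau v) := by
      field_simp
    rw [e2] at hP
    have e3 : ‖v - b.p‖ ^ 2 / b.tau v ≤ 2 * b.L := by
      rw [div_le_iff₀ hτv]
      linarith
    have h5 : (‖v - b.p‖ ^ 2 / b.tau v) * (‖a‖ - inner ℝ a b.e) ≤
        2 * b.L * (‖a‖ - inner ℝ a b.e) := mul_le_mul_of_nonneg_right e3 hDn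
    have h6 : t * (b.tau v / 2 * ‖a‖ - (‖v - b.p‖ ^ 2 / b.tau v) * (‖a‖ - inner ℝ a b.e)) ≤
        t * inner ℝ a (v - b.p) := by
      calc t * (b.tau v / 2 * ‖a‖ - (‖v - b.p‖ ^ 2 / b.tau v) * (‖a‖ - inner ℝ a b.e))
          = t * b.tau v / 2 * ‖a‖ - t * (‖v - b.p‖ ^ 2 / b.tau v) * (‖a‖ - inner ℝ a b.e) := by ring
        _ ≤ t * inner ℝ a (v - b.p) := hP
    have h7 := le_of_mul_le_mul_left h6 ht0
    linarith
  -- integrate
  have hiT : IntervalIntegrable (fun t : ℝ => (b.tau (b.wt t v) / (2 * t)) * ‖G (b.wt t v)‖)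
      volume 1 4 := by
    apply ContinuousOn.intervalIntegrable
    rw [hu14]
    exact hcT
  have hiD : IntervalIntegrable
      (fun t : ℝ => 2 * b.L * (‖G (b.wt t v)‖ - inner ℝ (G (b.wt t v)) b.e)) volume 1 4 :=
    ((continuous_const.mul hcD).intervalIntegrable _ _)
  have hmono := intervalIntegral.integral_mono_on hle14 (hiT.sub hiD) (hcA.intervalIntegrable 1 4) hpt
  rw [intervalIntegral.integral_sub hiT hiD, intervalIntegral.integral_const_mul, hFTC] at hmono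
  linarith

/-- Lintegral of a nonnegative function, continuous on `[1,4]`, as an interval integral. -/
theorem lint_Icc_eq {g : ℝ → ℝ} (hc : ContinuousOn g (Icc 1 4)) (h0 : ∀ t ∈ Icc (1 : ℝ) 4, 0 ≤ g t) :
    ∫⁻ t in Icc (1 : ℝ) 4, ENNReal.ofReal (g t) = ENNReal.ofReal (∫ t in (1 : ℝ)..4, g t) := by
  have hi : IntegrableOn g (Icc 1 4) volume := hc.integrableOn_Icc
  rw [intervalIntegral.integral_of_le (by norm_num : (1 : ℝ) ≤ 4), ← integral_Icc_eq_integral_Ioc,
    ofReal_integral_eq_lintegral_ofReal hi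
      ((ae_restrict_iff' measurableSet_Icc).2 (ae_of_all _ h0))]

/-- Pointwise inequality for `v ∈ B`, in lintegral form: convex combination of `segment_ineq`
over the levels `lam_i = thl i (xi_1 v)`. -/
theorem pointwise_ineq (H : Std f r0) (b : BallData d) {j : ℕ} (hj : b.r < rj r0 (j + 1)) {v : E d}
    (hv : v ∈ ball b.c b.r) :
    ENNReal.ofReal (f v) +
      ∑ i ∈ Finset.range (j + 1), ENNReal.ofReal (thl r0 i (b.xi 1 v)) *
        ∫⁻ t in Icc (1 : ℝ) 4,
          ENNReal.ofReal (b.tau (b.wt t v) / (2 * t) * hl f r0 i (b.wt t v)) ≤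
    ENNReal.ofReal (f (b.wt 4 v)) +
      ∑ i ∈ Finset.range (j + 1), ENNReal.ofReal (thl r0 i (b.xi 1 v)) *
        (ENNReal.ofReal |f v - Fl f r0 i v| +
          ENNReal.ofReal |f (b.wt 4 v) - Fl f r0 i (b.wt 4 v)| +
          ENNReal.ofReal (2 * b.L) * ∫⁻ t in Icc (1 : ℝ) 4, DE f r0 b.e i (b.wt t v)) := by
  have hr0 := H.hr0
  have hL : 0 < b.L := lt_trans b.hr b.r_lt_L
  have hv1 : v ∈ b.Bt 1 := by rw [b.Bt_one]; exact hv
  have hτv : 0 < b.tau v := by
    have h := b.tau_gt_of_mem (t := 1) one_pos hv1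
    have h' := b.dl_pos
    linarith
  have hwc : Continuous fun t : ℝ => b.wt t v := by
    unfold BallData.wt
    fun_prop
  set lam : ℕ → ℝ := fun i => thl r0 i (b.xi 1 v) with hlam
  have hlam0 : ∀ i, 0 ≤ lam i := fun i => thl_nonneg hr0 i _
  have hsum : ∑ i ∈ Finset.range (j + 1), lam i = 1 := thl_xi_sum hr0 b hj one_pos v
  set Ti : ℕ → ℝ → ℝ := fun i t => b.tau (b.wt t v) / (2 * t) * hl f r0 i (b.wt t v) with hTi
  set Di : ℕ → ℝ → ℝ := fun i t => De f r0 b.e i (b.wt t v) with hDi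
  have hcT : ∀ i, ContinuousOn (Ti i) (Icc 1 4) := by
    intro i
    have htau : Continuous fun t : ℝ => b.tau (b.wt t v) := b.tau_continuous.comp hwc
    refine ContinuousOn.mul (ContinuousOn.div htau.continuousOn (by fun_prop) ?_)
      ((hl_cont H i).comp hwc).continuousOn
    intro t ht
    have : 0 < t := lt_of_lt_of_le one_pos ht.1
    positivity
  have hT0 : ∀ i, ∀ t ∈ Icc (1 : ℝ) 4, 0 ≤ Ti i t := by
    intro i t ht
    have ht0 : 0 < t := lt_of_lt_of_le one_pos ht.1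
    have hτt : b.tau (b.wt t v) = t * b.tau v := b.tau_wt t v
    have : 0 ≤ hl f r0 i (b.wt t v) := hl_nonneg i _
    simp only [hTi, hτt]
    positivity
  have hcD : ∀ i, ContinuousOn (Di i) (Icc 1 4) := fun i =>
    ((De_cont H b.e i).comp hwc).continuousOn
  have hD0 : ∀ i, ∀ t ∈ Icc (1 : ℝ) 4, 0 ≤ Di i t := fun i t _ => De_nonneg b.he i _
  set Ii : ℕ → ℝ := fun i => ∫ t in (1 : ℝ)..4, Ti i t with hIi
  set Ji : ℕ → ℝ := fun i => ∫ t in (1 : ℝ)..4, Di i t with hJi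
  have hI0 : ∀ i, 0 ≤ Ii i := fun i =>
    intervalIntegral.integral_nonneg (by norm_num) (hT0 i)
  have hJ0 : ∀ i, 0 ≤ Ji i := fun i =>
    intervalIntegral.integral_nonneg (by norm_num) (hD0 i)
  have hseg : ∀ i, Fl f r0 i v + Ii i ≤ Fl f r0 i (b.wt 4 v) + 2 * b.L * Ji i := by
    intro i
    have := segment_ineq b (F := Fl f r0 i) (G := Gl f r0 i) (Fl_grad H i) (Gl_cont H i) hv
    exact this
  -- the real inequality
  have hreal : f v + ∑ i ∈ Finset.range (j + 1), lam i * Ii i ≤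
      f (b.wt 4 v) + ∑ i ∈ Finset.range (j + 1), lam i *
        (|f v - Fl f r0 i v| + |f (b.wt 4 v) - Fl f r0 i (b.wt 4 v)| + 2 * b.L * Ji i) := by
    have h1 : (f v - f (b.wt 4 v)) = ∑ i ∈ Finset.range (j + 1), lam i * (f v - f (b.wt 4 v)) := by
      rw [← Finset.sum_mul, hsum, one_mul]
    have h2 : ∑ i ∈ Finset.range (j + 1), lam i * ((f v - f (b.wt 4 v)) + Ii i) ≤
        ∑ i ∈ Finset.range (j + 1), lam i *
          (|f v - Fl f r0 i v| + |f (b.wt 4 v) - Fl f r0 i (b.wt 4 v)| + 2 * b.L * Ji i) := by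
      refine Finset.sum_le_sum fun i _ => mul_le_mul_of_nonneg_left ?_ (hlam0 i)
      have h3 := hseg i
      have h4 := le_abs_self (f v - Fl f r0 i v)
      have h5 := neg_abs_le (f (b.wt 4 v) - Fl f r0 i (b.wt 4 v))
      linarith
    simp only [mul_add, Finset.sum_add_distrib] at h2
    simp only [mul_add, Finset.sum_add_distrib]
    have h6 := h1
    linarith
  -- conversion
  have hlintT : ∀ i, ∫⁻ t in Icc (1 : ℝ) 4,
      ENNReal.ofReal (b.tau (b.wt t v) / (2 * t) * hl f r0 i (b.wt t v)) = ENNReal.ofReal (Ii i) :=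
    fun i => lint_Icc_eq (hcT i) (hT0 i)
  have hlintD : ∀ i, ∫⁻ t in Icc (1 : ℝ) 4, DE f r0 b.e i (b.wt t v) = ENNReal.ofReal (Ji i) :=
    fun i => lint_Icc_eq (hcD i) (hD0 i)
  have hLHS : ENNReal.ofReal (f v) + ∑ i ∈ Finset.range (j + 1), ENNReal.ofReal (lam i) *
      ∫⁻ t in Icc (1 : ℝ) 4,
        ENNReal.ofReal (b.tau (b.wt t v) / (2 * t) * hl f r0 i (b.wt t v)) =
      ENNReal.ofReal (f v + ∑ i ∈ Finset.range (j + 1), lam i * Ii i) := by
    rw [ENNReal.ofReal_add (H.nn v)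
      (Finset.sum_nonneg fun i _ => mul_nonneg (hlam0 i) (hI0 i)),
      ENNReal.ofReal_sum_of_nonneg (fun i _ => mul_nonneg (hlam0 i) (hI0 i))]
    congr 1
    refine Finset.sum_congr rfl fun i _ => ?_
    rw [hlintT, ENNReal.ofReal_mul (hlam0 i)]
  have hRHS : ENNReal.ofReal (f (b.wt 4 v)) + ∑ i ∈ Finset.range (j + 1), ENNReal.ofReal (lam i) *
      (ENNReal.ofReal |f v - Fl f r0 i v| +
        ENNReal.ofReal |f (b.wt 4 v) - Fl f r0 i (b.wt 4 v)| +
        ENNReal.ofReal (2 * b.L) * ∫⁻ t in Icc (1 : ℝ) 4, DE f r0 b.e i (b.wt t v)) =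
      ENNReal.ofReal (f (b.wt 4 v) + ∑ i ∈ Finset.range (j + 1), lam i *
        (|f v - Fl f r0 i v| + |f (b.wt 4 v) - Fl f r0 i (b.wt 4 v)| + 2 * b.L * Ji i)) := by
    have hnn : ∀ i, 0 ≤ |f v - Fl f r0 i v| + |f (b.wt 4 v) - Fl f r0 i (b.wt 4 v)| +
        2 * b.L * Ji i := fun i => by
      have := hJ0 i
      positivity
    rw [ENNReal.ofReal_add (H.nn _)
      (Finset.sum_nonneg fun i _ => mul_nonneg (hlam0 i) (hnn i)),
      ENNReal.ofReal_sum_of_nonneg (fun i _ => mul_nonneg (hlam0 i) (hnn i))]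
    congr 1
    refine Finset.sum_congr rfl fun i _ => ?_
    rw [hlintD, ENNReal.ofReal_mul (hlam0 i)]
    congr 1
    have h2L : 0 ≤ 2 * b.L := by positivity
    rw [ENNReal.ofReal_add (add_nonneg (abs_nonneg _) (abs_nonneg _)) (mul_nonneg h2L (hJ0 i)),
      ENNReal.ofReal_add (abs_nonneg _) (abs_nonneg _), ENNReal.ofReal_mul h2L]
  rw [hLHS, hRHS]
  exact ENNReal.ofReal_le_ofReal hreal

end ValeP137
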