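import Vale.Agent.Lib.P137.Ladder

/-! P137 module Transfer (facts L1, L2, L3 of the blueprint, telescoping). -/

open MeasureTheory Metric Set Filter Topology
open scoped ENNReal

noncomputable section

namespace ValeP137

variable {d : ℕ} {f : E d → ℝ} {r0 : ℝ}

/-- Tonelli form of the mean operator. -/
theorem key_fubini {s : ℝ} (hs : 0 < s) {g : E d → ℝ} (hg : Continuous g) (hg0 : ∀ x, 0 ≤ g x)
    {b : E d → ℝ≥0∞} (hb : Measurable b) :
    volume (ball (0 : E d) s) * ∫⁻ w, b w * ENNReal.ofReal (Aop s g w) =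
      ∫⁻ w', (∫⁻ w in ball w' s, b w) * ENNReal.ofReal (g w') := by
  have hG : Measurable fun w => ENNReal.ofReal (g w) := hg.measurable.ennreal_ofReal
  have hV : volume (ball (0 : E d) s) ≠ ⊤ := measure_ball_lt_top.ne
  have hΔ : MeasurableSet {p : E d × E d | dist p.2 p.1 < s} :=
    (isOpen_lt (continuous_snd.dist continuous_fst) continuous_const).measurableSet
  set φ : E d → E d → ℝ≥0∞ := fun w w' =>
    ({p : E d × E d | dist p.2 p.1 < s}).indicator
      (fun p => b p.1 * ENNReal.ofReal (g p.2)) (w, w') with hφ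
  have hφm : Measurable (Function.uncurry φ) := by
    have : Function.uncurry φ = ({p : E d × E d | dist p.2 p.1 < s}).indicator
      (fun p => b p.1 * ENNReal.ofReal (g p.2)) := by
      ext ⟨w, w'⟩; rfl
    rw [this]
    exact ((hb.comp measurable_fst).mul (hG.comp measurable_snd)).indicator hΔ
  have h0 : volume (ball (0 : E d) s) * ∫⁻ w, b w * ENNReal.ofReal (Aop s g w) =
      ∫⁻ w, b w * (volume (ball (0 : E d) s) * ENNReal.ofReal (Aop s g w)) := by
    rw [← lintegral_const_mul' _ _ hV]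
    congr 1; ext w; ring
  have h1 : ∀ w, ∫⁻ w', φ w w' =
      b w * (volume (ball (0 : E d) s) * ENNReal.ofReal (Aop s g w)) := by
    intro w
    rw [← setLIntegral_ball_eq hs hg hg0 w, ← lintegral_const_mul _ hG,
      ← lintegral_indicator measurableSet_ball]
    refine lintegral_congr fun w' => ?_
    by_cases h : dist w' w < s
    · simp [hφ, indicator, h]
    · simp [hφ, indicator, h]
  have h2 : ∀ w', ∫⁻ w, φ w w' = (∫⁻ w in ball w' s, b w) * ENNReal.ofReal (g w') := by
    intro w'
    rw [← lintegral_mul_const _ hb, ← lintegral_indicator measurableSet_ball]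
    refine lintegral_congr fun w => ?_
    by_cases h : dist w w' < s
    · have h' : dist w' w < s := by rwa [dist_comm]
      simp [hφ, indicator, h, h']
    · have h' : ¬ dist w' w < s := by rwa [dist_comm]
      simp [hφ, indicator, h, h']
  rw [h0, ← lintegral_congr h1, lintegral_lintegral_swap hφm.aemeasurable]
  exact lintegral_congr h2

/-- Transfer: if `a w ≤ b w'` whenever `|w - w'| < s` then `∫ a g ≤ ∫ b A_s g`. -/
theorem transfer {s : ℝ} (hs : 0 < s) {g : E d → ℝ} (hg : Continuous g) (hg0 : ∀ x, 0 ≤ g x)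
    {a b : E d → ℝ≥0∞} (ha : Measurable a) (hb : Measurable b)
    (hab : ∀ w w', ‖w - w'‖ < s → a w ≤ b w') :
    ∫⁻ w, a w * ENNReal.ofReal (g w) ≤ ∫⁻ w, b w * ENNReal.ofReal (Aop s g w) := by
  have hG : Measurable fun w => ENNReal.ofReal (g w) := hg.measurable.ennreal_ofReal
  have hV : volume (ball (0 : E d) s) ≠ ⊤ := measure_ball_lt_top.ne
  have hV0 : volume (ball (0 : E d) s) ≠ 0 := (measure_ball_pos _ _ hs).ne'
  rw [← ENNReal.mul_le_mul_iff_right hV0 hV, key_fubini hs hg hg0 hb,
    ← lintegral_const_mul' _ _ hV]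
  refine lintegral_mono fun w => ?_
  rw [← mul_assoc]
  gcongr
  have h1 : volume (ball (0 : E d) s) * a w = ∫⁻ _ in ball w s, a w := by
    rw [setLIntegral_const, Measure.addHaar_ball_center _ w s, mul_comm]
  rw [h1]
  refine setLIntegral_mono' measurableSet_ball fun w' hw' => hab _ _ ?_
  rw [mem_ball, dist_comm, dist_eq_norm] at hw'
  exact hw'

/-- The mean preserves the total integral. -/
theorem lintegral_Aop {s : ℝ} (hs : 0 < s) {g : E d → ℝ} (hg : Continuous g) (hg0 : ∀ x, 0 ≤ g x) :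
    ∫⁻ w, ENNReal.ofReal (Aop s g w) = ∫⁻ w, ENNReal.ofReal (g w) := by
  have hG : Measurable fun w => ENNReal.ofReal (g w) := hg.measurable.ennreal_ofReal
  have hV : volume (ball (0 : E d) s) ≠ ⊤ := measure_ball_lt_top.ne
  have hV0 : volume (ball (0 : E d) s) ≠ 0 := (measure_ball_pos _ _ hs).ne'
  have h := key_fubini hs hg hg0 (b := fun _ => 1) measurable_const
  simp only [one_mul, lintegral_const, Measure.restrict_apply, MeasurableSet.univ, univ_inter,
    Measure.addHaar_ball_center] at h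
  rw [lintegral_const_mul' _ _ hV] at h
  exact (ENNReal.mul_right_inj hV0 hV).1 h

theorem hE_meas (H : Std f r0) (i : ℕ) : Measurable (hE f r0 i) :=
  (hl_cont H i).measurable.ennreal_ofReal

theorem vE_meas (H : Std f r0) (i : ℕ) : Measurable (vE f r0 i) :=
  (vl_cont H i).measurable.ennreal_ofReal

theorem DE_meas (H : Std f r0) (e : E d) (i : ℕ) : Measurable (DE f r0 e i) :=
  (De_cont H e i).measurable.ennreal_ofReal

theorem ofReal_Aop_hl (H : Std f r0) (i : ℕ) (w : E d) :
    ENNReal.ofReal (Aop (rho d r0 (i + 1)) (hl f r0 i) w) = hE f r0 (i + 1) w + vE f r0 i w := by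
  rw [← vl_add]
  exact ENNReal.ofReal_add (hl_nonneg _ _) (vl_nonneg H i w)

/-- L1 : `∫_S h_i ≤ ∫_T (h_{i+1} + v_{i+1})` if `T` contains the `rho_{i+1}` neighbourhood of `S`. -/
theorem L1 (H : Std f r0) (i : ℕ) {S T : Set (E d)} (hS : MeasurableSet S) (hT : MeasurableSet T)
    (hST : thickening (rho d r0 (i + 1)) S ⊆ T) :
    ∫⁻ w in S, hE f r0 i w ≤ (∫⁻ w in T, hE f r0 (i + 1) w) + ∫⁻ w in T, vE f r0 i w := by
  have hρ : 0 < rho d r0 (i + 1) := rho_pos d H.hr0 _
  have h := transfer (a := S.indicator 1) (b := T.indicator 1) hρ (hl_cont H i) (hl_nonneg i)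
    (measurable_one.indicator hS) (measurable_one.indicator hT) (by
      intro w w' hww'
      by_cases hw : w ∈ S
      · have hw' : w' ∈ T := by
          apply hST
          rw [mem_thickening_iff]
          exact ⟨w, hw, by rwa [dist_comm, dist_eq_norm]⟩
        simp [hw, hw']
      · simp [hw])
  have e1 : ∀ (U : Set (E d)) (φ : E d → ℝ≥0∞), (fun w => U.indicator 1 w * φ w) = U.indicator φ := by
    intro U φ; ext w; by_cases hw : w ∈ U <;> simp [hw]
  rw [show (fun w => S.indicator 1 w * ENNReal.ofReal (hl f r0 i w)) = S.indicator (hE f r0 i) from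
      e1 S _,
    show (fun w => T.indicator 1 w * ENNReal.ofReal (Aop (rho d r0 (i + 1)) (hl f r0 i) w)) =
      T.indicator (fun w => hE f r0 (i + 1) w + vE f r0 i w) from by
        ext w; by_cases hw : w ∈ T <;> simp [hw, ofReal_Aop_hl H i w],
    lintegral_indicator hS, lintegral_indicator hT,
    lintegral_add_left (hE_meas H _)] at h
  exact h

/-- Bound along a segment. -/
theorem seg_bound (H : Std f r0) (i : ℕ) (w z : E d) :
    ENNReal.ofReal |Fl f r0 i w - Fl f r0 i (w + z)| ≤
      ENNReal.ofReal ‖z‖ * ∫⁻ t in Ioc (0 : ℝ) 1, hE f r0 i (w + t • z) := by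
  have hder : ∀ t : ℝ, HasDerivAt (fun t : ℝ => Fl f r0 i (w + t • z))
      (inner ℝ (Gl f r0 i (w + t • z)) z) t := by
    intro t
    have h1 : HasDerivAt (fun t : ℝ => w + t • z) z t := by
      simpa using ((hasDerivAt_id t).smul_const z).const_add w
    have h2 := (Fl_grad H i (w + t • z)).hasFDerivAt.comp_hasDerivAt t h1
    rw [InnerProductSpace.toDual_apply_apply] at h2
    exact h2
  have hc : Continuous fun t : ℝ => w + t • z := by fun_prop
  have hcG : Continuous fun t : ℝ => inner ℝ (Gl f r0 i (w + t • z)) z :=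
    ((Gl_cont H i).comp hc).inner continuous_const
  have hch : Continuous fun t : ℝ => hl f r0 i (w + t • z) * ‖z‖ :=
    ((hl_cont H i).comp hc).mul continuous_const
  have heq : Fl f r0 i (w + z) - Fl f r0 i w =
      ∫ t in (0 : ℝ)..1, inner ℝ (Gl f r0 i (w + t • z)) z := by
    have := intervalIntegral.integral_eq_sub_of_hasDerivAt (a := 0) (b := 1)
      (fun t _ => hder t) (hcG.intervalIntegrable _ _)
    simpa using this.symm
  have hle : |Fl f r0 i w - Fl f r0 i (w + z)| ≤ ∫ t in (0 : ℝ)..1, hl f r0 i (w + t • z) * ‖z‖ := by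
    rw [abs_sub_comm, heq]
    refine (intervalIntegral.abs_integral_le_integral_abs zero_le_one).trans ?_
    refine intervalIntegral.integral_mono_on zero_le_one (hcG.abs.intervalIntegrable _ _)
      (hch.intervalIntegrable _ _) fun t _ => ?_
    exact abs_real_inner_le_norm _ _
  refine (ENNReal.ofReal_le_ofReal hle).trans ?_
  rw [intervalIntegral.integral_of_le zero_le_one,
    ofReal_integral_eq_lintegral_ofReal (hch.integrableOn_Icc.mono_set Ioc_subset_Icc_self)
      (Eventually.of_forall fun t => mul_nonneg (hl_nonneg _ _) (norm_nonneg _))]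
  have hm : Measurable fun t : ℝ => hE f r0 i (w + t • z) := (hE_meas H i).comp hc.measurable
  rw [← lintegral_const_mul _ hm]
  refine lintegral_mono fun t => ?_
  rw [ENNReal.ofReal_mul (hl_nonneg _ _), mul_comm]
  rfl

/-- Mean of the oscillation. -/
theorem osc_mean {s : ℝ} (hs : 0 < s) {F : E d → ℝ} (hF : Continuous F) (w : E d) :
    volume (ball (0 : E d) s) * ENNReal.ofReal |F w - Aop s F w| ≤
      ∫⁻ z in ball (0 : E d) s, ENNReal.ofReal |F w - F (w + z)| := by
  have hgc : Continuous fun x => |F w - F x| := (continuous_const.sub hF).abs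
  have h1 := setLIntegral_ball_eq hs hgc (fun x => abs_nonneg _) w
  have hV : volume (ball (0 : E d) s) ≠ ⊤ := measure_ball_lt_top.ne
  have hV0 : volume (ball (0 : E d) s) ≠ 0 := (measure_ball_pos _ _ hs).ne'
  have h2 : ∫⁻ x in ball w s, ENNReal.ofReal |F w - F x| =
      ∫⁻ z in ball (0 : E d) s, ENNReal.ofReal |F w - F (w + z)| := by
    rw [← lintegral_indicator measurableSet_ball, ← lintegral_indicator measurableSet_ball,
      ← lintegral_add_left_eq_self _ w]
    refine lintegral_congr fun z => ?_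
    by_cases hz : z ∈ ball (0 : E d) s
    · have hz' : w + z ∈ ball w s := by simpa using hz
      simp [hz, hz']
    · have hz' : w + z ∉ ball w s := by simpa using hz
      simp [hz, hz']
  rw [← h2, h1]
  gcongr
  have hcz : Continuous fun z => F (w + z) := hF.comp (by fun_prop)
  have hint : IntegrableOn (fun z => F (w + z)) (ball (0 : E d) s) :=
    (hcz.continuousOn.integrableOn_compact (isCompact_closedBall (0 : E d) s)).mono_set
      ball_subset_closedBall
  have hint2 : IntegrableOn (fun _ : E d => F w) (ball (0 : E d) s) :=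
    integrableOn_const (measure_ball_lt_top.ne)
  have hreal : volume.real (ball (0 : E d) s) ≠ 0 := by
    rw [Measure.real, ENNReal.toReal_ne_zero]
    exact ⟨hV0, hV⟩
  unfold Aop
  rw [setAverage_eq, setAverage_eq, smul_eq_mul, smul_eq_mul]
  have hconst : F w = (volume.real (ball (0 : E d) s))⁻¹ * ∫ _ in ball (0 : E d) s, F w := by
    rw [setIntegral_const, smul_eq_mul]
    field_simp
  have hdiff : F w - (volume.real (ball (0 : E d) s))⁻¹ * ∫ z in ball (0 : E d) s, F (w + z) =
      (volume.real (ball (0 : E d) s))⁻¹ * ∫ z in ball (0 : E d) s, (F w - F (w + z)) := by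
    rw [integral_sub hint2 hint, mul_sub, ← hconst]
  rw [hdiff, abs_mul, abs_of_nonneg (inv_nonneg.2 measureReal_nonneg)]
  gcongr
  exact abs_integral_le_integral_abs

/-- Translated integrals over `S`. -/
theorem translate_le {H' : E d → ℝ≥0∞} {S T : Set (E d)} {ρ : ℝ} (hS : MeasurableSet S)
    (hT : MeasurableSet T) (hST : thickening ρ S ⊆ T) {a : E d} (ha : ‖a‖ < ρ) :
    ∫⁻ w in S, H' (w + a) ≤ ∫⁻ w in T, H' w := by
  rw [← lintegral_indicator hS, ← lintegral_indicator hT,
    ← lintegral_add_right_eq_self (T.indicator H') a]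
  refine lintegral_mono fun w => ?_
  by_cases hw : w ∈ S
  · have hw' : w + a ∈ T := by
      apply hST
      rw [mem_thickening_iff]
      exact ⟨w, hw, by simpa using ha⟩
    simp [hw, hw']
  · simp [hw]

/-- L2 : `∫_S |F_i - F_{i+1}| ≤ rho_{i+1} ∫_T h_i`. -/
theorem L2 (H : Std f r0) (i : ℕ) {S T : Set (E d)} (hS : MeasurableSet S) (hT : MeasurableSet T)
    (hST : thickening (rho d r0 (i + 1)) S ⊆ T) :
    ∫⁻ w in S, ENNReal.ofReal |Fl f r0 i w - Fl f r0 (i + 1) w| ≤
      ENNReal.ofReal (rho d r0 (i + 1)) * ∫⁻ w in T, hE f r0 i w := by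
  set ρ := rho d r0 (i + 1) with hρdef
  have hρ : 0 < ρ := rho_pos d H.hr0 _
  have hV : volume (ball (0 : E d) ρ) ≠ ⊤ := measure_ball_lt_top.ne
  have hV0 : volume (ball (0 : E d) ρ) ≠ 0 := (measure_ball_pos _ _ hρ).ne'
  have hF : Continuous (Fl f r0 i) := (Fl_contDiff H i).continuous
  set ν : Measure (E d × ℝ) := (volume.restrict (ball (0 : E d) ρ)).prod
    (volume.restrict (Ioc (0 : ℝ) 1)) with hν
  have hHm : Measurable (hE f r0 i) := hE_meas H i
  have hΦ : Measurable fun q : E d × (E d × ℝ) => hE f r0 i (q.1 + q.2.2 • q.2.1) :=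
    hHm.comp (by fun_prop)
  -- Step A
  have hA : ∀ w, volume (ball (0 : E d) ρ) *
      ENNReal.ofReal |Fl f r0 i w - Fl f r0 (i + 1) w| ≤
        ENNReal.ofReal ρ * ∫⁻ p, hE f r0 i (w + p.2 • p.1) ∂ν := by
    intro w
    have h1 : Fl f r0 (i + 1) w = Aop ρ (Fl f r0 i) w := rfl
    rw [h1]
    refine (osc_mean hρ hF w).trans ?_
    rw [hν, lintegral_prod _ (by
      have : Measurable fun p : E d × ℝ => hE f r0 i (w + p.2 • p.1) := hHm.comp (by fun_prop)
      exact this.aemeasurable), ← lintegral_const_mul _ (by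
      have : Measurable fun p : E d × ℝ => hE f r0 i (w + p.2 • p.1) := hHm.comp (by fun_prop)
      exact this.lintegral_prod_right')]
    refine setLIntegral_mono' measurableSet_ball fun z hz => ?_
    refine (seg_bound H i w z).trans ?_
    gcongr
    simpa using (mem_ball_zero_iff.1 hz).le
  -- Step B
  have hB : ∫⁻ w in S, (∫⁻ p, hE f r0 i (w + p.2 • p.1) ∂ν) ≤
      volume (ball (0 : E d) ρ) * ∫⁻ w in T, hE f r0 i w := by
    rw [lintegral_lintegral_swap (by
      have : Measurable (Function.uncurry fun (w : E d) (p : E d × ℝ) =>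
          hE f r0 i (w + p.2 • p.1)) := by
        simpa [Function.uncurry_def] using hΦ
      exact this.aemeasurable)]
    have hbd : ∫⁻ p, (∫⁻ w in S, hE f r0 i (w + p.2 • p.1)) ∂ν ≤
        ∫⁻ _ : E d × ℝ, (∫⁻ w in T, hE f r0 i w) ∂ν := by
      rw [hν, Measure.prod_restrict]
      refine setLIntegral_mono' (measurableSet_ball.prod measurableSet_Ioc) fun p hp => ?_
      refine translate_le hS hT hST ?_
      have h1 : ‖p.1‖ < ρ := by simpa using hp.1
      have h2 : ‖p.2‖ ≤ 1 := by
        rw [Real.norm_eq_abs, abs_of_pos hp.2.1]; exact hp.2.2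
      rw [norm_smul]
      nlinarith [norm_nonneg p.1]
    refine hbd.trans ?_
    rw [lintegral_const, hν, ← univ_prod_univ, Measure.prod_prod]
    simp [mul_comm]
  rw [← ENNReal.mul_le_mul_iff_right hV0 hV, ← lintegral_const_mul' _ _ hV]
  calc ∫⁻ w in S, volume (ball (0 : E d) ρ) * ENNReal.ofReal |Fl f r0 i w - Fl f r0 (i + 1) w|
      ≤ ∫⁻ w in S, ENNReal.ofReal ρ * (∫⁻ p, hE f r0 i (w + p.2 • p.1) ∂ν) :=
        lintegral_mono fun w => hA w
    _ = ENNReal.ofReal ρ * ∫⁻ w in S, (∫⁻ p, hE f r0 i (w + p.2 • p.1) ∂ν) :=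
        lintegral_const_mul' _ _ ENNReal.ofReal_ne_top
    _ ≤ ENNReal.ofReal ρ * (volume (ball (0 : E d) ρ) * ∫⁻ w in T, hE f r0 i w) := by gcongr
    _ = _ := by ring

/-- L1 iterated. -/
theorem chain (H : Std f r0) {l k : ℕ} (hlk : l ≤ k) {S T : Set (E d)} (hS : MeasurableSet S)
    (hT : MeasurableSet T) (hST : thickening ((4 / 3) * rho d r0 k) S ⊆ T) :
    ∫⁻ w in S, hE f r0 l w ≤
      (∫⁻ w in T, hE f r0 k w) + ∑ n ∈ Finset.Ico l k, ∫⁻ w in T, vE f r0 n w := by
  induction k, hlk using Nat.le_induction generalizing T with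
  | base =>
    have hρ : 0 < (4 / 3) * rho d r0 l := by have := rho_pos d H.hr0 l; positivity
    have hsub : S ⊆ T := (self_subset_thickening hρ S).trans hST
    simp only [Finset.Ico_self, Finset.sum_empty, add_zero]
    exact lintegral_mono_set hsub
  | succ k hlk ih =>
    set T' := thickening ((4 / 3) * rho d r0 k) S with hT'
    have hT'o : MeasurableSet T' := isOpen_thickening.measurableSet
    have hρ : 0 < rho d r0 k := rho_pos d H.hr0 k
    have hsub : thickening (rho d r0 (k + 1)) T' ⊆ T := by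
      refine (thickening_thickening_subset _ _ _).trans ?_
      have hh : rho d r0 (k + 1) + (4 / 3) * rho d r0 k = (4 / 3) * rho d r0 (k + 1) := by
        rw [rho_succ]; ring
      rw [hh]; exact hST
    have hT'T : T' ⊆ T := (self_subset_thickening (rho_pos d H.hr0 (k + 1)) T').trans hsub
    have h1 := ih hT'o subset_rfl
    have h2 := L1 H k hT'o hT hsub
    rw [Finset.sum_Ico_succ_top hlk]
    calc ∫⁻ w in S, hE f r0 l w
        ≤ (∫⁻ w in T', hE f r0 k w) + ∑ n ∈ Finset.Ico l k, ∫⁻ w in T', vE f r0 n w := h1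
      _ ≤ ((∫⁻ w in T, hE f r0 (k + 1) w) + ∫⁻ w in T, vE f r0 k w) +
            ∑ n ∈ Finset.Ico l k, ∫⁻ w in T, vE f r0 n w := by
          refine add_le_add h2 (Finset.sum_le_sum fun n _ => ?_)
          exact lintegral_mono_set hT'T
      _ = _ := by
          rw [add_assoc, add_comm (∫⁻ w in T, vE f r0 k w)]

/-- L3 : the potential step for `D^e`. -/
theorem L3 (H : Std f r0) {e : E d} (he : ‖e‖ = 1) (i : ℕ) {a b : E d → ℝ≥0∞}
    (ha : Measurable a) (hb : Measurable b)
    (hab : ∀ w w', ‖w - w'‖ < rho d r0 (i + 1) → a w ≤ b w') :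
    ∫⁻ w, a w * DE f r0 e i w ≤
      (∫⁻ w, b w * DE f r0 e (i + 1) w) + ∫⁻ w, b w * vE f r0 i w := by
  have h := transfer (rho_pos d H.hr0 (i + 1)) (De_cont H e i) (De_nonneg he i) ha hb hab
  refine h.trans (le_of_eq ?_)
  have hm : Measurable fun w => b w * DE f r0 e (i + 1) w := hb.mul (DE_meas H e (i + 1))
  rw [← lintegral_add_left hm]
  refine lintegral_congr fun w => ?_
  rw [Aop_De H e i w, ENNReal.ofReal_add (De_nonneg he _ _) (vl_nonneg H i w), mul_add]
  rfl

theorem hE_lintegral_lt_top (H : Std f r0) (i : ℕ) : ∫⁻ w, hE f r0 i w < ⊤ := by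
  have hint : Integrable (hl f r0 i) := (hl_cont H i).integrable_of_hasCompactSupport (hl_cs H i)
  exact hint.lintegral_lt_top

/-- One step of the telescoping. -/
theorem lintegral_step (H : Std f r0) (i : ℕ) :
    (∫⁻ w, hE f r0 (i + 1) w) + ∫⁻ w, vE f r0 i w = ∫⁻ w, hE f r0 i w := by
  have h := lintegral_Aop (rho_pos d H.hr0 (i + 1)) (hl_cont H i) (hl_nonneg i)
  rw [← lintegral_add_left (hE_meas H _)]
  refine Eq.trans (lintegral_congr fun w => ?_) h
  exact (ofReal_Aop_hl H i w).symm

/-- Telescoping: `∑ ∫ v_l ≤ ∫ h_0`. -/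
theorem tsum_vE_le (H : Std f r0) :
    ∑' l, ∫⁻ w, vE f r0 l w ≤ ∫⁻ w, hE f r0 0 w := by
  have hpart : ∀ n, (∑ l ∈ Finset.range n, ∫⁻ w, vE f r0 l w) + ∫⁻ w, hE f r0 n w =
      ∫⁻ w, hE f r0 0 w := by
    intro n
    induction n with
    | zero => simp
    | succ n ih =>
      rw [Finset.sum_range_succ, ← ih, ← lintegral_step H n, add_assoc,
        add_comm (∫⁻ w, vE f r0 n w)]
  rw [ENNReal.tsum_eq_iSup_nat]
  refine iSup_le fun n => ?_
  rw [← hpart n]
  exact le_self_add

end ValeP137
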